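import Mathlib

/-!
The observation channel: quantile coupling of a binary channel with bounded likelihood ratio.
-/

set_option autoImplicit false

open Filter Topology MeasureTheory

namespace Crest.Agent.FIID

/-- distribution function with slope parameter `k` -/
noncomputable def Fk (k z : ℝ) : ℝ := z + k * (z ^ 2 - z)

/-- quantile function -/
noncomputable def Qk (k u : ℝ) : ℝ := 2 * u / ((1 - k) + Real.sqrt ((1 - k) ^ 2 + 4 * k * u))

/-- log likelihood ratio -/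
noncomputable def llr (z : ℝ) : ℝ := Real.log (z + 1 / 2) - Real.log (3 / 2 - z)

/-- the increment of the tilt given the current marginal `m` and the uniform label `u` -/
noncomputable def Tf (m u : ℝ) : ℝ := llr (Qk (m - 1 / 2) u)

section
variable {k u : ℝ}

theorem disc_pos (hk : |k| ≤ 1 / 2) (hu : u ∈ Set.Icc (0:ℝ) 1) : 0 < (1 - k) ^ 2 + 4 * k * u := by
  have h := abs_le.mp hk
  rcases le_or_gt 0 k with h0 | h0
  · have : 0 ≤ 4 * k * u := by have := hu.1; positivity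
    nlinarith
  · have : 4 * k ≤ 4 * k * u := by nlinarith [hu.2]
    nlinarith

theorem Qk_nonneg (hk : |k| ≤ 1 / 2) (hu : u ∈ Set.Icc (0:ℝ) 1) : 0 ≤ Qk k u := by
  have h := abs_le.mp hk
  unfold Qk
  apply div_nonneg (by linarith [hu.1])
  have := Real.sqrt_nonneg ((1 - k) ^ 2 + 4 * k * u)
  linarith

theorem Qk_le_one (hk : |k| ≤ 1 / 2) (hu : u ∈ Set.Icc (0:ℝ) 1) : Qk k u ≤ 1 := by
  have h := abs_le.mp hk
  have hs := Real.sqrt_nonneg ((1 - k) ^ 2 + 4 * k * u)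
  unfold Qk
  rw [div_le_one (by linarith)]
  rcases le_or_gt (2 * u) (1 - k) with h1 | h1
  · linarith
  · have : 2 * u - (1 - k) ≤ Real.sqrt ((1 - k) ^ 2 + 4 * k * u) := by
      apply Real.le_sqrt_of_sq_le
      nlinarith [mul_nonneg hu.1 (sub_nonneg.mpr hu.2)]
    linarith

theorem Qk_mem (hk : |k| ≤ 1 / 2) (hu : u ∈ Set.Icc (0:ℝ) 1) : Qk k u ∈ Set.Icc (0:ℝ) 1 :=
  ⟨Qk_nonneg hk hu, Qk_le_one hk hu⟩

theorem Fk_Qk (hk : |k| ≤ 1 / 2) (hu : u ∈ Set.Icc (0:ℝ) 1) : Fk k (Qk k u) = u := by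
  have h := abs_le.mp hk
  have hd := disc_pos hk hu
  have hs := Real.sqrt_nonneg ((1 - k) ^ 2 + 4 * k * u)
  have hsq := Real.sq_sqrt hd.le
  unfold Fk Qk
  set r := Real.sqrt ((1 - k) ^ 2 + 4 * k * u)
  have hne : (1 - k) + r ≠ 0 := by linarith
  field_simp
  have : r * r = (1 - k) ^ 2 + 4 * k * u := by nlinarith
  linear_combination (-u) * this

theorem Fk_injOn (hk : |k| ≤ 1 / 2) : Set.InjOn (Fk k) (Set.Icc (0:ℝ) 1) := by
  have h := abs_le.mp hk
  intro x hx y hy hxy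
  unfold Fk at hxy
  have h1 : (x - y) * (1 + k * (x + y - 1)) = 0 := by linarith
  rcases mul_eq_zero.mp h1 with h2 | h2
  · linarith
  · exfalso
    have hx' := hx.1; have hx'' := hx.2; have hy' := hy.1; have hy'' := hy.2
    have : |k * (x + y - 1)| ≤ 1/2 * 1 := by
      rw [abs_mul]
      apply mul_le_mul hk _ (abs_nonneg _) (by norm_num)
      rw [abs_le]; constructor <;> linarith
    have := abs_le.mp this
    linarith

theorem Fk_mem (hk : |k| ≤ 1 / 2) (hu : u ∈ Set.Icc (0:ℝ) 1) : Fk k u ∈ Set.Icc (0:ℝ) 1 := by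
  have h := abs_le.mp hk
  have h1 := hu.1
  have h2 := hu.2
  unfold Fk
  constructor
  · nlinarith [mul_nonneg h1 (sub_nonneg.mpr h2)]
  · nlinarith [mul_nonneg h1 (sub_nonneg.mpr h2)]

theorem Qk_Fk (hk : |k| ≤ 1 / 2) (hu : u ∈ Set.Icc (0:ℝ) 1) : Qk k (Fk k u) = u :=
  Fk_injOn hk (Qk_mem hk (Fk_mem hk hu)) hu (Fk_Qk hk (Fk_mem hk hu))

theorem Fk_image (hk : |k| ≤ 1 / 2) : Fk k '' Set.Icc (0:ℝ) 1 = Set.Icc (0:ℝ) 1 := by
  ext x
  constructor
  · rintro ⟨y, hy, rfl⟩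
    exact Fk_mem hk hy
  · intro hx
    exact ⟨Qk k x, Qk_mem hk hx, Fk_Qk hk hx⟩

theorem Qk_lip {k' : ℝ} (hk : |k| ≤ 1 / 2) (hk' : |k'| ≤ 1 / 2) (hu : u ∈ Set.Icc (0:ℝ) 1) :
    |Qk k u - Qk k' u| ≤ 1 / 2 * |k - k'| := by
  set z := Qk k u with hz
  set z' := Qk k' u with hz'
  have hzm : z ∈ Set.Icc (0:ℝ) 1 := Qk_mem hk hu
  have hzm' : z' ∈ Set.Icc (0:ℝ) 1 := Qk_mem hk' hu
  have h1 : Fk k z = u := Fk_Qk hk hu
  have h2 : Fk k' z' = u := Fk_Qk hk' hu
  unfold Fk at h1 h2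
  have h3 : (z - z') * (1 + k * (z + z' - 1)) = (k' - k) * (z' ^ 2 - z') := by linarith
  have h4 : 1 / 2 ≤ 1 + k * (z + z' - 1) := by
    have : |k * (z + z' - 1)| ≤ 1/2 * 1 := by
      rw [abs_mul]
      apply mul_le_mul hk _ (abs_nonneg _) (by norm_num)
      have hx' := hzm.1; have hx'' := hzm.2; have hy' := hzm'.1; have hy'' := hzm'.2
      rw [abs_le]; constructor <;> linarith
    have := abs_le.mp this
    linarith
  have h5 : |z' ^ 2 - z'| ≤ 1 / 4 := by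
    rw [abs_le]
    constructor
    · nlinarith [sq_nonneg (2 * z' - 1)]
    · nlinarith [hzm'.1, hzm'.2]
  have h6 : |z - z'| * (1 / 2) ≤ |k - k'| * (1 / 4) := by
    calc |z - z'| * (1 / 2) ≤ |z - z'| * |1 + k * (z + z' - 1)| := by
          apply mul_le_mul_of_nonneg_left _ (abs_nonneg _)
          exact le_trans h4 (le_abs_self _)
      _ = |k' - k| * |z' ^ 2 - z'| := by rw [← abs_mul, h3, abs_mul]
      _ ≤ |k' - k| * (1 / 4) := mul_le_mul_of_nonneg_left h5 (abs_nonneg _)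
      _ = |k - k'| * (1 / 4) := by rw [abs_sub_comm]
  linarith

theorem llr_hasDerivAt {z : ℝ} (hz : z ∈ Set.Icc (0:ℝ) 1) :
    HasDerivAt llr (1 / (z + 1 / 2) + 1 / (3 / 2 - z)) z := by
  have h1 : HasDerivAt (fun z : ℝ => Real.log (z + 1 / 2)) (1 / (z + 1 / 2)) z :=
    ((hasDerivAt_id z).add_const (1/2)).log (by simp only [id]; linarith [hz.1])
  have h2 : HasDerivAt (fun z : ℝ => Real.log (3 / 2 - z)) ((-1) / (3 / 2 - z)) z :=
    ((hasDerivAt_id z).const_sub (3/2)).log (by simp only [id]; linarith [hz.2])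
  have h3 := h1.sub h2
  have e : 1 / (z + 1 / 2) + 1 / (3 / 2 - z) = 1 / (z + 1 / 2) - (-1) / (3 / 2 - z) := by ring
  rw [e]
  exact h3

theorem llr_lip {z z' : ℝ} (hz : z ∈ Set.Icc (0:ℝ) 1) (hz' : z' ∈ Set.Icc (0:ℝ) 1) :
    |llr z - llr z'| ≤ 8 / 3 * |z - z'| := by
  have := Convex.norm_image_sub_le_of_norm_hasDerivWithin_le (f := llr)
    (f' := fun z => 1 / (z + 1 / 2) + 1 / (3 / 2 - z)) (s := Set.Icc (0:ℝ) 1)
    (x := z') (y := z) (C := 8/3)
    (fun x hx => (llr_hasDerivAt hx).hasDerivWithinAt) (fun x hx => by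
      have h1 := hx.1
      have h2 := hx.2
      have h3 : 0 < x + 1/2 := by linarith
      have h4 : 0 < 3/2 - x := by linarith
      rw [Real.norm_eq_abs, abs_of_pos (by positivity)]
      rw [div_add_div _ _ h3.ne' h4.ne', div_le_div_iff₀ (by positivity) (by norm_num)]
      nlinarith) (convex_Icc _ _) hz' hz
  simpa [Real.norm_eq_abs] using this

theorem llr_half : llr (1/2) = 0 := by
  unfold llr; norm_num

theorem llr_abs_le {z : ℝ} (hz : z ∈ Set.Icc (0:ℝ) 1) : |llr z| ≤ 2 := by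
  have h := llr_lip hz (z' := 1/2) (by constructor <;> norm_num)
  rw [llr_half, sub_zero] at h
  have : |z - 1/2| ≤ 1/2 := by
    rw [abs_le]; constructor <;> linarith [hz.1, hz.2]
  linarith

theorem half_mem {m : ℝ} (hm : m ∈ Set.Icc (0:ℝ) 1) : |m - 1/2| ≤ 1/2 := by
  rw [abs_le]; constructor <;> linarith [hm.1, hm.2]

theorem Tf_abs_le {m u : ℝ} (hm : m ∈ Set.Icc (0:ℝ) 1) (hu : u ∈ Set.Icc (0:ℝ) 1) :
    |Tf m u| ≤ 2 := llr_abs_le (Qk_mem (half_mem hm) hu)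

theorem Tf_lip {m m' u : ℝ} (hm : m ∈ Set.Icc (0:ℝ) 1) (hm' : m' ∈ Set.Icc (0:ℝ) 1)
    (hu : u ∈ Set.Icc (0:ℝ) 1) : |Tf m u - Tf m' u| ≤ 4 / 3 * |m - m'| := by
  unfold Tf
  have h1 := llr_lip (Qk_mem (half_mem hm) hu) (Qk_mem (half_mem hm') hu)
  have h2 := Qk_lip (half_mem hm) (half_mem hm') hu
  have : (m - 1/2) - (m' - 1/2) = m - m' := by ring
  rw [this] at h2
  linarith

theorem exp_llr {z : ℝ} (hz : z ∈ Set.Icc (0:ℝ) 1) : Real.exp (llr z) = (z + 1/2) / (3/2 - z) := by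
  unfold llr
  rw [Real.exp_sub, Real.exp_log (by linarith [hz.1]), Real.exp_log (by linarith [hz.2])]

theorem measurable_Qk : Measurable (fun q : ℝ × ℝ => Qk q.1 q.2) := by
  unfold Qk
  fun_prop

theorem measurable_llr : Measurable llr := by
  unfold llr
  fun_prop

theorem measurable_Tf : Measurable (fun q : ℝ × ℝ => Tf q.1 q.2) := by
  unfold Tf
  apply measurable_llr.comp
  exact measurable_Qk.comp ((measurable_fst.sub_const _).prodMk measurable_snd)

/-- The law of the increment: mixture of the two conditional laws. -/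
theorem lintegral_Tf {m : ℝ} (hm : m ∈ Set.Icc (0:ℝ) 1) (G : ℝ → ENNReal) :
    ∫⁻ u in Set.Icc (0:ℝ) 1, G (Tf m u) =
      ∫⁻ z in Set.Icc (0:ℝ) 1, ENNReal.ofReal (m * (z + 1/2) + (1 - m) * (3/2 - z)) * G (llr z) := by
  have hk := half_mem hm
  have h := lintegral_image_eq_lintegral_abs_deriv_mul (s := Set.Icc (0:ℝ) 1) measurableSet_Icc
    (f := Fk (m - 1/2)) (f' := fun z => 1 + (m - 1/2) * (2 * z - 1))
    (fun x _ => by
      apply HasDerivAt.hasDerivWithinAt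
      unfold Fk
      have h1 : HasDerivAt (fun z : ℝ => z ^ 2 - z) (2 * x - 1) x := by
        have h2 : HasDerivAt (fun z : ℝ => z ^ 2) (2 * x) x := by
          simpa using hasDerivAt_pow 2 x
        exact h2.sub (hasDerivAt_id' x)
      exact (hasDerivAt_id x).add (h1.const_mul _))
    (Fk_injOn hk) (fun u => G (llr (Qk (m - 1/2) u)))
  rw [Fk_image hk] at h
  have e1 : ∫⁻ u in Set.Icc (0:ℝ) 1, G (Tf m u) = ∫⁻ u in Set.Icc (0:ℝ) 1, G (llr (Qk (m - 1/2) u)) := rfl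
  rw [e1, h]
  apply setLIntegral_congr_fun measurableSet_Icc
  intro z hz
  simp only
  rw [Qk_Fk hk hz]
  congr 2
  have h1 := hz.1
  have h2 := hz.2
  have h3 := hm.1
  have h4 := hm.2
  rw [abs_of_nonneg]
  · ring
  · have : |(m - 1/2) * (2 * z - 1)| ≤ 1/2 * 1 := by
      rw [abs_mul]
      apply mul_le_mul hk _ (abs_nonneg _) (by norm_num)
      rw [abs_le]; constructor <;> linarith
    have := abs_le.mp this
    linarith

end

end Crest.Agent.FIID
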