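import Mathlib

/-!
Calculus consequences of the two point inequality on `(0, ∞)`.
-/

set_option autoImplicit false

open Filter Topology

namespace Crest.Agent.FIID

/-- Tangent line bound to the right. -/
theorem tangent_right (q q' : ℝ → ℝ) (hd : ∀ x, 0 < x → HasDerivAt q (q' x) x)
    (hq' : ∀ x, 0 < x → 0 ≤ q' x)
    (htp : ∀ x y, 0 < x → 0 < y → (q x - q y) ^ 2 ≤ (x - y) ^ 2 * (q' x * q' y))
    (x s : ℝ) (hx : 0 < x) (hxs : x < s) : q s - q x ≤ q' x * (s - x) := by
  have hmono : ∀ a b, 0 < a → a ≤ b → q a ≤ q b := by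
    intro a b ha hab
    have : MonotoneOn q (Set.Icc a b) := by
      apply monotoneOn_of_deriv_nonneg (convex_Icc a b)
      · intro t ht
        exact (hd t (lt_of_lt_of_le ha ht.1)).continuousAt.continuousWithinAt
      · intro t ht
        rw [interior_Icc] at ht
        exact (hd t (lt_trans ha ht.1)).differentiableAt.differentiableWithinAt
      · intro t ht
        rw [interior_Icc] at ht
        rw [(hd t (lt_trans ha ht.1)).deriv]
        exact hq' t (lt_trans ha ht.1)
    exact this (Set.left_mem_Icc.mpr hab) (Set.right_mem_Icc.mpr hab) hab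
  by_contra hcon
  push Not at hcon
  have hqx := hq' x hx
  have hF : 0 < q s - q x := lt_of_le_of_lt (mul_nonneg hqx (by linarith)) hcon
  have hqx0 : 0 < q' x := by
    rcases hqx.lt_or_eq with h | h
    · exact h
    · exfalso
      have := htp x s hx (by linarith)
      rw [← h] at this
      nlinarith
  have hFT : ∀ T, s ≤ T → 0 < q T - q x := fun T hT => by
    have := hmono s T (by linarith) hT
    linarith
  set R : ℝ → ℝ := fun T => -(q T - q x)⁻¹ + (q' x * (T - x))⁻¹ with hR
  have hRd : ∀ T, s ≤ T → HasDerivAt R (-(-(q' T) / (q T - q x) ^ 2) + -(q' x) / (q' x * (T - x)) ^ 2) T := by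
    intro T hT
    have h1 : HasDerivAt (fun T => q T - q x) (q' T) T := (hd T (by linarith)).sub_const _
    have h2 : HasDerivAt (fun T => q' x * (T - x)) (q' x) T := by
      simpa using ((hasDerivAt_id T).sub_const x).const_mul (q' x)
    have h3 := (h1.inv (hFT T hT).ne').neg
    have h4 := h2.inv (mul_pos hqx0 (by linarith)).ne'
    exact h3.add h4
  have hRmono : ∀ T, s ≤ T → R s ≤ R T := by
    intro T hT
    have : MonotoneOn R (Set.Icc s T) := by
      apply monotoneOn_of_deriv_nonneg (convex_Icc s T)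
      · intro t ht
        exact (hRd t ht.1).continuousAt.continuousWithinAt
      · intro t ht
        rw [interior_Icc] at ht
        exact (hRd t ht.1.le).differentiableAt.differentiableWithinAt
      · intro t ht
        rw [interior_Icc] at ht
        rw [(hRd t ht.1.le).deriv]
        have hpos := hFT t ht.1.le
        have htp' := htp t x (by linarith [ht.1]) hx
        have htx : 0 < t - x := by linarith [ht.1]
        have e1 : -(-(q' t) / (q t - q x) ^ 2) + -(q' x) / (q' x * (t - x)) ^ 2 =
            (q' t * q' x * (t - x) ^ 2 - (q t - q x) ^ 2) / ((q t - q x) ^ 2 * (q' x * (t - x) ^ 2)) := by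
          field_simp
          ring
        rw [e1]
        apply div_nonneg
        · nlinarith
        · positivity
    exact this (Set.left_mem_Icc.mpr hT) (Set.right_mem_Icc.mpr hT) hT
  have hlim : Tendsto (fun T : ℝ => (q' x * (T - x))⁻¹) atTop (𝓝 0) := by
    apply Tendsto.inv_tendsto_atTop
    apply Tendsto.const_mul_atTop hqx0
    exact tendsto_atTop_add_const_right _ _ tendsto_id
  have hRs : R s ≤ 0 := by
    refine ge_of_tendsto hlim ?_
    filter_upwards [eventually_ge_atTop s] with T hT
    calc R s ≤ R T := hRmono T hT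
      _ ≤ (q' x * (T - x))⁻¹ := by
        simp only [hR]
        have := inv_pos.mpr (hFT T hT)
        linarith
  simp only [hR] at hRs
  have h5 : (q' x * (s - x))⁻¹ ≤ (q s - q x)⁻¹ := by linarith
  have h6 := (inv_le_inv₀ (mul_pos hqx0 (by linarith)) hF).mp h5
  linarith

/-- Tangent line bound to the left. -/
theorem tangent_left (q q' : ℝ → ℝ) (hd : ∀ x, 0 < x → HasDerivAt q (q' x) x)
    (hq' : ∀ x, 0 < x → 0 ≤ q' x)
    (htp : ∀ x y, 0 < x → 0 < y → (q x - q y) ^ 2 ≤ (x - y) ^ 2 * (q' x * q' y))
    (x y : ℝ) (hy : 0 < y) (hyx : y < x) : q' x * (x - y) ≤ q x - q y := by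
  set D : ℝ → ℝ := fun t => (q x - q t) / (x - t) with hD
  have hDd : ∀ t, y ≤ t → t < x → HasDerivAt D ((-(q' t) * (x - t) - (q x - q t) * (-1)) / (x - t) ^ 2) t := by
    intro t ht htx
    have h1 : HasDerivAt (fun t => q x - q t) (-(q' t)) t := (hd t (by linarith)).const_sub _
    have h2 : HasDerivAt (fun t => x - t) (-1) t := (hasDerivAt_id t).const_sub _
    exact h1.div h2 (by linarith)
  have hanti : ∀ t, y < t → t < x → D t ≤ D y := by
    intro t hyt htx
    have : AntitoneOn D (Set.Icc y t) := by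
      apply antitoneOn_of_deriv_nonpos (convex_Icc y t)
      · intro u hu
        exact (hDd u hu.1 (lt_of_le_of_lt hu.2 htx)).continuousAt.continuousWithinAt
      · intro u hu
        rw [interior_Icc] at hu
        exact (hDd u hu.1.le (lt_trans hu.2 htx)).differentiableAt.differentiableWithinAt
      · intro u hu
        rw [interior_Icc] at hu
        rw [(hDd u hu.1.le (lt_trans hu.2 htx)).deriv]
        apply div_nonpos_of_nonpos_of_nonneg _ (sq_nonneg _)
        have := tangent_right q q' hd hq' htp u x (by linarith [hu.1]) (lt_trans hu.2 htx)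
        linarith
    exact this (Set.left_mem_Icc.mpr hyt.le) (Set.right_mem_Icc.mpr hyt.le) hyt.le
  have hlim : Tendsto D (𝓝[<] x) (𝓝 (q' x)) := by
    have h := (hd x (by linarith)).tendsto_slope
    have h2 : Tendsto (slope q x) (𝓝[<] x) (𝓝 (q' x)) := h.mono_left (nhdsLT_le_nhdsNE x)
    refine h2.congr' ?_
    filter_upwards [self_mem_nhdsWithin] with t ht
    have ht' : t < x := ht
    simp only [hD, slope_def_field]
    rw [← neg_sub x t, ← neg_sub (q x) (q t), neg_div_neg_eq]
  have hfin : q' x ≤ D y := by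
    refine le_of_tendsto hlim ?_
    have : Set.Ioo y x ∈ 𝓝[<] x := Ioo_mem_nhdsLT hyx
    filter_upwards [this] with t ht
    exact hanti t ht.1 ht.2
  simp only [hD] at hfin
  rwa [le_div_iff₀ (by linarith)] at hfin

/-- The key inequality `x q'(x) ≤ q(x)`. -/
theorem mul_deriv_le (q q' : ℝ → ℝ) (hd : ∀ x, 0 < x → HasDerivAt q (q' x) x)
    (hq0 : ∀ x, 0 < x → 0 ≤ q x)
    (hq' : ∀ x, 0 < x → 0 ≤ q' x)
    (htp : ∀ x y, 0 < x → 0 < y → (q x - q y) ^ 2 ≤ (x - y) ^ 2 * (q' x * q' y))
    (x : ℝ) (hx : 0 < x) : x * q' x ≤ q x := by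
  have h : ∀ y, y ∈ Set.Ioo 0 x → q' x * (x - y) ≤ q x := by
    intro y hy
    have := tangent_left q q' hd hq' htp x y hy.1 hy.2
    have := hq0 y hy.1
    linarith
  have hlim : Tendsto (fun y : ℝ => q' x * (x - y)) (𝓝[>] 0) (𝓝 (q' x * (x - 0))) := by
    apply Tendsto.mono_left _ nhdsWithin_le_nhds
    have : Continuous (fun y : ℝ => q' x * (x - y)) := by fun_prop
    exact this.tendsto 0
  have h2 : q' x * (x - 0) ≤ q x := by
    refine le_of_tendsto hlim ?_
    have : Set.Ioo 0 x ∈ 𝓝[>] (0:ℝ) := Ioo_mem_nhdsGT hx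
    filter_upwards [this] with y hy
    exact h y hy
  linarith

end Crest.Agent.FIID
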