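import Mathlib
import Crest.Prelude.Def_Labels
import Crest.Prelude.Def_SpanningTrees
import Crest.Prelude.Def_GraphTables

/-!
Shared definitions for row 168 (S0254, S0255).
`WinLaw E`: a family of window laws `p W S` (mass of `occupied exactly at S within W`).
`IsSR p`: consistent, normalised, stable (strongly Rayleigh) family.
-/

set_option autoImplicit false

open MeasureTheory Filter Topology

namespace Crest.Agent.FIID

open scoped Classical in
/-- A family of window laws: `p W S` is the mass of configurations occupied within the finite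
window `W` exactly at `S ⊆ W`. -/
abbrev WinLaw (E : Type*) : Type _ := Finset E → Finset E → ℝ

open scoped Classical in
/-- Strongly Rayleigh consistent family of window laws. -/
structure IsSR {E : Type*} (p : WinLaw E) : Prop where
  nonneg : ∀ W S : Finset E, S ⊆ W → 0 ≤ p W S
  total : ∀ W : Finset E, ∑ S ∈ W.powerset, p W S = 1
  consistent : ∀ W W' : Finset E, W ⊆ W' → ∀ S : Finset E, S ⊆ W →
    p W S = ∑ S' ∈ W'.powerset.filter (fun S' => S' ∩ W = S), p W' S'
  stable : ∀ (W : Finset E) (z : E → ℂ), (∀ i ∈ W, 0 < (z i).im) →
    ∑ S ∈ W.powerset, (p W S : ℂ) * ∏ i ∈ S, z i ≠ 0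

end Crest.Agent.FIID
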