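import Mathlib

/-!
Schwarz-Pick on the upper half plane, in the form needed for pairs of polynomials.
-/

set_option autoImplicit false

open Filter Topology Complex

namespace Crest.Agent.FIID

/-- Schwarz-Pick for maps from the upper half plane to the closed disc with a strict bound. -/
theorem schwarzPick_strict (f : ℂ → ℂ) (r : ℝ) (hr0 : 0 ≤ r) (hr1 : r < 1)
    (hf : DifferentiableOn ℂ f {z | 0 < z.im}) (hb : ∀ z : ℂ, 0 < z.im → ‖f z‖ ≤ r)
    (ζ η : ℂ) (hζ : 0 < ζ.im) (hη : 0 < η.im) :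
    ‖f ζ - f η‖ * ‖ζ - (starRingEnd ℂ) η‖ ≤
      ‖1 - (starRingEnd ℂ) (f η) * f ζ‖ * ‖ζ - η‖ := by
  set c : ℂ := f η with hc
  have hcr : ‖c‖ ≤ r := hb η hη
  set φ : ℂ → ℂ := fun w => (η - (starRingEnd ℂ) η * w) / (1 - w) with hφ
  have hne1 : ∀ w : ℂ, ‖w‖ < 1 → (1 - w) ≠ 0 := by
    intro w hw h
    have : w = 1 := by linear_combination -h
    rw [this] at hw
    simp at hw
  have him : ∀ w : ℂ, ‖w‖ < 1 → 0 < (φ w).im := by
    intro w hw
    have h1 := hne1 w hw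
    have hns : 0 < Complex.normSq (1 - w) := Complex.normSq_pos.mpr h1
    have hw2 : w.re ^ 2 + w.im ^ 2 < 1 := by
      have : ‖w‖ ^ 2 < 1 := by nlinarith [norm_nonneg w]
      rw [← Complex.normSq_eq_norm_sq, Complex.normSq_apply] at this
      nlinarith
    have : (φ w).im = η.im * (1 - (w.re ^ 2 + w.im ^ 2)) / Complex.normSq (1 - w) := by
      simp only [hφ, Complex.div_im]
      simp [Complex.normSq_apply]
      field_simp
      ring
    rw [this]
    apply div_pos _ hns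
    apply mul_pos hη
    linarith
  have hden : ∀ x : ℂ, ‖x‖ ≤ r → (1 - (starRingEnd ℂ) c * x) ≠ 0 := by
    intro x hx h
    have h2 : (starRingEnd ℂ) c * x = 1 := by linear_combination -h
    have h3 : ‖(starRingEnd ℂ) c * x‖ = 1 := by rw [h2]; simp
    rw [norm_mul, RCLike.norm_conj] at h3
    have : ‖c‖ * ‖x‖ ≤ r * r := mul_le_mul hcr hx (norm_nonneg _) hr0
    nlinarith
  set F : ℂ → ℂ := fun w => (f (φ w) - c) / (1 - (starRingEnd ℂ) c * f (φ w)) with hF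
  have hdφ : DifferentiableOn ℂ φ (Metric.ball 0 1) := by
    intro w hw
    have h1 := hne1 w (by simpa using hw)
    apply DifferentiableAt.differentiableWithinAt
    simp only [hφ]
    apply DifferentiableAt.div
    · fun_prop
    · fun_prop
    · exact h1
  have hmφ : Set.MapsTo φ (Metric.ball 0 1) {z | 0 < z.im} := by
    intro w hw
    exact him w (by simpa using hw)
  have hdfφ : DifferentiableOn ℂ (fun w => f (φ w)) (Metric.ball 0 1) := hf.comp hdφ hmφ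
  have hdF : DifferentiableOn ℂ F (Metric.ball 0 1) := by
    intro w hw
    have hw' := hmφ hw
    simp only [hF]
    apply DifferentiableWithinAt.div
    · exact (hdfφ w hw).sub_const c
    · exact (differentiableWithinAt_const _).sub ((differentiableWithinAt_const _).mul (hdfφ w hw))
    · exact hden _ (hb _ hw')
  have hFmap : Set.MapsTo F (Metric.ball 0 1) (Metric.closedBall 0 1) := by
    intro w hw
    have hw' := hmφ hw
    have hx : ‖f (φ w)‖ ≤ r := hb _ hw'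
    simp only [hF, mem_closedBall_zero_iff, norm_div]
    rw [div_le_one (norm_pos_iff.mpr (hden _ hx))]
    set x := f (φ w)
    have hx1 : Complex.normSq x ≤ 1 := by
      rw [Complex.normSq_eq_norm_sq]; nlinarith [norm_nonneg x]
    have hc1 : Complex.normSq c ≤ 1 := by
      rw [Complex.normSq_eq_norm_sq]; nlinarith [norm_nonneg c]
    apply le_of_sq_le_sq _ (norm_nonneg _)
    rw [← Complex.normSq_eq_norm_sq, ← Complex.normSq_eq_norm_sq]
    have : Complex.normSq (1 - (starRingEnd ℂ) c * x) - Complex.normSq (x - c) =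
        (1 - Complex.normSq x) * (1 - Complex.normSq c) := by
      simp [Complex.normSq_apply]
      ring
    nlinarith [mul_nonneg (sub_nonneg.mpr hx1) (sub_nonneg.mpr hc1)]
  have hF0 : F 0 = 0 := by simp [hF, hφ, hc]
  set w₀ : ℂ := (ζ - η) / (ζ - (starRingEnd ℂ) η) with hw₀
  have hdenζ : (ζ - (starRingEnd ℂ) η) ≠ 0 := by
    intro h
    have := congrArg Complex.im h
    simp at this
    linarith
  have hdenη : (η - (starRingEnd ℂ) η) ≠ 0 := by
    intro h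
    have := congrArg Complex.im h
    simp at this
    linarith
  have hw₀1 : ‖w₀‖ < 1 := by
    rw [hw₀, norm_div, div_lt_one (norm_pos_iff.mpr hdenζ)]
    apply lt_of_pow_lt_pow_left₀ 2 (norm_nonneg _)
    rw [← Complex.normSq_eq_norm_sq, ← Complex.normSq_eq_norm_sq]
    simp [Complex.normSq_apply]
    nlinarith [mul_pos hζ hη]
  have hφw₀ : φ w₀ = ζ := by
    simp only [hφ, hw₀]
    have h1 : (1 : ℂ) - (ζ - η) / (ζ - (starRingEnd ℂ) η) = (η - (starRingEnd ℂ) η) / (ζ - (starRingEnd ℂ) η) := by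
      field_simp
      ring
    rw [h1]
    field_simp
    ring
  have key := Complex.norm_le_norm_of_mapsTo_ball hdF hFmap hF0 hw₀1
  simp only [hF, hφw₀] at key
  have hx : ‖f ζ‖ ≤ r := hb _ hζ
  rw [norm_div, div_le_iff₀ (norm_pos_iff.mpr (hden _ hx)), hw₀, norm_div,
    div_mul_eq_mul_div, le_div_iff₀ (norm_pos_iff.mpr hdenζ)] at key
  linarith [mul_comm ‖1 - (starRingEnd ℂ) c * f ζ‖ ‖ζ - η‖]

theorem schwarzPick (f : ℂ → ℂ)
    (hf : DifferentiableOn ℂ f {z | 0 < z.im}) (hb : ∀ z : ℂ, 0 < z.im → ‖f z‖ ≤ 1)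
    (ζ η : ℂ) (hζ : 0 < ζ.im) (hη : 0 < η.im) :
    ‖f ζ - f η‖ * ‖ζ - (starRingEnd ℂ) η‖ ≤
      ‖1 - (starRingEnd ℂ) (f η) * f ζ‖ * ‖ζ - η‖ := by
  have h : ∀ r : ℝ, r ∈ Set.Ico (0:ℝ) 1 → ‖(r:ℂ) * f ζ - (r:ℂ) * f η‖ * ‖ζ - (starRingEnd ℂ) η‖ ≤
      ‖1 - (starRingEnd ℂ) ((r:ℂ) * f η) * ((r:ℂ) * f ζ)‖ * ‖ζ - η‖ := by
    intro r hr
    refine schwarzPick_strict (fun z => (r:ℂ) * f z) r hr.1 hr.2 (hf.const_mul _) ?_ ζ η hζ hη
    intro z hz
    rw [norm_mul, Complex.norm_real, Real.norm_of_nonneg hr.1]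
    nlinarith [hb z hz, hr.1]
  have hc1 : Continuous (fun r : ℝ => ‖(r:ℂ) * f ζ - (r:ℂ) * f η‖ * ‖ζ - (starRingEnd ℂ) η‖) := by
    fun_prop
  have hc2 : Continuous (fun r : ℝ => ‖1 - (starRingEnd ℂ) ((r:ℂ) * f η) * ((r:ℂ) * f ζ)‖ * ‖ζ - η‖) := by
    have : Continuous (fun r : ℝ => (starRingEnd ℂ) ((r:ℂ) * f η)) :=
      Complex.continuous_conj.comp (by fun_prop)
    fun_prop
  have hmem : (1:ℝ) ∈ closure (Set.Ico (0:ℝ) 1) := by
    rw [closure_Ico (by norm_num)]; simp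
  have hcl : IsClosed {r : ℝ | ‖(r:ℂ) * f ζ - (r:ℂ) * f η‖ * ‖ζ - (starRingEnd ℂ) η‖ ≤
      ‖1 - (starRingEnd ℂ) ((r:ℂ) * f η) * ((r:ℂ) * f ζ)‖ * ‖ζ - η‖} := isClosed_le hc1 hc2
  have h3 := (closure_minimal (fun r hr => h r hr) hcl) hmem
  have h4 : ‖((1:ℝ):ℂ) * f ζ - ((1:ℝ):ℂ) * f η‖ * ‖ζ - (starRingEnd ℂ) η‖ ≤
      ‖1 - (starRingEnd ℂ) (((1:ℝ):ℂ) * f η) * (((1:ℝ):ℂ) * f ζ)‖ * ‖ζ - η‖ := h3
  simpa only [Complex.ofReal_one, one_mul] using h4

/-- Schwarz-Pick for a pair `(a, b)` of entire functions with `a + i b ≠ 0` and `Im (a conj b) ≥ 0` on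
the upper half plane. -/
theorem pair_schwarzPick (a b : ℂ → ℂ) (ha : Differentiable ℂ a) (hb : Differentiable ℂ b)
    (hne : ∀ z : ℂ, 0 < z.im → a z + I * b z ≠ 0)
    (him : ∀ z : ℂ, 0 < z.im → 0 ≤ (a z * (starRingEnd ℂ) (b z)).im)
    (ζ η : ℂ) (hζ : 0 < ζ.im) (hη : 0 < η.im) :
    ‖a ζ * b η - b ζ * a η‖ ^ 2 * (ζ.im * η.im) ≤
      (a ζ * (starRingEnd ℂ) (b ζ)).im * (a η * (starRingEnd ℂ) (b η)).im * ‖ζ - η‖ ^ 2 := by
  set f : ℂ → ℂ := fun z => (a z - I * b z) / (a z + I * b z) with hf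
  have hdf : DifferentiableOn ℂ f {z | 0 < z.im} := by
    intro z hz
    apply DifferentiableAt.differentiableWithinAt
    simp only [hf]
    apply DifferentiableAt.div
    · exact (ha z).sub ((differentiableAt_const _).mul (hb z))
    · exact (ha z).add ((differentiableAt_const _).mul (hb z))
    · exact hne z hz
  have hbf : ∀ z : ℂ, 0 < z.im → ‖f z‖ ≤ 1 := by
    intro z hz
    simp only [hf, norm_div]
    rw [div_le_one (norm_pos_iff.mpr (hne z hz))]
    apply le_of_sq_le_sq _ (norm_nonneg _)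
    rw [← Complex.normSq_eq_norm_sq, ← Complex.normSq_eq_norm_sq]
    have h1 := him z hz
    simp [Complex.normSq_apply] at h1 ⊢
    nlinarith
  have key := schwarzPick f hdf hbf ζ η hζ hη
  have h1 : f ζ - f η = 2 * I * (a ζ * b η - b ζ * a η) / ((a ζ + I * b ζ) * (a η + I * b η)) := by
    simp only [hf]
    rw [div_sub_div _ _ (hne ζ hζ) (hne η hη)]
    congr 1
    ring_nf
  have hne' : (starRingEnd ℂ) (a η + I * b η) ≠ 0 := by
    rw [Ne, map_eq_zero]; exact hne η hη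
  have h2 : 1 - (starRingEnd ℂ) (f η) * f ζ =
      2 * I * ((starRingEnd ℂ) (a η) * b ζ - (starRingEnd ℂ) (b η) * a ζ) /
        ((starRingEnd ℂ) (a η + I * b η) * (a ζ + I * b ζ)) := by
    simp only [hf, map_div₀]
    rw [div_mul_div_comm, eq_div_iff (mul_ne_zero hne' (hne ζ hζ)), sub_mul,
      div_mul_cancel₀ _ (mul_ne_zero hne' (hne ζ hζ))]
    simp only [map_add, map_sub, map_mul, conj_I]
    ring_nf
  rw [h1, h2] at key
  simp only [norm_div, norm_mul, RCLike.norm_conj, norm_ofNat, norm_I, mul_one] at key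
  have hpos1 : 0 < ‖a ζ + I * b ζ‖ := norm_pos_iff.mpr (hne ζ hζ)
  have hpos2 : 0 < ‖a η + I * b η‖ := norm_pos_iff.mpr (hne η hη)
  have key2 : ‖a ζ * b η - b ζ * a η‖ * ‖ζ - (starRingEnd ℂ) η‖ ≤
      ‖(starRingEnd ℂ) (a η) * b ζ - (starRingEnd ℂ) (b η) * a ζ‖ * ‖ζ - η‖ := by
    rw [div_mul_eq_mul_div, div_mul_eq_mul_div, div_le_div_iff₀ (by positivity) (by positivity)] at key
    have hpp : 0 < 2 * (‖a ζ + I * b ζ‖ * ‖a η + I * b η‖) := by positivity
    nlinarith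
  have key3 := mul_self_le_mul_self (by positivity) key2
  have e1 : ‖ζ - (starRingEnd ℂ) η‖ ^ 2 = ‖ζ - η‖ ^ 2 + 4 * (ζ.im * η.im) := by
    rw [← Complex.normSq_eq_norm_sq, ← Complex.normSq_eq_norm_sq]
    simp [Complex.normSq_apply]
    ring
  have e2 : ‖(starRingEnd ℂ) (a η) * b ζ - (starRingEnd ℂ) (b η) * a ζ‖ ^ 2 =
      ‖a ζ * b η - b ζ * a η‖ ^ 2 +
        4 * ((a ζ * (starRingEnd ℂ) (b ζ)).im * (a η * (starRingEnd ℂ) (b η)).im) := by
    rw [← Complex.normSq_eq_norm_sq, ← Complex.normSq_eq_norm_sq]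
    simp [Complex.normSq_apply]
    ring
  have key4 : ‖a ζ * b η - b ζ * a η‖ ^ 2 * ‖ζ - (starRingEnd ℂ) η‖ ^ 2 ≤
      ‖(starRingEnd ℂ) (a η) * b ζ - (starRingEnd ℂ) (b η) * a ζ‖ ^ 2 * ‖ζ - η‖ ^ 2 := by
    nlinarith
  rw [e1, e2] at key4
  nlinarith

end Crest.Agent.FIID
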