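import Mathlib
import Crest.Agent.FIID.Pick

/-!
Two point inequality for real polynomial pairs and its calculus consequences.
-/

set_option autoImplicit false

open Filter Topology Complex Polynomial

namespace Crest.Agent.FIID

/-- the Wronskian type polynomial `A' B - A B'`. -/
noncomputable def wron (A B : ℝ[X]) : ℝ[X] := derivative A * B - A * derivative B

/-- complex evaluation of a real polynomial -/
noncomputable def cev (A : ℝ[X]) (z : ℂ) : ℂ := (A.map (algebraMap ℝ ℂ)).eval z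

theorem cev_ofReal (A : ℝ[X]) (x : ℝ) : cev A (x : ℂ) = ((A.eval x : ℝ) : ℂ) := by
  unfold cev
  have : (x : ℂ) = algebraMap ℝ ℂ x := rfl
  rw [this, Polynomial.eval_map_algebraMap, Polynomial.aeval_algebraMap_apply]
  simp

theorem cev_hasDerivAt (A : ℝ[X]) (z : ℂ) : HasDerivAt (cev A) (cev (derivative A) z) z := by
  unfold cev
  have := (A.map (algebraMap ℝ ℂ)).hasDerivAt z
  rwa [Polynomial.derivative_map] at this

/-- derivative at `0` of `ε ↦ Im (A (x + i ε) conj (B (x + i ε)))`. -/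
theorem hasDerivAt_im (A B : ℝ[X]) (x : ℝ) :
    HasDerivAt (fun t : ℝ => (cev A ((x : ℂ) + t * I) * (starRingEnd ℂ) (cev B ((x : ℂ) + t * I))).im)
      ((wron A B).eval x) 0 := by
  have hl : HasDerivAt (fun t : ℝ => (x : ℂ) + (t : ℂ) * I) I (0 : ℝ) := by
    have h0 : HasDerivAt (fun t : ℝ => (t : ℂ)) 1 (0 : ℝ) := by
      simpa using (hasDerivAt_id (0:ℝ)).ofReal_comp
    have := (h0.mul_const I).const_add (x : ℂ)
    simpa using this
  have e0 : (x : ℂ) + ((0 : ℝ) : ℂ) * I = (x : ℂ) := by simp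
  have hA : HasDerivAt (fun t : ℝ => cev A ((x : ℂ) + (t : ℂ) * I)) (cev (derivative A) (x : ℂ) * I) (0 : ℝ) := by
    have h1 := cev_hasDerivAt A ((x : ℂ) + ((0 : ℝ) : ℂ) * I)
    have := HasDerivAt.comp (0 : ℝ) h1 hl
    rw [e0] at this
    exact this
  have hB : HasDerivAt (fun t : ℝ => cev B ((x : ℂ) + (t : ℂ) * I)) (cev (derivative B) (x : ℂ) * I) (0 : ℝ) := by
    have h1 := cev_hasDerivAt B ((x : ℂ) + ((0 : ℝ) : ℂ) * I)
    have := HasDerivAt.comp (0 : ℝ) h1 hl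
    rw [e0] at this
    exact this
  have hBc : HasDerivAt (fun t : ℝ => (starRingEnd ℂ) (cev B ((x : ℂ) + (t : ℂ) * I)))
      ((starRingEnd ℂ) (cev (derivative B) (x : ℂ) * I)) (0 : ℝ) := by
    exact hB.star
  have hm := hA.mul hBc
  have him := (Complex.imCLM.hasFDerivAt
    (x := cev A ((x : ℂ) + ((0:ℝ) : ℂ) * I) * (starRingEnd ℂ) (cev B ((x : ℂ) + ((0:ℝ) : ℂ) * I)))).comp_hasDerivAt (0 : ℝ) hm
  have e : (Complex.imCLM (cev (derivative A) (x : ℂ) * I * (starRingEnd ℂ) (cev B ((x : ℂ) + ((0:ℝ) : ℂ) * I)) +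
      cev A ((x : ℂ) + ((0:ℝ) : ℂ) * I) * (starRingEnd ℂ) (cev (derivative B) (x : ℂ) * I))) = (wron A B).eval x := by
    rw [e0, cev_ofReal, cev_ofReal, cev_ofReal, cev_ofReal]
    simp [wron]
    ring
  rw [e] at him
  exact him

/-- the limit `Im (A conj B) (x + i ε) / ε → W(x)`. -/
theorem tendsto_im_div (A B : ℝ[X]) (x : ℝ) :
    Tendsto (fun t : ℝ => (cev A ((x : ℂ) + t * I) * (starRingEnd ℂ) (cev B ((x : ℂ) + t * I))).im / t)
      (𝓝[>] 0) (𝓝 ((wron A B).eval x)) := by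
  have h := (hasDerivAt_im A B x).tendsto_slope_zero_right
  refine h.congr' ?_
  filter_upwards [self_mem_nhdsWithin] with t ht
  have h0 : (cev A ((x : ℂ) + ((0:ℝ) : ℂ) * I) * (starRingEnd ℂ) (cev B ((x : ℂ) + ((0:ℝ) : ℂ) * I))).im = 0 := by
    have e0 : (x : ℂ) + ((0 : ℝ) : ℂ) * I = (x : ℂ) := by simp
    rw [e0, cev_ofReal, cev_ofReal]
    simp
  simp only [zero_add, h0, sub_zero, smul_eq_mul]
  rw [div_eq_inv_mul]

/-- A pair of real polynomials satisfying the (half plane) two point inequality. -/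
structure PickPair (A B : ℝ[X]) : Prop where
  im_nonneg : ∀ z : ℂ, 0 < z.im → 0 ≤ (cev A z * (starRingEnd ℂ) (cev B z)).im
  sp : ∀ ζ η : ℂ, 0 < ζ.im → 0 < η.im →
    ‖cev A ζ * cev B η - cev B ζ * cev A η‖ ^ 2 * (ζ.im * η.im) ≤
      (cev A ζ * (starRingEnd ℂ) (cev B ζ)).im * (cev A η * (starRingEnd ℂ) (cev B η)).im *
        ‖ζ - η‖ ^ 2

theorem PickPair.wron_nonneg {A B : ℝ[X]} (h : PickPair A B) (x : ℝ) : 0 ≤ (wron A B).eval x := by
  refine ge_of_tendsto (tendsto_im_div A B x) ?_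
  filter_upwards [self_mem_nhdsWithin] with t ht
  apply div_nonneg _ (le_of_lt ht)
  apply h.im_nonneg
  simpa using ht

theorem PickPair.two_point {A B : ℝ[X]} (h : PickPair A B) (x y : ℝ) :
    (A.eval x * B.eval y - B.eval x * A.eval y) ^ 2 ≤
      (wron A B).eval x * (wron A B).eval y * (x - y) ^ 2 := by
  have hx := tendsto_im_div A B x
  have hy := tendsto_im_div A B y
  have hr := (hx.mul hy).mul_const ((x - y) ^ 2)
  have hcont : ∀ (C : ℝ[X]) (u : ℝ), Tendsto (fun t : ℝ => cev C ((u : ℂ) + t * I)) (𝓝[>] 0) (𝓝 (cev C (u : ℂ))) := by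
    intro C u
    have hc : Continuous (fun t : ℝ => cev C ((u : ℂ) + t * I)) := by
      unfold cev
      fun_prop
    have := hc.tendsto 0
    simp only [ofReal_zero, zero_mul, add_zero] at this
    exact this.mono_left nhdsWithin_le_nhds
  have hl : Tendsto (fun t : ℝ => ‖cev A ((x : ℂ) + t * I) * cev B ((y : ℂ) + t * I) -
      cev B ((x : ℂ) + t * I) * cev A ((y : ℂ) + t * I)‖ ^ 2) (𝓝[>] 0)
      (𝓝 (‖cev A (x : ℂ) * cev B (y : ℂ) - cev B (x : ℂ) * cev A (y : ℂ)‖ ^ 2)) :=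
    ((((hcont A x).mul (hcont B y)).sub ((hcont B x).mul (hcont A y))).norm).pow 2
  have e1 : ‖cev A (x : ℂ) * cev B (y : ℂ) - cev B (x : ℂ) * cev A (y : ℂ)‖ ^ 2 =
      (A.eval x * B.eval y - B.eval x * A.eval y) ^ 2 := by
    rw [cev_ofReal, cev_ofReal, cev_ofReal, cev_ofReal]
    rw [← Complex.ofReal_mul, ← Complex.ofReal_mul, ← Complex.ofReal_sub, Complex.norm_real,
      Real.norm_eq_abs, sq_abs]
  rw [e1] at hl
  refine le_of_tendsto_of_tendsto hl hr ?_
  filter_upwards [self_mem_nhdsWithin] with t ht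
  have ht' : (0:ℝ) < t := ht
  have := h.sp ((x : ℂ) + t * I) ((y : ℂ) + t * I) (by simpa using ht') (by simpa using ht')
  have e2 : ‖((x : ℂ) + t * I) - ((y : ℂ) + t * I)‖ ^ 2 = (x - y) ^ 2 := by
    have : ((x : ℂ) + t * I) - ((y : ℂ) + t * I) = ((x - y : ℝ) : ℂ) := by push_cast; ring
    rw [this, Complex.norm_real, Real.norm_eq_abs, sq_abs]
  rw [e2] at this
  have e3 : ((x : ℂ) + t * I).im = t := by simp
  have e4 : ((y : ℂ) + t * I).im = t := by simp
  rw [e3, e4] at this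
  rw [div_mul_div_comm, div_mul_eq_mul_div, le_div_iff₀ (by positivity)]
  exact this

end Crest.Agent.FIID
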