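import Mathlib
import Crest.Agent.FIID.TwoPoint
import Crest.Agent.FIID.Concave

/-!
Finite windows: from a stable nonnegative weight to Pick pairs.
-/

set_option autoImplicit false

open Filter Topology Complex Polynomial

namespace Crest.Agent.FIID

open scoped Classical

/-- tilt weight -/
noncomputable def wt {E : Type*} (g : E → ℝ) (S : Finset E) : ℝ := Real.exp (∑ i ∈ S, g i)

theorem wt_pos {E : Type*} (g : E → ℝ) (S : Finset E) : 0 < wt g S := Real.exp_pos _

/-- stability of a window weight -/
def Stab {E : Type*} (W : Finset E) (w : Finset E → ℝ) : Prop :=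
  ∀ z : E → ℂ, (∀ i ∈ W, 0 < (z i).im) → ∑ S ∈ W.powerset, (w S : ℂ) * ∏ i ∈ S, z i ≠ 0

noncomputable def pa {E : Type*} (W : Finset E) (w : Finset E → ℝ) (e : E) (A : Finset E)
    (g : E → ℝ) : ℝ[X] :=
  ∑ S ∈ W.powerset.filter (fun S => e ∉ S), C (w S * wt g S) * X ^ (S ∩ A).card

noncomputable def pb {E : Type*} (W : Finset E) (w : Finset E → ℝ) (e : E) (A : Finset E)
    (g : E → ℝ) : ℝ[X] :=
  ∑ S ∈ W.powerset.filter (fun S => e ∈ S), C (w S * wt g S) * X ^ (S ∩ A).card

noncomputable def cf {E : Type*} (A : Finset E) (δ : ℝ) (ζ : ℂ) (i : E) : ℂ :=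
  if i ∈ A then ζ else 1 + δ * I

noncomputable def fa {E : Type*} (W : Finset E) (w : Finset E → ℝ) (e : E) (A : Finset E)
    (g : E → ℝ) (δ : ℝ) (ζ : ℂ) : ℂ :=
  ∑ S ∈ W.powerset.filter (fun S => e ∉ S), ((w S * wt g S : ℝ) : ℂ) * ∏ i ∈ S, cf A δ ζ i

noncomputable def fb {E : Type*} (W : Finset E) (w : Finset E → ℝ) (e : E) (A : Finset E)
    (g : E → ℝ) (δ : ℝ) (ζ : ℂ) : ℂ :=
  ∑ S ∈ W.powerset.filter (fun S => e ∈ S), ((w S * wt g S : ℝ) : ℂ) * ∏ i ∈ S.erase e, cf A δ ζ i

section
variable {E : Type*} {W : Finset E} {w : Finset E → ℝ} {e : E} {A : Finset E} {g : E → ℝ}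

theorem fa_add_fb_ne (hst : Stab W w) (δ : ℝ) (hδ : 0 < δ) (ζ ω : ℂ)
    (hζ : 0 < ζ.im) (hω : 0 < ω.im) : fa W w e A g δ ζ + ω * fb W w e A g δ ζ ≠ 0 := by
  set z : E → ℂ := fun i => (Real.exp (g i) : ℂ) * (if i = e then ω else cf A δ ζ i) with hz
  have hz' : ∀ i ∈ W, 0 < (z i).im := by
    intro i _
    simp only [hz, Complex.im_ofReal_mul]
    apply mul_pos (Real.exp_pos _)
    split_ifs
    · exact hω
    · unfold cf
      split_ifs
      · exact hζ
      · simpa using hδ
  have h := hst z hz'
  have hwt : ∀ S : Finset E, ((wt g S : ℝ) : ℂ) = ∏ i ∈ S, (Real.exp (g i) : ℂ) := by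
    intro S
    unfold wt
    rw [Real.exp_sum]
    push_cast
    rfl
  have e1 : ∑ S ∈ W.powerset, (w S : ℂ) * ∏ i ∈ S, z i = fa W w e A g δ ζ + ω * fb W w e A g δ ζ := by
    rw [← Finset.sum_filter_not_add_sum_filter (s := W.powerset) (p := fun S => e ∈ S)]
    unfold fa fb
    congr 1
    · apply Finset.sum_congr rfl
      intro S hS
      have heS := (Finset.mem_filter.mp hS).2
      rw [Complex.ofReal_mul, hwt, mul_assoc, ← Finset.prod_mul_distrib]
      congr 1
      apply Finset.prod_congr rfl
      intro i hi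
      have : i ≠ e := fun h => heS (h ▸ hi)
      simp [hz, this]
    · rw [Finset.mul_sum]
      apply Finset.sum_congr rfl
      intro S hS
      have heS := (Finset.mem_filter.mp hS).2
      rw [Complex.ofReal_mul, hwt]
      have : ∏ i ∈ S, z i = (∏ i ∈ S, (Real.exp (g i) : ℂ)) * (ω * ∏ i ∈ S.erase e, cf A δ ζ i) := by
        simp only [hz]
        rw [Finset.prod_mul_distrib]
        congr 1
        rw [← Finset.mul_prod_erase S _ heS]
        simp only [if_true]
        congr 1
        apply Finset.prod_congr rfl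
        intro i hi
        have : i ≠ e := (Finset.mem_erase.mp hi).1
        simp [this]
      rw [this]
      ring
  rw [e1] at h
  exact h

theorem fa_fb_im (hst : Stab W w) (δ : ℝ) (hδ : 0 < δ) (ζ : ℂ)
    (hζ : 0 < ζ.im) : 0 ≤ (fa W w e A g δ ζ * (starRingEnd ℂ) (fb W w e A g δ ζ)).im := by
  by_contra hcon
  push Not at hcon
  set a := fa W w e A g δ ζ
  set b := fb W w e A g δ ζ
  have hb : b ≠ 0 := by
    intro hb
    rw [hb] at hcon
    simp at hcon
  have hω : 0 < (-a / b).im := by
    have : (-a / b).im = -(a * (starRingEnd ℂ) b).im / Complex.normSq b := by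
      rw [Complex.div_im]
      simp [Complex.mul_im]
      ring
    rw [this]
    apply div_pos (by linarith)
    exact Complex.normSq_pos.mpr hb
  have := fa_add_fb_ne (e := e) (A := A) (g := g) hst δ hδ ζ (-a / b) hζ hω
  apply this
  change a + -a / b * b = 0
  field_simp
  ring

theorem fa_differentiable (δ : ℝ) : Differentiable ℂ (fa W w e A g δ) := by
  unfold fa cf
  apply Differentiable.fun_sum
  intro S _
  apply Differentiable.const_mul
  apply Differentiable.fun_finsetProd
  intro i _
  split_ifs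
  · exact differentiable_id
  · exact differentiable_const _

theorem fb_differentiable (δ : ℝ) : Differentiable ℂ (fb W w e A g δ) := by
  unfold fb cf
  apply Differentiable.fun_sum
  intro S _
  apply Differentiable.const_mul
  apply Differentiable.fun_finsetProd
  intro i _
  split_ifs
  · exact differentiable_id
  · exact differentiable_const _

theorem fa_continuous (ζ : ℂ) : Continuous (fun δ : ℝ => fa W w e A g δ ζ) := by
  unfold fa cf
  apply continuous_finsetSum
  intro S _
  apply Continuous.mul continuous_const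
  apply continuous_finsetProd
  intro i _
  split_ifs
  · exact continuous_const
  · fun_prop

theorem fb_continuous (ζ : ℂ) : Continuous (fun δ : ℝ => fb W w e A g δ ζ) := by
  unfold fb cf
  apply continuous_finsetSum
  intro S _
  apply Continuous.mul continuous_const
  apply continuous_finsetProd
  intro i _
  split_ifs
  · exact continuous_const
  · fun_prop

theorem fa_zero (ζ : ℂ) : fa W w e A g 0 ζ = cev (pa W w e A g) ζ := by
  unfold fa cev pa cf
  rw [Polynomial.map_sum, Polynomial.eval_finsetSum]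
  apply Finset.sum_congr rfl
  intro S _
  rw [Polynomial.map_mul, Polynomial.map_pow, Polynomial.map_C, Polynomial.map_X]
  simp only [eval_mul, eval_C, eval_pow, eval_X, ofReal_zero, zero_mul, add_zero]
  rw [Finset.prod_ite, Finset.prod_const, Finset.prod_const_one, mul_one, Finset.filter_mem_eq_inter]
  rfl

theorem fb_zero (heA : e ∉ A) (ζ : ℂ) : fb W w e A g 0 ζ = cev (pb W w e A g) ζ := by
  unfold fb cev pb cf
  rw [Polynomial.map_sum, Polynomial.eval_finsetSum]
  apply Finset.sum_congr rfl
  intro S _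
  rw [Polynomial.map_mul, Polynomial.map_pow, Polynomial.map_C, Polynomial.map_X]
  simp only [eval_mul, eval_C, eval_pow, eval_X, ofReal_zero, zero_mul, add_zero]
  rw [Finset.prod_ite, Finset.prod_const, Finset.prod_const_one, mul_one, Finset.filter_mem_eq_inter]
  have : S.erase e ∩ A = S ∩ A := by
    ext i
    simp only [Finset.mem_inter, Finset.mem_erase]
    constructor
    · rintro ⟨⟨_, h⟩, h2⟩; exact ⟨h, h2⟩
    · rintro ⟨h, h2⟩; exact ⟨⟨fun h3 => heA (h3 ▸ h2), h⟩, h2⟩
  rw [this]
  rfl

theorem pickPair (hst : Stab W w) (heA : e ∉ A) : PickPair (pa W w e A g) (pb W w e A g) := by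
  constructor
  · intro z hz
    rw [← fa_zero, ← fb_zero heA]
    have hc : Continuous (fun δ : ℝ => (fa W w e A g δ z * (starRingEnd ℂ) (fb W w e A g δ z)).im) := by
      apply Complex.continuous_im.comp
      exact (fa_continuous z).mul (Complex.continuous_conj.comp (fb_continuous z))
    have hlim := (hc.tendsto 0).mono_left (nhdsWithin_le_nhds (s := Set.Ioi 0))
    refine ge_of_tendsto hlim ?_
    filter_upwards [self_mem_nhdsWithin] with δ hδ
    exact fa_fb_im hst δ hδ z hz
  · intro ζ η hζ hη
    rw [← fa_zero, ← fb_zero heA, ← fa_zero, ← fb_zero heA]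
    have hca := fa_continuous (W := W) (w := w) (e := e) (A := A) (g := g)
    have hcb := fb_continuous (W := W) (w := w) (e := e) (A := A) (g := g)
    have hc1 : Continuous (fun δ : ℝ => ‖fa W w e A g δ ζ * fb W w e A g δ η -
        fb W w e A g δ ζ * fa W w e A g δ η‖ ^ 2 * (ζ.im * η.im)) :=
      ((((hca ζ).mul (hcb η)).sub ((hcb ζ).mul (hca η))).norm.pow 2).mul continuous_const
    have hc2 : Continuous (fun δ : ℝ => (fa W w e A g δ ζ * (starRingEnd ℂ) (fb W w e A g δ ζ)).im *
        (fa W w e A g δ η * (starRingEnd ℂ) (fb W w e A g δ η)).im * ‖ζ - η‖ ^ 2) :=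
      ((Complex.continuous_im.comp ((hca ζ).mul (Complex.continuous_conj.comp (hcb ζ)))).mul
        (Complex.continuous_im.comp ((hca η).mul (Complex.continuous_conj.comp (hcb η))))).mul
        continuous_const
    have hl1 := (hc1.tendsto 0).mono_left (nhdsWithin_le_nhds (s := Set.Ioi 0))
    have hl2 := (hc2.tendsto 0).mono_left (nhdsWithin_le_nhds (s := Set.Ioi 0))
    refine le_of_tendsto_of_tendsto hl1 hl2 ?_
    filter_upwards [self_mem_nhdsWithin] with δ hδ
    exact pair_schwarzPick _ _ (fa_differentiable δ) (fb_differentiable δ)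
      (fun z hz => fa_add_fb_ne hst δ hδ z I hz (by simp)) (fun z hz => fa_fb_im hst δ hδ z hz)
      ζ η hζ hη

end

end Crest.Agent.FIID
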