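import Mathlib
import Crest.Agent.FIID.Window

/-!
Properties of tilted window marginals for stable weights.
-/

set_option autoImplicit false

open Filter Topology Polynomial

namespace Crest.Agent.FIID

open scoped Classical

/-- partition function of the window -/
noncomputable def Zf {E : Type*} (W : Finset E) (w : Finset E → ℝ) (g : E → ℝ) : ℝ :=
  ∑ S ∈ W.powerset, w S * wt g S

/-- mass of `e` occupied -/
noncomputable def Nf {E : Type*} (W : Finset E) (w : Finset E → ℝ) (e : E) (g : E → ℝ) : ℝ :=
  ∑ S ∈ W.powerset.filter (fun S => e ∈ S), w S * wt g S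

/-- tilted marginal -/
noncomputable def mg {E : Type*} (W : Finset E) (w : Finset E → ℝ) (e : E) (g : E → ℝ) : ℝ :=
  Nf W w e g / Zf W w g

/-- counting observables -/
noncomputable def NA {E : Type*} (W : Finset E) (w : Finset E → ℝ) (A : Finset E) (g : E → ℝ) : ℝ :=
  ∑ S ∈ W.powerset, w S * wt g S * ((S ∩ A).card : ℝ)

noncomputable def NeA {E : Type*} (W : Finset E) (w : Finset E → ℝ) (e : E) (A : Finset E)
    (g : E → ℝ) : ℝ :=
  ∑ S ∈ W.powerset.filter (fun S => e ∈ S), w S * wt g S * ((S ∩ A).card : ℝ)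

/-- the influence of `e` on `A` : minus the covariance -/
noncomputable def infl {E : Type*} (W : Finset E) (w : Finset E → ℝ) (e : E) (A : Finset E)
    (g : E → ℝ) : ℝ :=
  (Nf W w e g * NA W w A g - Zf W w g * NeA W w e A g) / (Zf W w g) ^ 2

/-- tilt by `t` on `A` -/
noncomputable def addOn {E : Type*} (g : E → ℝ) (A : Finset E) (t : ℝ) : E → ℝ :=
  fun i => if i ∈ A then g i + t else g i

section
variable {E : Type*} {W : Finset E} {w : Finset E → ℝ} {e : E} {A : Finset E} {g : E → ℝ}

theorem wt_addOn (g : E → ℝ) (A : Finset E) (t : ℝ) (S : Finset E) :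
    wt (addOn g A t) S = wt g S * (Real.exp t) ^ (S ∩ A).card := by
  unfold wt addOn
  have h1 : ∑ i ∈ S, (if i ∈ A then g i + t else g i) = ∑ i ∈ S, g i + ((S ∩ A).card : ℝ) * t := by
    have : ∀ i ∈ S, (if i ∈ A then g i + t else g i) = g i + (if i ∈ A then t else 0) := by
      intro i _
      split_ifs <;> simp
    rw [Finset.sum_congr rfl this, Finset.sum_add_distrib]
    congr 1
    rw [← Finset.sum_filter, Finset.filter_mem_eq_inter, Finset.sum_const, nsmul_eq_mul]
  rw [h1, Real.exp_add, ← Real.exp_nat_mul]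

theorem eval_pb (x : ℝ) (hx : 0 < x) :
    (pb W w e A g).eval x = Nf W w e (addOn g A (Real.log x)) := by
  unfold pb Nf
  rw [Polynomial.eval_finsetSum]
  apply Finset.sum_congr rfl
  intro S _
  rw [wt_addOn, Real.exp_log hx]
  simp
  ring

theorem eval_pa (x : ℝ) (hx : 0 < x) :
    (pa W w e A g).eval x = Zf W w (addOn g A (Real.log x)) - Nf W w e (addOn g A (Real.log x)) := by
  unfold pa Nf Zf
  rw [← Finset.sum_filter_not_add_sum_filter (s := W.powerset) (p := fun S => e ∈ S)]
  rw [Polynomial.eval_finsetSum, add_sub_cancel_right]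
  apply Finset.sum_congr rfl
  intro S _
  rw [wt_addOn, Real.exp_log hx]
  simp
  ring

theorem addOn_zero (g : E → ℝ) (A : Finset E) : addOn g A 0 = g := by
  funext i; simp [addOn]

theorem eval_pb_one : (pb W w e A g).eval 1 = Nf W w e g := by
  rw [eval_pb 1 one_pos, Real.log_one, addOn_zero]

theorem eval_pa_one : (pa W w e A g).eval 1 = Zf W w g - Nf W w e g := by
  rw [eval_pa 1 one_pos, Real.log_one, addOn_zero]

theorem eval_pb'_one : (derivative (pb W w e A g)).eval 1 = NeA W w e A g := by
  unfold pb NeA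
  rw [Polynomial.derivative_sum, Polynomial.eval_finsetSum]
  apply Finset.sum_congr rfl
  intro S _
  rw [Polynomial.derivative_C_mul, Polynomial.derivative_X_pow]
  simp

theorem eval_pa'_one : (derivative (pa W w e A g)).eval 1 = NA W w A g - NeA W w e A g := by
  unfold pa NeA NA
  rw [← Finset.sum_filter_not_add_sum_filter (s := W.powerset) (p := fun S => e ∈ S)]
  rw [Polynomial.derivative_sum, Polynomial.eval_finsetSum, add_sub_cancel_right]
  apply Finset.sum_congr rfl
  intro S _
  rw [Polynomial.derivative_C_mul, Polynomial.derivative_X_pow]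
  simp

theorem infl_eq : infl W w e A g =
    (wron (pa W w e A g) (pb W w e A g)).eval 1 / (Zf W w g) ^ 2 := by
  unfold infl wron
  simp only [eval_sub, eval_mul, eval_pb_one, eval_pa_one, eval_pb'_one, eval_pa'_one]
  congr 1
  ring

/-- the weight is nonnegative and nontrivial -/
structure Pos (W : Finset E) (w : Finset E → ℝ) : Prop where
  nonneg : ∀ S, S ⊆ W → 0 ≤ w S
  pos : 0 < ∑ S ∈ W.powerset, w S

theorem Nf_nonneg (h : Pos W w) (g : E → ℝ) : 0 ≤ Nf W w e g := by
  unfold Nf
  apply Finset.sum_nonneg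
  intro S hS
  exact mul_nonneg (h.nonneg S (Finset.mem_powerset.mp (Finset.mem_filter.mp hS).1)) (wt_pos g S).le

theorem Zf_pos (h : Pos W w) (g : E → ℝ) : 0 < Zf W w g := by
  unfold Zf
  obtain ⟨S, hS, hpos⟩ : ∃ S ∈ W.powerset, 0 < w S := by
    by_contra hcon
    push Not at hcon
    have := Finset.sum_nonpos hcon
    linarith [h.pos]
  apply Finset.sum_pos' (fun S hS => mul_nonneg (h.nonneg S (Finset.mem_powerset.mp hS)) (wt_pos g S).le)
  exact ⟨S, hS, mul_pos hpos (wt_pos g S)⟩

theorem Nf_le_Zf (h : Pos W w) (g : E → ℝ) : Nf W w e g ≤ Zf W w g := by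
  unfold Nf Zf
  apply Finset.sum_le_sum_of_subset_of_nonneg (Finset.filter_subset _ _)
  intro S hS _
  exact mul_nonneg (h.nonneg S (Finset.mem_powerset.mp hS)) (wt_pos g S).le

theorem mg_nonneg (h : Pos W w) (g : E → ℝ) : 0 ≤ mg W w e g :=
  div_nonneg (Nf_nonneg h g) (Zf_pos h g).le

theorem mg_le_one (h : Pos W w) (g : E → ℝ) : mg W w e g ≤ 1 :=
  (div_le_one (Zf_pos h g)).mpr (Nf_le_Zf h g)

/-- the two "trivial or strictly positive" alternatives: `Nf` vanishes for one tilt iff for all. -/
theorem Nf_pos_iff (h : Pos W w) (g g' : E → ℝ) (h0 : 0 < Nf W w e g) : 0 < Nf W w e g' := by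
  unfold Nf at h0 ⊢
  obtain ⟨S, hS, hpos⟩ : ∃ S ∈ W.powerset.filter (fun S => e ∈ S), 0 < w S * wt g S := by
    by_contra hcon
    push Not at hcon
    have := Finset.sum_nonpos hcon
    linarith
  have hw : 0 < w S := (mul_pos_iff_of_pos_right (wt_pos g S)).mp hpos
  apply Finset.sum_pos' (fun S hS => mul_nonneg (h.nonneg S (Finset.mem_powerset.mp (Finset.mem_filter.mp hS).1)) (wt_pos g' S).le)
  exact ⟨S, hS, mul_pos hw (wt_pos g' S)⟩

theorem Zf_sub_Nf_eq (g : E → ℝ) : Zf W w g - Nf W w e g =
    ∑ S ∈ W.powerset.filter (fun S => e ∉ S), w S * wt g S := by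
  unfold Nf Zf
  rw [← Finset.sum_filter_not_add_sum_filter (s := W.powerset) (p := fun S => e ∈ S)]
  rw [add_sub_cancel_right]

theorem Zf_sub_Nf_pos (h : Pos W w) (g g' : E → ℝ) (h0 : 0 < Zf W w g - Nf W w e g) :
    0 < Zf W w g' - Nf W w e g' := by
  rw [Zf_sub_Nf_eq] at h0 ⊢
  obtain ⟨S, hS, hpos⟩ : ∃ S ∈ W.powerset.filter (fun S => e ∉ S), 0 < w S * wt g S := by
    by_contra hcon
    push Not at hcon
    have := Finset.sum_nonpos hcon
    linarith
  have hw : 0 < w S := (mul_pos_iff_of_pos_right (wt_pos g S)).mp hpos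
  apply Finset.sum_pos' (fun S hS => mul_nonneg (h.nonneg S (Finset.mem_powerset.mp (Finset.mem_filter.mp hS).1)) (wt_pos g' S).le)
  exact ⟨S, hS, mul_pos hw (wt_pos g' S)⟩

/-- The key inequality `x W(x) ≤ a(x) b(x)`. -/
theorem mul_wron_le (h : Pos W w) (hst : Stab W w) (heA : e ∉ A) (x : ℝ) (hx : 0 < x) :
    x * (wron (pa W w e A g) (pb W w e A g)).eval x ≤
      (pa W w e A g).eval x * (pb W w e A g).eval x := by
  have hP := pickPair (g := g) hst heA
  set a := pa W w e A g
  set b := pb W w e A g
  have ha0 : ∀ y, 0 < y → 0 ≤ a.eval y := fun y hy => by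
    rw [eval_pa y hy]; linarith [Nf_le_Zf (e := e) h (addOn g A (Real.log y))]
  have hb0 : ∀ y, 0 < y → 0 ≤ b.eval y := fun y hy => by
    rw [eval_pb y hy]; exact Nf_nonneg h _
  by_cases hb : ∃ y, 0 < y ∧ 0 < b.eval y
  swap
  · -- b vanishes on (0, ∞)
    push Not at hb
    have hbz : ∀ y, 0 < y → b.eval y = 0 := fun y hy => le_antisymm (hb y hy) (hb0 y hy)
    have hb' : b = 0 := by
      apply Polynomial.eq_zero_of_infinite_isRoot
      apply Set.Infinite.mono (s := Set.Ioi (0:ℝ))
      · intro y hy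
        exact hbz y hy
      · exact Set.Ioi_infinite 0
    simp [wron, hb']
  by_cases ha : ∃ y, 0 < y ∧ 0 < a.eval y
  swap
  · push Not at ha
    have haz : ∀ y, 0 < y → a.eval y = 0 := fun y hy => le_antisymm (ha y hy) (ha0 y hy)
    have ha' : a = 0 := by
      apply Polynomial.eq_zero_of_infinite_isRoot
      apply Set.Infinite.mono (s := Set.Ioi (0:ℝ))
      · intro y hy
        exact haz y hy
      · exact Set.Ioi_infinite 0
    simp [wron, ha']
  obtain ⟨y₁, hy₁, hb₁⟩ := hb
  obtain ⟨y₂, hy₂, ha₂⟩ := ha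
  have hbp : ∀ y, 0 < y → 0 < b.eval y := by
    intro y hy
    rw [eval_pb y hy]
    rw [eval_pb y₁ hy₁] at hb₁
    exact Nf_pos_iff h _ _ hb₁
  have hap : ∀ y, 0 < y → 0 < a.eval y := by
    intro y hy
    rw [eval_pa y hy]
    rw [eval_pa y₂ hy₂] at ha₂
    exact Zf_sub_Nf_pos h _ _ ha₂
  have key := mul_deriv_le (fun y => a.eval y / b.eval y)
    (fun y => (wron a b).eval y / (b.eval y) ^ 2) ?_ ?_ ?_ ?_ x hx
  · have hbx := hbp x hx
    rw [← mul_div_assoc, div_le_div_iff₀ (by positivity) hbx] at key
    have : b.eval x * (x * (wron a b).eval x) ≤ b.eval x * (a.eval x * b.eval x) := by nlinarith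
    exact le_of_mul_le_mul_left this hbx
  · intro y hy
    have h1 := (a.hasDerivAt y).div (b.hasDerivAt y) (hbp y hy).ne'
    have e : (wron a b).eval y = eval y (derivative a) * eval y b - eval y a * eval y (derivative b) := by
      simp [wron]
    rw [e]
    exact h1
  · intro y hy
    exact div_nonneg (hap y hy).le (hbp y hy).le
  · intro y hy
    exact div_nonneg (hP.wron_nonneg y) (sq_nonneg _)
  · intro y z hy hz
    have htp := hP.two_point y z
    have hby := hbp y hy
    have hbz := hbp z hz
    have e1 : (a.eval y / b.eval y - a.eval z / b.eval z) ^ 2 =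
        (a.eval y * b.eval z - b.eval y * a.eval z) ^ 2 / (b.eval y ^ 2 * b.eval z ^ 2) := by
      rw [div_sub_div _ _ hby.ne' hbz.ne', div_pow, mul_pow]
    have e2 : (y - z) ^ 2 * ((wron a b).eval y / b.eval y ^ 2 * ((wron a b).eval z / b.eval z ^ 2)) =
        ((wron a b).eval y * (wron a b).eval z * (y - z) ^ 2) / (b.eval y ^ 2 * b.eval z ^ 2) := by
      field_simp
    rw [e1, e2]
    exact div_le_div_of_nonneg_right htp (by positivity)

theorem infl_nonneg (hst : Stab W w) (heA : e ∉ A) : 0 ≤ infl W w e A g := by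
  rw [infl_eq]
  exact div_nonneg ((pickPair hst heA).wron_nonneg 1) (sq_nonneg _)

theorem infl_le (h : Pos W w) (hst : Stab W w) (heA : e ∉ A) : infl W w e A g ≤ 1 / 4 := by
  rw [infl_eq, div_le_iff₀ (by have := Zf_pos h g; positivity)]
  have := mul_wron_le (g := g) h hst heA 1 one_pos
  rw [one_mul, eval_pa_one, eval_pb_one] at this
  nlinarith [sq_nonneg (Zf W w g - 2 * Nf W w e g)]

theorem infl_union (A B : Finset E) (hAB : Disjoint A B) :
    infl W w e (A ∪ B) g = infl W w e A g + infl W w e B g := by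
  have hc : ∀ S : Finset E, ((S ∩ (A ∪ B)).card : ℝ) = ((S ∩ A).card : ℝ) + ((S ∩ B).card : ℝ) := by
    intro S
    rw [Finset.inter_union_distrib_left, Finset.card_union_of_disjoint]
    · push_cast; rfl
    · exact Finset.disjoint_of_subset_left Finset.inter_subset_right
        (Finset.disjoint_of_subset_right Finset.inter_subset_right hAB)
  have h1 : NA W w (A ∪ B) g = NA W w A g + NA W w B g := by
    unfold NA
    rw [← Finset.sum_add_distrib]
    apply Finset.sum_congr rfl
    intro S _
    rw [hc]; ring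
  have h2 : NeA W w e (A ∪ B) g = NeA W w e A g + NeA W w e B g := by
    unfold NeA
    rw [← Finset.sum_add_distrib]
    apply Finset.sum_congr rfl
    intro S _
    rw [hc]; ring
  unfold infl
  rw [h1, h2, ← add_div]
  congr 1
  ring

/-- marginal at the tilt `g + t 1_A` in terms of the polynomials -/
theorem mg_addOn (t : ℝ) : mg W w e (addOn g A t) =
    (pb W w e A g).eval (Real.exp t) /
      ((pa W w e A g).eval (Real.exp t) + (pb W w e A g).eval (Real.exp t)) := by
  rw [eval_pa _ (Real.exp_pos t), eval_pb _ (Real.exp_pos t), Real.log_exp, sub_add_cancel]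
  rfl

/-- Square root bound. -/
theorem mg_addOn_sq_le (h : Pos W w) (hst : Stab W w) (heA : e ∉ A) (t M : ℝ) (ht : |t| ≤ M) :
    (mg W w e (addOn g A t) - mg W w e g) ^ 2 ≤ Real.exp M * infl W w e A g := by
  have h0 : mg W w e g = mg W w e (addOn g A 0) := by rw [addOn_zero]
  rw [h0, mg_addOn, mg_addOn, Real.exp_zero]
  set a := pa W w e A g
  set b := pb W w e A g
  set x := Real.exp t
  have hx : 0 < x := Real.exp_pos t
  have hZx : 0 < a.eval x + b.eval x := by
    rw [eval_pa x hx, eval_pb x hx, sub_add_cancel]; exact Zf_pos h _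
  have hZ1 : 0 < a.eval 1 + b.eval 1 := by
    rw [eval_pa_one, eval_pb_one, sub_add_cancel]; exact Zf_pos h _
  have hP := pickPair (g := g) hst heA
  have htp := hP.two_point x 1
  have hW1 := hP.wron_nonneg 1
  have hmw := mul_wron_le (g := g) h hst heA x hx
  rw [infl_eq]
  have hZ : Zf W w g = a.eval 1 + b.eval 1 := by
    rw [eval_pa_one, eval_pb_one, sub_add_cancel]
  rw [hZ]
  have e1 : (b.eval x / (a.eval x + b.eval x) - b.eval 1 / (a.eval 1 + b.eval 1)) ^ 2 =
      (a.eval x * b.eval 1 - b.eval x * a.eval 1) ^ 2 /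
        ((a.eval x + b.eval x) ^ 2 * (a.eval 1 + b.eval 1) ^ 2) := by
    rw [div_sub_div _ _ hZx.ne' hZ1.ne', div_pow, mul_pow]
    congr 1
    ring
  rw [e1]
  set Wx := (wron a b).eval x
  set W1 := (wron a b).eval 1
  set Z1 := a.eval 1 + b.eval 1
  set Zx := a.eval x + b.eval x
  have hx2 : (x - 1) ^ 2 ≤ 4 * x * Real.exp M := by
    have h1 : x ≤ Real.exp M := Real.exp_le_exp.mpr (le_trans (le_abs_self t) ht)
    have h2 : 1 ≤ x * Real.exp M := by
      rw [← Real.exp_add]
      apply Real.one_le_exp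
      linarith [neg_abs_le t]
    nlinarith
  have hWx : x * Wx ≤ Zx ^ 2 / 4 := by
    have : a.eval x * b.eval x ≤ Zx ^ 2 / 4 := by
      nlinarith [sq_nonneg (a.eval x - b.eval x)]
    linarith
  rw [div_le_iff₀ (by positivity)]
  have hgoal : Real.exp M * (W1 / Z1 ^ 2) * (Zx ^ 2 * Z1 ^ 2) = Real.exp M * W1 * Zx ^ 2 := by
    field_simp
  rw [hgoal]
  calc (a.eval x * b.eval 1 - b.eval x * a.eval 1) ^ 2 ≤ Wx * W1 * (x - 1) ^ 2 := htp
    _ ≤ Wx * W1 * (4 * x * Real.exp M) := by
        apply mul_le_mul_of_nonneg_left hx2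
        exact mul_nonneg (hP.wron_nonneg x) hW1
    _ = (x * Wx) * (4 * W1 * Real.exp M) := by ring
    _ ≤ (Zx ^ 2 / 4) * (4 * W1 * Real.exp M) := by
        apply mul_le_mul_of_nonneg_right hWx
        positivity
    _ = Real.exp M * W1 * Zx ^ 2 := by ring

/-- Generic Lipschitz estimate in the logarithmic variable. -/
theorem lip_generic (a b : ℝ[X]) (hab : ∀ x, 0 < x → 0 < a.eval x + b.eval x)
    (hw : ∀ x, 0 < x → |x * (wron a b).eval x| ≤ a.eval x * b.eval x) (s t : ℝ) :
    |b.eval (Real.exp t) / (a.eval (Real.exp t) + b.eval (Real.exp t)) -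
      b.eval (Real.exp s) / (a.eval (Real.exp s) + b.eval (Real.exp s))| ≤ 1 / 4 * |t - s| := by
  set m : ℝ → ℝ := fun t => b.eval (Real.exp t) / (a.eval (Real.exp t) + b.eval (Real.exp t)) with hm
  set m' : ℝ → ℝ := fun t => -(Real.exp t * (wron a b).eval (Real.exp t)) /
    (a.eval (Real.exp t) + b.eval (Real.exp t)) ^ 2 with hm'
  have hd : ∀ t, HasDerivAt m (m' t) t := by
    intro t
    have h1 : HasDerivAt (fun t => b.eval (Real.exp t)) ((derivative b).eval (Real.exp t) * Real.exp t) t :=
      (b.hasDerivAt _).comp t (Real.hasDerivAt_exp t)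
    have h2 : HasDerivAt (fun t => a.eval (Real.exp t)) ((derivative a).eval (Real.exp t) * Real.exp t) t :=
      (a.hasDerivAt _).comp t (Real.hasDerivAt_exp t)
    have h3 := h1.div (h2.add h1) (hab _ (Real.exp_pos t)).ne'
    have e : m' t = ((derivative b).eval (Real.exp t) * Real.exp t * (a.eval (Real.exp t) + b.eval (Real.exp t)) -
        b.eval (Real.exp t) * ((derivative a).eval (Real.exp t) * Real.exp t +
          (derivative b).eval (Real.exp t) * Real.exp t)) /
        (a.eval (Real.exp t) + b.eval (Real.exp t)) ^ 2 := by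
      simp only [hm', wron, eval_sub, eval_mul]
      congr 1
      ring
    rw [e]
    exact h3
  have hb' : ∀ t, ‖m' t‖ ≤ 1 / 4 := by
    intro t
    have hp := hab _ (Real.exp_pos t)
    simp only [hm', Real.norm_eq_abs]
    rw [abs_div, abs_neg, abs_of_pos (by positivity : 0 < (a.eval (Real.exp t) + b.eval (Real.exp t)) ^ 2)]
    rw [div_le_iff₀ (by positivity)]
    have := hw _ (Real.exp_pos t)
    nlinarith [sq_nonneg (a.eval (Real.exp t) - b.eval (Real.exp t))]
  have := Convex.norm_image_sub_le_of_norm_hasDerivWithin_le (f := m) (f' := m') (s := Set.univ)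
    (x := s) (y := t) (C := 1/4)
    (fun x _ => (hd x).hasDerivWithinAt) (fun x _ => hb' x) convex_univ (Set.mem_univ _) (Set.mem_univ _)
  simpa [Real.norm_eq_abs] using this

theorem mg_addOn_lip (h : Pos W w) (hst : Stab W w) (heA : e ∉ A) (t : ℝ) :
    |mg W w e (addOn g A t) - mg W w e g| ≤ 1 / 4 * |t| := by
  have h0 : mg W w e g = mg W w e (addOn g A 0) := by rw [addOn_zero]
  rw [h0, mg_addOn, mg_addOn]
  have := lip_generic (pa W w e A g) (pb W w e A g) ?_ ?_ 0 t
  · simpa using this
  · intro x hx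
    rw [eval_pa x hx, eval_pb x hx, sub_add_cancel]; exact Zf_pos h _
  · intro x hx
    rw [abs_of_nonneg (mul_nonneg hx.le ((pickPair hst heA).wron_nonneg x))]
    exact mul_wron_le h hst heA x hx

/-- monotonicity in one direction -/
theorem mg_addOn_anti (h : Pos W w) (hst : Stab W w) (heA : e ∉ A) (t : ℝ) (ht : 0 ≤ t) :
    mg W w e (addOn g A t) ≤ mg W w e g := by
  have h0 : mg W w e g = mg W w e (addOn g A 0) := by rw [addOn_zero]
  rw [h0, mg_addOn, mg_addOn, Real.exp_zero]
  set a := pa W w e A g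
  set b := pb W w e A g
  have hab : ∀ x, 0 < x → 0 < a.eval x + b.eval x := by
    intro x hx
    rw [eval_pa x hx, eval_pb x hx, sub_add_cancel]; exact Zf_pos h _
  have hP := pickPair (g := g) hst heA
  have hmono : AntitoneOn (fun x => b.eval x / (a.eval x + b.eval x)) (Set.Icc 1 (Real.exp t)) := by
    have hd : ∀ x, 0 < x → HasDerivAt (fun x => b.eval x / (a.eval x + b.eval x))
        (-(wron a b).eval x / (a.eval x + b.eval x) ^ 2) x := by
      intro x hx
      have h3 := (b.hasDerivAt x).div ((a.hasDerivAt x).add (b.hasDerivAt x)) (hab x hx).ne'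
      have e : -(wron a b).eval x / (a.eval x + b.eval x) ^ 2 =
          ((derivative b).eval x * (a.eval x + b.eval x) -
            b.eval x * ((derivative a).eval x + (derivative b).eval x)) / (a.eval x + b.eval x) ^ 2 := by
        simp only [wron, eval_sub, eval_mul]
        congr 1
        ring
      rw [e]
      exact h3
    apply antitoneOn_of_deriv_nonpos (convex_Icc _ _)
    · intro x hx
      exact (hd x (lt_of_lt_of_le one_pos hx.1)).continuousAt.continuousWithinAt
    · intro x hx
      rw [interior_Icc] at hx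
      exact (hd x (lt_trans one_pos hx.1)).differentiableAt.differentiableWithinAt
    · intro x hx
      rw [interior_Icc] at hx
      rw [(hd x (lt_trans one_pos hx.1)).deriv]
      apply div_nonpos_of_nonpos_of_nonneg _ (sq_nonneg _)
      linarith [hP.wron_nonneg x]
  have h1 : (1:ℝ) ≤ Real.exp t := Real.one_le_exp ht
  exact hmono (Set.left_mem_Icc.mpr h1) (Set.right_mem_Icc.mpr h1) h1

theorem mg_congr (g g' : E → ℝ) (hgg' : ∀ i ∈ W, g i = g' i) : mg W w e g = mg W w e g' := by
  have hwt : ∀ S ∈ W.powerset, wt g S = wt g' S := by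
    intro S hS
    unfold wt
    congr 1
    apply Finset.sum_congr rfl
    intro i hi
    exact hgg' i (Finset.mem_powerset.mp hS hi)
  unfold mg Nf Zf
  congr 1
  · apply Finset.sum_congr rfl
    intro S hS
    rw [hwt S (Finset.mem_filter.mp hS).1]
  · apply Finset.sum_congr rfl
    intro S hS
    rw [hwt S hS]

/-- monotonicity off `e` -/
theorem mg_anti (h : Pos W w) (hst : Stab W w) (g g' : E → ℝ) (hle : ∀ i ∈ W, g i ≤ g' i)
    (hee : e ∈ W → g e = g' e) : mg W w e g' ≤ mg W w e g := by
  -- change coordinates one at a time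
  have key : ∀ D : Finset E, D ⊆ W.erase e →
      mg W w e (fun i => if i ∈ D then g' i else g i) ≤ mg W w e g := by
    intro D
    induction D using Finset.induction_on with
    | empty => intro _; simp
    | insert f D hf ih =>
      intro hD
      have hD' : D ⊆ W.erase e := fun i hi => hD (Finset.mem_insert_of_mem hi)
      have hfW := hD (Finset.mem_insert_self f D)
      have hfe : f ≠ e := (Finset.mem_erase.mp hfW).1
      refine le_trans ?_ (ih hD')
      have := mg_addOn_anti (g := fun i => if i ∈ D then g' i else g i) (A := {f}) (e := e) h hst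
        (by simpa using hfe.symm) (g' f - g f) (by linarith [hle f (Finset.mem_erase.mp hfW).2])
      refine le_trans (le_of_eq ?_) this
      congr 1
      funext i
      unfold addOn
      by_cases hi : i = f
      · subst hi
        simp [hf]
      · simp [hi]
  have := key (W.erase e) (le_refl _)
  refine le_trans (le_of_eq ?_) this
  apply mg_congr
  intro i hi
  by_cases hie : i = e
  · subst hie
    simp [hee hi]
  · simp [hie, hi]

theorem mg_lip_off (h : Pos W w) (hst : Stab W w) (g g' : E → ℝ) (δ : ℝ)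
    (hle : ∀ i ∈ W, |g i - g' i| ≤ δ) (hδ : 0 ≤ δ)
    (hee : e ∈ W → g e = g' e) : |mg W w e g - mg W w e g'| ≤ 1 / 4 * δ := by
  have h1 : mg W w e (addOn g (W.erase e) δ) ≤ mg W w e g' := by
    apply mg_anti h hst
    · intro i hi
      unfold addOn
      by_cases hie : i = e
      · subst hie; simp [hee hi]
      · simp only [Finset.mem_erase, ne_eq, hie, not_false_eq_true, hi, and_self, if_true]
        have := abs_le.mp (hle i hi)
        linarith
    · intro he
      unfold addOn
      simp [hee he]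
  have h2 : mg W w e g' ≤ mg W w e (addOn g (W.erase e) (-δ)) := by
    apply mg_anti h hst
    · intro i hi
      unfold addOn
      by_cases hie : i = e
      · subst hie; simp [hee hi]
      · simp only [Finset.mem_erase, ne_eq, hie, not_false_eq_true, hi, and_self, if_true]
        have := abs_le.mp (hle i hi)
        linarith
    · intro he
      unfold addOn
      simp [hee he]
  have h3 := mg_addOn_lip (g := g) (A := W.erase e) (e := e) h hst (by simp) δ
  have h4 := mg_addOn_lip (g := g) (A := W.erase e) (e := e) h hst (by simp) (-δ)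
  rw [abs_neg, abs_of_nonneg hδ] at h4
  rw [abs_of_nonneg hδ] at h3
  have h3' := abs_le.mp h3
  have h4' := abs_le.mp h4
  rw [abs_le]
  constructor <;> linarith

/-- Lipschitz in the own coordinate. -/
theorem mg_own_lip (h : Pos W w) (t : ℝ) :
    |mg W w e (addOn g {e} t) - mg W w e g| ≤ 1 / 4 * |t| := by
  have h0 : mg W w e g = mg W w e (addOn g {e} 0) := by rw [addOn_zero]
  rw [h0, mg_addOn, mg_addOn]
  have := lip_generic (pa W w e {e} g) (pb W w e {e} g) ?_ ?_ 0 t
  · simpa using this
  · intro x hx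
    rw [eval_pa x hx, eval_pb x hx, sub_add_cancel]; exact Zf_pos h _
  · intro x hx
    have e1 : pa W w e {e} g = C (Zf W w g - Nf W w e g) := by
      unfold pa
      rw [Zf_sub_Nf_eq, map_sum]
      apply Finset.sum_congr rfl
      intro S hS
      have : S ∩ {e} = ∅ := by
        rw [Finset.inter_singleton_of_notMem (Finset.mem_filter.mp hS).2]
      rw [this]; simp
    have e2 : pb W w e {e} g = C (Nf W w e g) * X := by
      unfold pb Nf
      rw [map_sum, Finset.sum_mul]
      apply Finset.sum_congr rfl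
      intro S hS
      have : S ∩ {e} = {e} := by
        rw [Finset.inter_singleton_of_mem (Finset.mem_filter.mp hS).2]
      rw [this]; simp
    rw [e1, e2]
    simp only [wron, derivative_C, zero_mul, derivative_mul, derivative_X, mul_one, zero_sub,
      eval_neg, eval_mul, eval_C, eval_X, zero_add, mul_neg, abs_neg]
    rw [abs_of_nonneg]
    · apply le_of_eq; ring
    · have := Nf_nonneg (e := e) h g
      have := Nf_le_Zf (e := e) h g
      apply mul_nonneg hx.le
      apply mul_nonneg <;> linarith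

theorem mg_lip (h : Pos W w) (hst : Stab W w) (g g' : E → ℝ) (δ : ℝ)
    (hle : ∀ i ∈ W, |g i - g' i| ≤ δ) (hδ : 0 ≤ δ) : |mg W w e g - mg W w e g'| ≤ 1 / 2 * δ := by
  by_cases he : e ∈ W
  · set g'' : E → ℝ := addOn g {e} (g' e - g e) with hg''
    have h1 : |mg W w e g'' - mg W w e g| ≤ 1 / 4 * |g' e - g e| := mg_own_lip h _
    have h2 : |mg W w e g'' - mg W w e g'| ≤ 1 / 4 * δ := by
      apply mg_lip_off h hst _ _ _ _ hδ
      · intro _
        simp [hg'', addOn]
      · intro i hi
        simp only [hg'', addOn, Finset.mem_singleton]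
        split_ifs with hie
        · subst hie; simp [hδ]
        · exact hle i hi
    have h3 : |g' e - g e| ≤ δ := by rw [abs_sub_comm]; exact hle e he
    have h4 : |mg W w e g - mg W w e g'| ≤ |mg W w e g'' - mg W w e g| + |mg W w e g'' - mg W w e g'| := by
      have := abs_sub_le (mg W w e g) (mg W w e g'') (mg W w e g')
      rwa [abs_sub_comm (mg W w e g) (mg W w e g'')] at this
    linarith
  · have := mg_lip_off (e := e) h hst g g' δ hle hδ (fun h => absurd h he)
    linarith

end

end Crest.Agent.FIID
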