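import Mathlib
import Crest.Agent.FIID.WindowProps

/-!
Continuity at infinity for abstract influence systems.
-/

set_option autoImplicit false

open Filter Topology

namespace Crest.Agent.FIID

open scoped Classical

/-- finitely supported -/
def FS {E : Type*} (g : E → ℝ) : Prop := (Function.support g).Finite

/-- the support as a finset -/
noncomputable def suppF {E : Type*} {g : E → ℝ} (hg : FS g) : Finset E :=
  Set.Finite.toFinset (show (Function.support g).Finite from hg)

theorem mem_suppF {E : Type*} {g : E → ℝ} (hg : FS g) (i : E) : i ∈ suppF hg ↔ g i ≠ 0 := by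
  unfold suppF
  rw [Set.Finite.mem_toFinset, Function.mem_support]

theorem mem_suppF_sdiff {E : Type*} {g : E → ℝ} (hg : FS g) (i : E) (B : Finset E) :
    i ∈ suppF hg \ B ↔ g i ≠ 0 ∧ i ∉ B := by
  rw [Finset.mem_sdiff, mem_suppF]

/-- truncation to a window -/
noncomputable def tr {E : Type*} (h : E → ℝ) (W : Finset E) : E → ℝ := fun i => if i ∈ W then h i else 0

/-- abstract influence system at the site `e` -/
structure InfSys (E : Type*) (e : E) where
  m : (E → ℝ) → ℝ
  I : Finset E → (E → ℝ) → ℝ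
  m_nonneg : ∀ g, FS g → 0 ≤ m g
  m_le_one : ∀ g, FS g → m g ≤ 1
  anti : ∀ g g', FS g → FS g' → (∀ i, g i ≤ g' i) → g e = g' e → m g' ≤ m g
  I_nonneg : ∀ A g, FS g → e ∉ A → 0 ≤ I A g
  I_le : ∀ A g, FS g → e ∉ A → I A g ≤ 1 / 4
  I_union : ∀ A B g, FS g → Disjoint A B → e ∉ A → e ∉ B → I (A ∪ B) g = I A g + I B g
  sq : ∀ A g t M, FS g → e ∉ A → |t| ≤ M → (m (addOn g A t) - m g) ^ 2 ≤ Real.exp M * I A g

section
variable {E : Type*} {e : E}

theorem FS_tr (h : E → ℝ) (W : Finset E) : FS (tr h W) := by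
  apply Set.Finite.subset W.finite_toSet
  intro i hi
  by_contra hc
  apply hi
  simp only [tr]
  rw [if_neg]
  simpa using hc

theorem FS.add {g g' : E → ℝ} (h : FS g) (h' : FS g') : FS (fun i => g i + g' i) := by
  apply Set.Finite.subset (h.union h')
  intro i hi
  simp only [Set.mem_union, Function.mem_support] at hi ⊢
  by_contra hc
  push Not at hc
  apply hi
  rw [hc.1, hc.2, add_zero]

theorem FS_zero : FS (fun _ : E => (0:ℝ)) := by
  unfold FS
  simp

theorem FS.addOn {g : E → ℝ} (h : FS g) (A : Finset E) (t : ℝ) : FS (addOn g A t) := by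
  have := h.add (FS_tr (fun _ => t) A)
  convert this using 2
  unfold FIID.addOn tr
  split_ifs <;> simp

/-- limit of a bounded function along an ultrafilter -/
theorem ultra_tendsto {ι : Type*} (U : Ultrafilter ι) (f : ι → ℝ) (a b : ℝ)
    (h : ∀ i, f i ∈ Set.Icc a b) :
    Tendsto f U (𝓝 (limUnder (U : Filter ι) f)) := by
  obtain ⟨x, _, hx⟩ := (isCompact_Icc (a := a) (b := b)).ultrafilter_le_nhds (U.map f)
    (by
      rw [le_principal_iff, Ultrafilter.coe_map, mem_map]
      exact Filter.Eventually.of_forall (fun x => h x))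
  exact tendsto_nhds_limUnder ⟨x, hx⟩

/-- the shifted system -/
noncomputable def InfSys.shift (s : InfSys E e) (U : Ultrafilter (Finset E)) (k : E → ℝ) :
    InfSys E e where
  m g := limUnder (U : Filter (Finset E)) (fun W => s.m (fun i => tr k W i + g i))
  I A g := limUnder (U : Filter (Finset E)) (fun W => s.I A (fun i => tr k W i + g i))
  m_nonneg g hg := by
    have ht := ultra_tendsto U (fun W => s.m (fun i => tr k W i + g i)) 0 1
      (fun W => ⟨s.m_nonneg _ ((FS_tr k W).add hg), s.m_le_one _ ((FS_tr k W).add hg)⟩)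
    exact ge_of_tendsto ht (Eventually.of_forall fun W => s.m_nonneg _ ((FS_tr k W).add hg))
  m_le_one g hg := by
    have ht := ultra_tendsto U (fun W => s.m (fun i => tr k W i + g i)) 0 1
      (fun W => ⟨s.m_nonneg _ ((FS_tr k W).add hg), s.m_le_one _ ((FS_tr k W).add hg)⟩)
    exact le_of_tendsto ht (Eventually.of_forall fun W => s.m_le_one _ ((FS_tr k W).add hg))
  anti g g' hg hg' hle hee := by
    have ht := ultra_tendsto U (fun W => s.m (fun i => tr k W i + g i)) 0 1
      (fun W => ⟨s.m_nonneg _ ((FS_tr k W).add hg), s.m_le_one _ ((FS_tr k W).add hg)⟩)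
    have ht' := ultra_tendsto U (fun W => s.m (fun i => tr k W i + g' i)) 0 1
      (fun W => ⟨s.m_nonneg _ ((FS_tr k W).add hg'), s.m_le_one _ ((FS_tr k W).add hg')⟩)
    refine le_of_tendsto_of_tendsto ht' ht (Eventually.of_forall fun W => ?_)
    apply s.anti _ _ ((FS_tr k W).add hg) ((FS_tr k W).add hg')
    · intro i
      linarith [hle i]
    · simp [hee]
  I_nonneg A g hg heA := by
    have ht := ultra_tendsto U (fun W => s.I A (fun i => tr k W i + g i)) 0 (1/4)
      (fun W => ⟨s.I_nonneg A _ ((FS_tr k W).add hg) heA, s.I_le A _ ((FS_tr k W).add hg) heA⟩)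
    exact ge_of_tendsto ht (Eventually.of_forall fun W => s.I_nonneg A _ ((FS_tr k W).add hg) heA)
  I_le A g hg heA := by
    have ht := ultra_tendsto U (fun W => s.I A (fun i => tr k W i + g i)) 0 (1/4)
      (fun W => ⟨s.I_nonneg A _ ((FS_tr k W).add hg) heA, s.I_le A _ ((FS_tr k W).add hg) heA⟩)
    exact le_of_tendsto ht (Eventually.of_forall fun W => s.I_le A _ ((FS_tr k W).add hg) heA)
  I_union A B g hg hAB heA heB := by
    have ht := fun (A : Finset E) (heA : e ∉ A) => ultra_tendsto U (fun W => s.I A (fun i => tr k W i + g i)) 0 (1/4)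
      (fun W => ⟨s.I_nonneg A _ ((FS_tr k W).add hg) heA, s.I_le A _ ((FS_tr k W).add hg) heA⟩)
    have h1 := (ht A heA).add (ht B heB)
    have h2 := ht (A ∪ B) (by simp [heA, heB])
    refine tendsto_nhds_unique h2 (h1.congr fun W => ?_)
    exact (s.I_union A B _ ((FS_tr k W).add hg) hAB heA heB).symm
  sq A g t M hg heA htM := by
    have ht := ultra_tendsto U (fun W => s.I A (fun i => tr k W i + g i)) 0 (1/4)
      (fun W => ⟨s.I_nonneg A _ ((FS_tr k W).add hg) heA, s.I_le A _ ((FS_tr k W).add hg) heA⟩)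
    have h1 := ultra_tendsto U (fun W => s.m (fun i => tr k W i + g i)) 0 1
      (fun W => ⟨s.m_nonneg _ ((FS_tr k W).add hg), s.m_le_one _ ((FS_tr k W).add hg)⟩)
    have hg' := hg.addOn A t
    have h2 := ultra_tendsto U (fun W => s.m (fun i => tr k W i + addOn g A t i)) 0 1
      (fun W => ⟨s.m_nonneg _ ((FS_tr k W).add hg'), s.m_le_one _ ((FS_tr k W).add hg')⟩)
    refine le_of_tendsto_of_tendsto ((h2.sub h1).pow 2) (ht.const_mul (Real.exp M))
      (Eventually.of_forall fun W => ?_)
    have := s.sq A (fun i => tr k W i + g i) t M ((FS_tr k W).add hg) heA htM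
    have e1 : addOn (fun i => tr k W i + g i) A t = (fun i => tr k W i + addOn g A t i) := by
      funext i
      unfold FIID.addOn
      split_ifs <;> ring
    rw [e1] at this
    exact this

theorem InfSys.shift_tendsto (s : InfSys E e) (U : Ultrafilter (Finset E)) (k g : E → ℝ) (hg : FS g) :
    Tendsto (fun W => s.m (fun i => tr k W i + g i)) U (𝓝 ((s.shift U k).m g)) :=
  ultra_tendsto U (fun W => s.m (fun i => tr k W i + g i)) 0 1
      (fun W => ⟨s.m_nonneg _ ((FS_tr k W).add hg), s.m_le_one _ ((FS_tr k W).add hg)⟩)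

/-- far away perturbations have small effect -/
theorem InfSys.far (s : InfSys E e) (g : E → ℝ) (hg : FS g) (M ε : ℝ) (hM : 0 ≤ M) (hε : 0 < ε) :
    ∃ B : Finset E, ∀ u : E → ℝ, FS u → (∀ i, |u i| ≤ M) → (∀ i ∈ B, u i = 0) →
      |s.m (fun i => g i + u i) - s.m g| ≤ ε := by
  set δ : ℝ := ε ^ 2 / Real.exp M with hδ
  have hδ0 : 0 < δ := by positivity
  -- a set nearly exhausting the influence
  obtain ⟨B₀, hB₀e, hB₀⟩ : ∃ B₀ : Finset E, e ∉ B₀ ∧ ∀ A : Finset E, e ∉ A → Disjoint A B₀ → s.I A g ≤ δ := by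
    by_contra hcon
    push Not at hcon
    -- iterate to get unbounded influence
    have : ∀ n : ℕ, ∃ B : Finset E, e ∉ B ∧ (n : ℝ) * δ ≤ s.I B g := by
      intro n
      induction n with
      | zero => exact ⟨∅, by simp, by simpa using s.I_nonneg ∅ g hg (by simp)⟩
      | succ n ih =>
        obtain ⟨B, hB, hn⟩ := ih
        obtain ⟨A, hA, hAB, hδA⟩ := hcon B hB
        refine ⟨A ∪ B, by simp [hA, hB], ?_⟩
        rw [s.I_union A B g hg hAB hA hB]
        push_cast
        linarith
    obtain ⟨n, hn⟩ := exists_nat_gt ((1/4) / δ)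
    obtain ⟨B, hB, hn'⟩ := this n
    have h1 := s.I_le B g hg hB
    rw [div_lt_iff₀ hδ0] at hn
    linarith
  refine ⟨insert e B₀, fun u hu huM huB => ?_⟩
  set A : Finset E := suppF hu with hA
  have hmemA : ∀ i, i ∈ A ↔ u i ≠ 0 := fun i => mem_suppF hu i
  have heA : e ∉ A := by
    rw [hmemA]; push Not
    exact huB e (Finset.mem_insert_self _ _)
  have hAB : Disjoint A B₀ := by
    rw [Finset.disjoint_left]
    intro i hi hiB
    exact (hmemA i).mp hi (huB i (Finset.mem_insert_of_mem hiB))
  have hI := hB₀ A heA hAB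
  have hsq : ∀ t, |t| ≤ M → |s.m (addOn g A t) - s.m g| ≤ ε := by
    intro t ht
    apply abs_le_of_sq_le_sq _ hε.le
    calc (s.m (addOn g A t) - s.m g) ^ 2 ≤ Real.exp M * s.I A g := s.sq A g t M hg heA ht
      _ ≤ Real.exp M * δ := by
        apply mul_le_mul_of_nonneg_left hI (Real.exp_pos M).le
      _ = ε ^ 2 := by rw [hδ]; field_simp
  have h1 := hsq M (by rw [abs_of_nonneg hM])
  have h2 := hsq (-M) (by rw [abs_neg, abs_of_nonneg hM])
  have h3 : s.m (addOn g A M) ≤ s.m (fun i => g i + u i) := by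
    apply s.anti _ _ (hg.add hu) (hg.addOn A M)
    · intro i
      unfold FIID.addOn
      split_ifs with hi
      · linarith [(abs_le.mp (huM i)).2]
      · rw [hmemA] at hi; push Not at hi
        simp [hi]
    · unfold FIID.addOn
      rw [if_neg heA, huB e (Finset.mem_insert_self _ _), add_zero]
  have h4 : s.m (fun i => g i + u i) ≤ s.m (addOn g A (-M)) := by
    apply s.anti _ _ (hg.addOn A (-M)) (hg.add hu)
    · intro i
      unfold FIID.addOn
      split_ifs with hi
      · linarith [(abs_le.mp (huM i)).1]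
      · rw [hmemA] at hi; push Not at hi
        simp [hi]
    · unfold FIID.addOn
      rw [if_neg heA, huB e (Finset.mem_insert_self _ _), add_zero]
  rw [abs_le] at h1 h2 ⊢
  constructor <;> linarith

/-- `L` is the limit (infimum) of the truncations of `h` -/
def IsLimTr (s : InfSys E e) (D : Finset E) (h : E → ℝ) (L : ℝ) : Prop :=
  (∀ W, D ⊆ W → L ≤ s.m (tr h W)) ∧ ∀ ε > 0, ∃ W, D ⊆ W ∧ s.m (tr h W) ≤ L + ε

theorem exists_isLimTr (s : InfSys E e) (D : Finset E) (h : E → ℝ) : ∃ L, IsLimTr s D h L := by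
  set S : Set ℝ := (fun W => s.m (tr h W)) '' {W : Finset E | D ⊆ W} with hS
  have hne : S.Nonempty := ⟨_, D, Finset.Subset.refl D, rfl⟩
  have hbd : BddBelow S := ⟨0, by rintro _ ⟨W, _, rfl⟩; exact s.m_nonneg _ (FS_tr h W)⟩
  refine ⟨sInf S, ?_, ?_⟩
  · intro W hW
    exact csInf_le hbd ⟨W, hW, rfl⟩
  · intro ε hε
    obtain ⟨_, ⟨W, hW, rfl⟩, hlt⟩ := exists_lt_of_csInf_lt hne (show sInf S < sInf S + ε by linarith)
    exact ⟨W, hW, hlt.le⟩

theorem tr_anti (s : InfSys E e) (D : Finset E) (h : E → ℝ) (heD : e ∈ D) (h0 : ∀ i, i ∉ D → 0 ≤ h i)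
    (W W' : Finset E) (hDW : D ⊆ W) (hWW' : W ⊆ W') : s.m (tr h W') ≤ s.m (tr h W) := by
  apply s.anti _ _ (FS_tr h W) (FS_tr h W')
  · intro i
    unfold tr
    by_cases hi : i ∈ W
    · rw [if_pos hi, if_pos (hWW' hi)]
    · rw [if_neg hi]
      split_ifs
      · exact h0 i (fun hD => hi (hDW hD))
      · exact le_refl _
  · unfold tr
    rw [if_pos (hDW heD), if_pos (hWW' (hDW heD))]

/-- Step 1. -/
theorem InfSys.step1 (s : InfSys E e) (D : Finset E) (h : E → ℝ) (M L : ℝ) (hM : ∀ i, |h i| ≤ M)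
    (heD : e ∈ D) (h0 : ∀ i, i ∉ D → 0 ≤ h i) (hL : IsLimTr s D h L) (ε : ℝ) (hε : 0 < ε) :
    ∃ B : Finset E, ∀ g : E → ℝ, FS g → (∀ i, |g i| ≤ M) → (∀ i ∈ B, g i = h i) → s.m g ≤ L + ε := by
  have hM0 : 0 ≤ M := le_trans (abs_nonneg _) (hM e)
  obtain ⟨B₁, hDB₁, hB₁⟩ := hL.2 (ε/2) (by linarith)
  obtain ⟨B₂, hB₂⟩ := s.far (tr h B₁) (FS_tr h B₁) M (ε/2) hM0 (by linarith)
  refine ⟨B₁ ∪ B₂, fun g hg hgM hgB => ?_⟩
  set u : E → ℝ := tr (fun _ => -M) (suppF hg \ (B₁ ∪ B₂)) with hu
  have h1 := hB₂ u (FS_tr _ _) ?_ ?_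
  · have h2 : s.m g ≤ s.m (fun i => tr h B₁ i + u i) := by
      apply s.anti _ _ ((FS_tr _ _).add (FS_tr _ _)) hg
      · intro i
        simp only [hu, tr]
        by_cases hi : i ∈ B₁
        · rw [if_pos hi, if_neg (by rw [mem_suppF_sdiff]; simp [hi]), add_zero, hgB i (Finset.mem_union_left _ hi)]
        · rw [if_neg hi, zero_add]
          by_cases hi2 : i ∈ B₂
          · rw [if_neg (by rw [mem_suppF_sdiff]; simp [hi2]), hgB i (Finset.mem_union_right _ hi2)]
            exact h0 i (fun hD => hi (hDB₁ hD))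
          · by_cases hi3 : g i = 0
            · rw [if_neg (by rw [mem_suppF_sdiff]; simp [hi3]), hi3]
            · rw [if_pos (by rw [mem_suppF_sdiff]; simp [hi3, hi, hi2])]
              linarith [(abs_le.mp (hgM i)).1]
      · simp only [hu, tr]
        rw [if_pos (hDB₁ heD), if_neg (by rw [mem_suppF_sdiff]; simp [hDB₁ heD]), add_zero,
          hgB e (Finset.mem_union_left _ (hDB₁ heD))]
    rw [abs_le] at h1
    linarith
  · intro i
    simp only [hu, tr]
    split_ifs
    · rw [abs_neg, abs_of_nonneg hM0]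
    · simpa using hM0
  · intro i hi
    simp only [hu, tr]
    rw [if_neg (by rw [mem_suppF_sdiff]; simp [hi])]

/-- Step 2. -/
theorem InfSys.step2 (s : InfSys E e) (D : Finset E) (h : E → ℝ) (M L : ℝ) (hM : ∀ i, |h i| ≤ M)
    (heD : e ∈ D) (h0 : ∀ i, i ∉ D → 0 ≤ h i) (hL : IsLimTr s D h L) (ε : ℝ) (hε : 0 < ε) :
    ∃ B : Finset E, ∀ g : E → ℝ, FS g → (∀ i, |g i| ≤ M) → (∀ i ∈ B, g i = h i) → L - ε ≤ s.m g := by
  have hM0 : 0 ≤ M := le_trans (abs_nonneg _) (hM e)
  set U : Ultrafilter (Finset E) := Ultrafilter.of atTop with hU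
  have hUle : (U : Filter (Finset E)) ≤ atTop := Ultrafilter.of_le _
  -- the shifted system at `0`
  have hz : (s.shift U h).m (fun _ => 0) = L := by
    have ht := s.shift_tendsto U h (fun _ => 0) FS_zero
    simp only [add_zero] at ht
    have hlim : Tendsto (fun W => s.m (tr h W)) atTop (𝓝 L) := by
      rw [Metric.tendsto_atTop]
      intro ε' hε'
      obtain ⟨W₀, hDW₀, hW₀⟩ := hL.2 (ε'/2) (by linarith)
      refine ⟨W₀, fun W hW => ?_⟩
      have h1 := tr_anti s D h heD h0 W₀ W hDW₀ hW
      have h2 := hL.1 W (hDW₀.trans hW)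
      rw [Real.dist_eq, abs_lt]
      constructor <;> linarith
    exact tendsto_nhds_unique ht (hlim.mono_left hUle)
  obtain ⟨B, hB⟩ := (s.shift U h).far (fun _ => 0) FS_zero (2 * M) ε (by linarith) hε
  refine ⟨B ∪ D, fun g hg hgM hgB => ?_⟩
  set u : E → ℝ := tr (fun i => M - h i) (suppF hg \ (B ∪ D)) with hu
  have h1 := hB u (FS_tr _ _) ?_ ?_
  · simp only [zero_add] at h1
    rw [hz] at h1
    have h2 : (s.shift U h).m u ≤ s.m g := by
      refine le_of_tendsto (s.shift_tendsto U h u (FS_tr _ _)) ?_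
      have : ∀ᶠ W in (U : Filter (Finset E)), suppF hg ∪ (B ∪ D) ⊆ W :=
        hUle (eventually_ge_atTop (suppF hg ∪ (B ∪ D)))
      filter_upwards [this] with W hW
      apply s.anti _ _ hg ((FS_tr _ _).add (FS_tr _ _))
      · intro i
        simp only [hu, tr]
        by_cases hi : i ∈ B ∪ D
        · rw [if_pos (hW (Finset.mem_union_right _ hi)), if_neg (by rw [mem_suppF_sdiff]; tauto), add_zero, hgB i hi]
        · by_cases hi3 : g i = 0
          · have hns : i ∉ suppF hg \ (B ∪ D) := by rw [mem_suppF_sdiff]; tauto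
            rw [if_neg hns, add_zero, hi3]
            split_ifs
            · exact h0 i (fun hD => hi (Finset.mem_union_right _ hD))
            · exact le_refl _
          · rw [if_pos (hW (Finset.mem_union_left _ ((mem_suppF hg i).mpr hi3))),
              if_pos (by rw [mem_suppF_sdiff]; exact ⟨hi3, hi⟩)]
            linarith [(abs_le.mp (hgM i)).2]
      · simp only [hu, tr]
        have heBD : e ∈ B ∪ D := Finset.mem_union_right _ heD
        rw [if_pos (hW (Finset.mem_union_right _ heBD)), if_neg (by rw [mem_suppF_sdiff]; tauto), add_zero, hgB e heBD]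
    rw [abs_le] at h1
    linarith
  · intro i
    simp only [hu, tr]
    have := abs_le.mp (hM i)
    split_ifs
    · rw [abs_le]; constructor <;> linarith
    · simp; linarith
  · intro i hi
    simp only [hu, tr]
    rw [if_neg (by rw [mem_suppF_sdiff]; simp [hi])]

/-- Key lemma: continuity at infinity. -/
theorem InfSys.key (s : InfSys E e) (h : E → ℝ) (M : ℝ) (hM : ∀ i, |h i| ≤ M) (ε : ℝ) (hε : 0 < ε) :
    ∃ B : Finset E, ∀ g g' : E → ℝ, FS g → FS g' → (∀ i, |g i| ≤ M) → (∀ i, |g' i| ≤ M) →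
      (∀ i ∈ B, g i = h i) → (∀ i ∈ B, g' i = h i) → |s.m g - s.m g'| ≤ ε := by
  have hM0 : 0 ≤ M := le_trans (abs_nonneg _) (hM e)
  set U : Ultrafilter (Finset E) := Ultrafilter.of atTop with hU
  have hUle : (U : Filter (Finset E)) ≤ atTop := Ultrafilter.of_le _
  set k : E → ℝ := fun i => if i = e then 0 else -M with hk
  set s2 := s.shift U k with hs2
  set h2 : E → ℝ := fun i => if i = e then h e else h i + M with hh2
  have hh2M : ∀ i, |h2 i| ≤ 2 * M := by
    intro i
    simp only [hh2]
    split_ifs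
    · exact le_trans (hM e) (by linarith)
    · have := abs_le.mp (hM i)
      rw [abs_le]; constructor <;> linarith
  have hh20 : ∀ i, i ∉ ({e} : Finset E) → 0 ≤ h2 i := by
    intro i hi
    simp only [hh2]
    rw [if_neg (by simpa using hi)]
    linarith [(abs_le.mp (hM i)).1]
  obtain ⟨L, hL⟩ := exists_isLimTr s2 {e} h2
  set η := ε / 4 with hη
  have hη0 : 0 < η := by positivity
  -- upper bound
  obtain ⟨B₀, heB₀, hB₀⟩ := hL.2 η hη0
  have heB₀' : e ∈ B₀ := heB₀ (Finset.mem_singleton_self e)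
  have upper : ∀ g : E → ℝ, FS g → (∀ i, |g i| ≤ M) → (∀ i ∈ B₀, g i = h i) → s.m g ≤ L + η := by
    intro g hg hgM hgB
    refine le_trans ?_ hB₀
    refine ge_of_tendsto (s.shift_tendsto U k (tr h2 B₀) (FS_tr _ _)) ?_
    have : ∀ᶠ W in (U : Filter (Finset E)), suppF hg ∪ B₀ ⊆ W :=
      hUle (eventually_ge_atTop (suppF hg ∪ B₀))
    filter_upwards [this] with W hW
    apply s.anti _ _ ((FS_tr _ _).add (FS_tr _ _)) hg
    · intro i
      simp only [tr, hk, hh2]
      by_cases hi : i ∈ B₀
      · rw [if_pos hi, if_pos (hW (Finset.mem_union_right _ hi)), hgB i hi]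
        split_ifs with hie
        · subst hie; linarith
        · linarith
      · rw [if_neg hi, add_zero]
        by_cases hiW : i ∈ W
        · rw [if_pos hiW]
          have hie : i ≠ e := fun h => hi (h ▸ heB₀')
          rw [if_neg hie]
          linarith [(abs_le.mp (hgM i)).1]
        · rw [if_neg hiW]
          have : g i = 0 := by
            by_contra hc
            exact hiW (hW (Finset.mem_union_left _ ((mem_suppF hg i).mpr hc)))
          rw [this]
    · simp only [tr, hk, hh2]
      rw [if_pos heB₀', if_pos (hW (Finset.mem_union_right _ heB₀')), hgB e heB₀']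
      simp
  -- lower bound
  obtain ⟨B₁', hB₁'⟩ := s2.step2 {e} h2 (2 * M) L hh2M (Finset.mem_singleton_self e) hh20 hL η hη0
  set B₁ := insert e B₁' with hB₁
  have heB₁ : e ∈ B₁ := Finset.mem_insert_self _ _
  set G : E → ℝ := fun i => if i ∈ B₁ then h i else M with hG
  have hGM : ∀ i, |G i| ≤ M := by
    intro i
    simp only [hG]
    split_ifs
    · exact hM i
    · rw [abs_of_nonneg hM0]
  have hG0 : ∀ i, i ∉ B₁ → 0 ≤ G i := by
    intro i hi
    simp only [hG]
    rw [if_neg hi]; exact hM0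
  obtain ⟨LG, hLG⟩ := exists_isLimTr s B₁ G
  obtain ⟨B₂, hB₂⟩ := s.step1 B₁ G M LG hGM heB₁ hG0 hLG η hη0
  set W' := B₁ ∪ B₂ with hW'
  have hLL : L - 2 * η ≤ LG := by
    set g2 : E → ℝ := tr (fun i => if i = e then h e else G i + M) W' with hg2
    have h3 := hB₁' g2 (FS_tr _ _) ?_ ?_
    · have h4 : s2.m g2 ≤ LG + η := by
        refine le_of_tendsto (s.shift_tendsto U k g2 (FS_tr _ _)) ?_
        have : ∀ᶠ W in (U : Filter (Finset E)), W' ⊆ W := hUle (eventually_ge_atTop W')
        filter_upwards [this] with W hW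
        apply hB₂ _ ((FS_tr _ _).add (FS_tr _ _))
        · intro i
          simp only [tr, hk, hg2]
          by_cases hi : i ∈ W'
          · rw [if_pos hi, if_pos (hW hi)]
            split_ifs with hie
            · rw [zero_add]; exact hM e
            · have := abs_le.mp (hGM i)
              rw [abs_le]; constructor <;> linarith
          · rw [if_neg hi, add_zero]
            have hie : i ≠ e := fun h => hi (h ▸ Finset.mem_union_left _ heB₁)
            split_ifs
            · rw [abs_neg, abs_of_nonneg hM0]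
            · simpa using hM0
        · intro i hi
          simp only [tr, hk, hg2]
          have hiW' : i ∈ W' := Finset.mem_union_right _ hi
          rw [if_pos hiW', if_pos (hW hiW')]
          split_ifs with hie
          · subst hie
            simp only [hG]
            rw [if_pos heB₁, zero_add]
          · ring
      linarith
    · intro i
      simp only [tr, hg2]
      split_ifs with h1 h2
      · exact le_trans (hM e) (by linarith)
      · have := abs_le.mp (hGM i)
        rw [abs_le]; constructor <;> linarith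
      · simp; linarith
    · intro i hi
      have hiB₁ : i ∈ B₁ := Finset.mem_insert_of_mem hi
      simp only [tr, hg2, hh2]
      rw [if_pos (Finset.mem_union_left _ hiB₁)]
      split_ifs with hie
      · rfl
      · simp only [hG]
        rw [if_pos hiB₁]
  have lower : ∀ g : E → ℝ, FS g → (∀ i, |g i| ≤ M) → (∀ i ∈ B₁, g i = h i) → L - 2 * η ≤ s.m g := by
    intro g hg hgM hgB
    refine le_trans hLL ?_
    set W := suppF hg ∪ B₁ with hW
    refine le_trans (hLG.1 W Finset.subset_union_right) ?_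
    apply s.anti _ _ hg (FS_tr _ _)
    · intro i
      simp only [tr, hG]
      by_cases hi : i ∈ B₁
      · rw [if_pos (Finset.mem_union_right _ hi), if_pos hi, hgB i hi]
      · rw [if_neg hi]
        by_cases hi2 : g i = 0
        · rw [hi2]
          split_ifs
          · exact hM0
          · exact le_refl _
        · rw [if_pos (Finset.mem_union_left _ ((mem_suppF hg i).mpr hi2))]
          linarith [(abs_le.mp (hgM i)).2]
    · simp only [tr, hG]
      rw [if_pos (Finset.mem_union_right _ heB₁), if_pos heB₁, hgB e heB₁]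
  refine ⟨B₀ ∪ B₁, fun g g' hg hg' hgM hgM' hgB hgB' => ?_⟩
  have u1 := upper g hg hgM (fun i hi => hgB i (Finset.mem_union_left _ hi))
  have u2 := upper g' hg' hgM' (fun i hi => hgB' i (Finset.mem_union_left _ hi))
  have l1 := lower g hg hgM (fun i hi => hgB i (Finset.mem_union_right _ hi))
  have l2 := lower g' hg' hgM' (fun i hi => hgB' i (Finset.mem_union_right _ hi))
  rw [abs_le]
  constructor <;> linarith

end

end Crest.Agent.FIID
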