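import Mathlib
import Crest.Agent.FIID.Defs
import Crest.Agent.FIID.Key

/-!
The influence system of a strongly Rayleigh family of window laws and the infinite volume marginal.
-/

set_option autoImplicit false

open Filter Topology

namespace Crest.Agent.FIID

open scoped Classical

section
variable {E : Type*} {p : WinLaw E}

theorem IsSR.sum_consistent (hp : IsSR p) {W W' : Finset E} (hW : W ⊆ W') (F : Finset E → ℝ)
    (hF : ∀ S', S' ⊆ W' → F S' = F (S' ∩ W)) :
    ∑ S' ∈ W'.powerset, p W' S' * F S' = ∑ S ∈ W.powerset, p W S * F S := by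
  have h1 := Finset.sum_fiberwise_of_maps_to (s := W'.powerset) (t := W.powerset)
    (g := fun S' => S' ∩ W) (fun S' _ => by simp) (fun S' => p W' S' * F S')
  rw [← h1]
  apply Finset.sum_congr rfl
  intro S hS
  have hSW := Finset.mem_powerset.mp hS
  rw [hp.consistent W W' hW S hSW, Finset.sum_mul]
  apply Finset.sum_congr rfl
  intro S' hS'
  rw [Finset.mem_filter, Finset.mem_powerset] at hS'
  rw [hF S' hS'.1, hS'.2]

theorem IsSR.pos (hp : IsSR p) (W : Finset E) : Pos W (p W) where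
  nonneg S hS := hp.nonneg W S hS
  pos := by rw [hp.total W]; exact one_pos

theorem IsSR.stab (hp : IsSR p) (W : Finset E) : Stab W (p W) := hp.stable W

theorem wt_inter {W : Finset E} {g : E → ℝ} (hg : ∀ i, i ∉ W → g i = 0) (S : Finset E) :
    wt g S = wt g (S ∩ W) := by
  unfold wt
  congr 1
  rw [← Finset.filter_mem_eq_inter, Finset.sum_filter]
  apply Finset.sum_congr rfl
  intro i _
  split_ifs with h
  · rfl
  · exact hg i h

theorem IsSR.Zf_eq (hp : IsSR p) {W W' : Finset E} (hW : W ⊆ W') {g : E → ℝ}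
    (hg : ∀ i, i ∉ W → g i = 0) : Zf W' (p W') g = Zf W (p W) g := by
  unfold Zf
  exact hp.sum_consistent hW _ (fun S' _ => wt_inter hg S')

theorem sum_filter_mem_eq (W : Finset E) (w : Finset E → ℝ) (e : E) (F : Finset E → ℝ) :
    ∑ S ∈ W.powerset.filter (fun S => e ∈ S), w S * F S =
      ∑ S ∈ W.powerset, w S * (if e ∈ S then F S else 0) := by
  rw [Finset.sum_filter]
  apply Finset.sum_congr rfl
  intro S _
  split_ifs <;> simp

theorem IsSR.Nf_eq (hp : IsSR p) {W W' : Finset E} (hW : W ⊆ W') {g : E → ℝ} {e : E} (he : e ∈ W)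
    (hg : ∀ i, i ∉ W → g i = 0) : Nf W' (p W') e g = Nf W (p W) e g := by
  unfold Nf
  rw [sum_filter_mem_eq, sum_filter_mem_eq]
  apply hp.sum_consistent hW
  intro S' _
  rw [wt_inter hg S']
  simp [he]

theorem IsSR.mg_eq (hp : IsSR p) {W W' : Finset E} (hW : W ⊆ W') {g : E → ℝ} {e : E} (he : e ∈ W)
    (hg : ∀ i, i ∉ W → g i = 0) : mg W' (p W') e g = mg W (p W) e g := by
  unfold mg
  rw [hp.Nf_eq hW he hg, hp.Zf_eq hW hg]

theorem IsSR.NA_eq (hp : IsSR p) {W W' A : Finset E} (hW : W ⊆ W') (hA : A ⊆ W) {g : E → ℝ}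
    (hg : ∀ i, i ∉ W → g i = 0) : NA W' (p W') A g = NA W (p W) A g := by
  unfold NA
  simp_rw [mul_assoc]
  apply hp.sum_consistent hW
  intro S' _
  rw [wt_inter hg S', Finset.inter_assoc, Finset.inter_eq_right.mpr hA]

theorem IsSR.NeA_eq (hp : IsSR p) {W W' A : Finset E} (hW : W ⊆ W') (hA : A ⊆ W) {g : E → ℝ} {e : E}
    (he : e ∈ W) (hg : ∀ i, i ∉ W → g i = 0) : NeA W' (p W') e A g = NeA W (p W) e A g := by
  unfold NeA
  simp_rw [mul_assoc]
  rw [sum_filter_mem_eq, sum_filter_mem_eq]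
  apply hp.sum_consistent hW
  intro S' _
  rw [wt_inter hg S', Finset.inter_assoc, Finset.inter_eq_right.mpr hA]
  simp [he]

theorem IsSR.infl_eq' (hp : IsSR p) {W W' A : Finset E} (hW : W ⊆ W') (hA : A ⊆ W) {g : E → ℝ} {e : E}
    (he : e ∈ W) (hg : ∀ i, i ∉ W → g i = 0) : infl W' (p W') e A g = infl W (p W) e A g := by
  unfold infl
  rw [hp.Nf_eq hW he hg, hp.Zf_eq hW hg, hp.NA_eq hW hA hg, hp.NeA_eq hW hA he hg]

/-- marginal for a finitely supported tilt -/
noncomputable def MF (p : WinLaw E) (e : E) (g : E → ℝ) : ℝ :=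
  if hg : FS g then mg (insert e (suppF hg)) (p (insert e (suppF hg))) e g else 0

noncomputable def IF (p : WinLaw E) (e : E) (A : Finset E) (g : E → ℝ) : ℝ :=
  if hg : FS g then infl (insert e (suppF hg ∪ A)) (p (insert e (suppF hg ∪ A))) e A g else 0

theorem IsSR.MF_eq (hp : IsSR p) {e : E} {g : E → ℝ} (hg : FS g) {W : Finset E} (he : e ∈ W)
    (hW : ∀ i, g i ≠ 0 → i ∈ W) : MF p e g = mg W (p W) e g := by
  unfold MF
  rw [dif_pos hg]
  symm
  apply hp.mg_eq
  · intro i hi
    rcases Finset.mem_insert.mp hi with h | h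
    · rw [h]; exact he
    · exact hW i ((mem_suppF hg i).mp h)
  · exact Finset.mem_insert_self _ _
  · intro i hi
    by_contra hc
    exact hi (Finset.mem_insert_of_mem ((mem_suppF hg i).mpr hc))

theorem IsSR.IF_eq (hp : IsSR p) {e : E} {g : E → ℝ} (hg : FS g) {W A : Finset E} (he : e ∈ W)
    (hA : A ⊆ W) (hW : ∀ i, g i ≠ 0 → i ∈ W) : IF p e A g = infl W (p W) e A g := by
  unfold IF
  rw [dif_pos hg]
  symm
  apply hp.infl_eq'
  · intro i hi
    rcases Finset.mem_insert.mp hi with h | h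
    · rw [h]; exact he
    · rcases Finset.mem_union.mp h with h | h
      · exact hW i ((mem_suppF hg i).mp h)
      · exact hA h
  · intro i hi
    exact Finset.mem_insert_of_mem (Finset.mem_union_right _ hi)
  · exact Finset.mem_insert_self _ _
  · intro i hi
    by_contra hc
    exact hi (Finset.mem_insert_of_mem (Finset.mem_union_left _ ((mem_suppF hg i).mpr hc)))

/-- The influence system of `p` at `e`. -/
noncomputable def sys (hp : IsSR p) (e : E) : InfSys E e where
  m := MF p e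
  I := IF p e
  m_nonneg g hg := by
    unfold MF; rw [dif_pos hg]; exact mg_nonneg (hp.pos _) g
  m_le_one g hg := by
    unfold MF; rw [dif_pos hg]; exact mg_le_one (hp.pos _) g
  anti g g' hg hg' hle hee := by
    set W := insert e (suppF hg ∪ suppF hg') with hWdef
    have h1 := hp.MF_eq (e := e) (W := W) hg (by simp [hWdef])
      (fun i hi => Finset.mem_insert_of_mem (Finset.mem_union_left _ ((mem_suppF hg i).mpr hi)))
    have h2 := hp.MF_eq (e := e) (W := W) hg' (by simp [hWdef])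
      (fun i hi => Finset.mem_insert_of_mem (Finset.mem_union_right _ ((mem_suppF hg' i).mpr hi)))
    rw [h1, h2]
    exact mg_anti (hp.pos W) (hp.stab W) g g' (fun i _ => hle i) (fun _ => hee)
  I_nonneg A g hg heA := by
    unfold IF; rw [dif_pos hg]; exact infl_nonneg (hp.stab _) heA
  I_le A g hg heA := by
    unfold IF; rw [dif_pos hg]; exact infl_le (hp.pos _) (hp.stab _) heA
  I_union A B g hg hAB heA heB := by
    set W := insert e (suppF hg ∪ (A ∪ B)) with hWdef
    have hs : ∀ i, g i ≠ 0 → i ∈ W :=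
      fun i hi => Finset.mem_insert_of_mem (Finset.mem_union_left _ ((mem_suppF hg i).mpr hi))
    have he : e ∈ W := Finset.mem_insert_self _ _
    have hABW : A ∪ B ⊆ W := fun i hi => Finset.mem_insert_of_mem (Finset.mem_union_right _ hi)
    rw [hp.IF_eq hg he hABW hs, hp.IF_eq hg he (Finset.subset_union_left.trans hABW) hs,
      hp.IF_eq hg he (Finset.subset_union_right.trans hABW) hs]
    exact infl_union A B hAB
  sq A g t M hg heA ht := by
    set W := insert e (suppF hg ∪ A) with hWdef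
    have he : e ∈ W := Finset.mem_insert_self _ _
    have hAW : A ⊆ W := fun i hi => Finset.mem_insert_of_mem (Finset.mem_union_right _ hi)
    have hs : ∀ i, g i ≠ 0 → i ∈ W :=
      fun i hi => Finset.mem_insert_of_mem (Finset.mem_union_left _ ((mem_suppF hg i).mpr hi))
    rw [hp.IF_eq hg he hAW hs, hp.MF_eq hg he hs, hp.MF_eq (hg.addOn A t) he]
    · exact mg_addOn_sq_le (hp.pos W) (hp.stab W) heA t M ht
    · intro i hi
      unfold addOn at hi
      split_ifs at hi with h
      · exact hAW h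
      · exact hs i hi

/-- marginal at `e` in the window `W` with tilt `Y` restricted to `W` -/
noncomputable def mW (p : WinLaw E) (W : Finset E) (e : E) (Y : E → ℝ) : ℝ := mg W (p W) e Y

theorem IsSR.mW_eq_MF (hp : IsSR p) {W : Finset E} {e : E} (he : e ∈ W) (Y : E → ℝ) :
    mW p W e Y = MF p e (tr Y W) := by
  rw [hp.MF_eq (FS_tr Y W) he]
  · unfold mW
    apply mg_congr
    intro i hi
    simp [tr, hi]
  · intro i hi
    by_contra hc
    apply hi
    simp [tr, hc]

/-- Uniform closeness on large windows. -/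
theorem IsSR.mW_close (hp : IsSR p) (e : E) (h : E → ℝ) (M : ℝ) (hM : ∀ i, |h i| ≤ M) (ε : ℝ)
    (hε : 0 < ε) : ∃ B : Finset E, e ∈ B ∧ ∀ W W' : Finset E, B ⊆ W → B ⊆ W' → ∀ Y Y' : E → ℝ,
      (∀ i, |Y i| ≤ M) → (∀ i, |Y' i| ≤ M) → (∀ i ∈ B, Y i = h i) → (∀ i ∈ B, Y' i = h i) →
      |mW p W e Y - mW p W' e Y'| ≤ ε := by
  have hM0 : 0 ≤ M := le_trans (abs_nonneg _) (hM e)
  obtain ⟨B, hB⟩ := (sys hp e).key h M hM ε hε
  refine ⟨insert e B, Finset.mem_insert_self _ _, fun W W' hW hW' Y Y' hY hY' hYB hYB' => ?_⟩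
  rw [hp.mW_eq_MF (hW (Finset.mem_insert_self _ _)), hp.mW_eq_MF (hW' (Finset.mem_insert_self _ _))]
  apply hB _ _ (FS_tr _ _) (FS_tr _ _)
  · intro i
    unfold tr
    split_ifs
    · exact hY i
    · simpa using hM0
  · intro i
    unfold tr
    split_ifs
    · exact hY' i
    · simpa using hM0
  · intro i hi
    unfold tr
    rw [if_pos (hW (Finset.mem_insert_of_mem hi)), hYB i (Finset.mem_insert_of_mem hi)]
  · intro i hi
    unfold tr
    rw [if_pos (hW' (Finset.mem_insert_of_mem hi)), hYB' i (Finset.mem_insert_of_mem hi)]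

theorem IsSR.mW_mem (hp : IsSR p) (W : Finset E) (e : E) (Y : E → ℝ) : mW p W e Y ∈ Set.Icc (0:ℝ) 1 :=
  ⟨mg_nonneg (hp.pos W) Y, mg_le_one (hp.pos W) Y⟩

/-- the infinite volume marginal -/
noncomputable def Minf (p : WinLaw E) (e : E) (Y : E → ℝ) : ℝ :=
  limUnder atTop (fun W : Finset E => mW p W e Y)

theorem IsSR.tendsto_Minf (hp : IsSR p) (e : E) (Y : E → ℝ) (M : ℝ) (hM : ∀ i, |Y i| ≤ M) :
    Tendsto (fun W : Finset E => mW p W e Y) atTop (𝓝 (Minf p e Y)) := by
  apply tendsto_nhds_limUnder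
  apply cauchySeq_tendsto_of_complete
  rw [Metric.cauchySeq_iff']
  intro ε hε
  obtain ⟨B, heB, hB⟩ := hp.mW_close e Y M hM (ε/2) (by linarith)
  refine ⟨B, fun W hW => ?_⟩
  have := hB W B hW (Finset.Subset.refl B) Y Y hM hM (fun _ _ => rfl) (fun _ _ => rfl)
  rw [Real.dist_eq]
  linarith

/-- Joint continuity: if windows `W → ∞` along a filter and bounded tilts `Y W → Y'` pointwise then the
marginals converge. -/
theorem IsSR.tendsto_mW (hp : IsSR p) (e : E) (l : Filter (Finset E)) (hl : l ≤ atTop)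
    (Y : Finset E → E → ℝ) (Y' : E → ℝ) (M : ℝ) (hM : ∀ W i, |Y W i| ≤ M) (hM' : ∀ i, |Y' i| ≤ M)
    (hlim : ∀ i, Tendsto (fun W => Y W i) l (𝓝 (Y' i))) :
    Tendsto (fun W => mW p W e (Y W)) l (𝓝 (Minf p e Y')) := by
  rw [Metric.tendsto_nhds]
  intro ε hε
  obtain ⟨B, heB, hB⟩ := hp.mW_close e Y' M hM' (ε/4) (by linarith)
  have hM0 : 0 ≤ M := le_trans (abs_nonneg _) (hM' e)
  -- the limit is close to the window marginal
  have hclose : |mW p B e Y' - Minf p e Y'| ≤ ε/4 := by
    have ht := hp.tendsto_Minf e Y' M hM'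
    have ht2 : Tendsto (fun W : Finset E => |mW p B e Y' - mW p W e Y'|) atTop
        (𝓝 (|mW p B e Y' - Minf p e Y'|)) := (tendsto_const_nhds.sub ht).abs
    refine le_of_tendsto ht2 ?_
    filter_upwards [eventually_ge_atTop B] with W hW
    exact hB B W (Finset.Subset.refl B) hW Y' Y' hM' hM' (fun _ _ => rfl) (fun _ _ => rfl)
  have hev1 : ∀ᶠ W in l, B ⊆ W := hl (eventually_ge_atTop B)
  have hev2 : ∀ᶠ W in l, ∀ i ∈ B, |Y W i - Y' i| ≤ ε/4 := by
    rw [Filter.eventually_all_finset]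
    intro i _
    have := (Metric.tendsto_nhds.mp (hlim i)) (ε/4) (by linarith)
    filter_upwards [this] with W hW
    rw [Real.dist_eq] at hW
    exact hW.le
  filter_upwards [hev1, hev2] with W hW1 hW2
  -- modify `Y W` on `B`
  set Z : E → ℝ := fun i => if i ∈ B then Y' i else Y W i with hZ
  have h1 : |mW p W e Z - mW p B e Y'| ≤ ε/4 := by
    apply hB W B hW1 (Finset.Subset.refl B) Z Y'
    · intro i
      simp only [hZ]
      split_ifs
      · exact hM' i
      · exact hM W i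
    · exact hM'
    · intro i hi
      simp [hZ, hi]
    · intro i _; rfl
  have h2 : |mW p W e (Y W) - mW p W e Z| ≤ 1/2 * (ε/4) := by
    apply mg_lip (hp.pos W) (hp.stab W) _ _ _ _ (by linarith)
    intro i _
    simp only [hZ]
    split_ifs with h
    · exact hW2 i h
    · simp; linarith
  rw [Real.dist_eq]
  have := abs_sub_le (mW p W e (Y W)) (mW p W e Z) (Minf p e Y')
  have := abs_sub_le (mW p W e Z) (mW p B e Y') (Minf p e Y')
  linarith

/-- The infinite volume marginal is `1/4`-Lipschitz for the sup norm off `e`. -/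
theorem IsSR.Minf_lip (hp : IsSR p) (e : E) (Y Y' : E → ℝ) (M δ : ℝ) (hM : ∀ i, |Y i| ≤ M)
    (hM' : ∀ i, |Y' i| ≤ M) (hδ : 0 ≤ δ) (hle : ∀ i, |Y i - Y' i| ≤ δ) (hee : Y e = Y' e) :
    |Minf p e Y - Minf p e Y'| ≤ 1 / 4 * δ := by
  have h1 := hp.tendsto_Minf e Y M hM
  have h2 := hp.tendsto_Minf e Y' M hM'
  refine le_of_tendsto (h1.sub h2).abs (Eventually.of_forall fun W => ?_)
  exact mg_lip_off (hp.pos W) (hp.stab W) _ _ _ (fun i _ => hle i) hδ (fun _ => hee)

end

end Crest.Agent.FIID
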