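import Mathlib
import Crest.Agent.FIID.State
import Crest.Agent.FIID.Channel

/-!
Finite window dynamics.
-/

set_option autoImplicit false

open Filter Topology MeasureTheory

namespace Crest.Agent.FIID

open scoped Classical

section
variable {E : Type*}

/-- the tilt seen by site `e` -/
noncomputable def seen (X τ Z : E → ℝ) (e : E) : E → ℝ := fun i => X i + if τ i < τ e then Z i else 0

noncomputable def stepW (p : WinLaw E) (W : Finset E) (X τ u Z : E → ℝ) : E → ℝ :=
  fun e => Tf (mW p W e (seen X τ Z e)) (u e)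

noncomputable def stageW (p : WinLaw E) (W : Finset E) (X τ u : E → ℝ) : E → ℝ :=
  (stepW p W X τ u)^[W.card + 1] (fun _ => 0)

noncomputable def rk (W : Finset E) (τ : E → ℝ) (e : E) : ℕ := (W.filter (fun f => τ f < τ e)).card

theorem rk_lt {W : Finset E} {τ : E → ℝ} {i e : E} (hi : i ∈ W) (h : τ i < τ e) :
    rk W τ i < rk W τ e := by
  apply Finset.card_lt_card
  rw [Finset.ssubset_iff_of_subset]
  · exact ⟨i, by simp [hi, h], by simp⟩
  · intro f hf
    rw [Finset.mem_filter] at hf ⊢
    exact ⟨hf.1, hf.2.trans h⟩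

theorem rk_le (W : Finset E) (τ : E → ℝ) (e : E) : rk W τ e ≤ W.card :=
  Finset.card_filter_le _ _

theorem mW_congr {p : WinLaw E} {W : Finset E} {e : E} {Y Y' : E → ℝ} (h : ∀ i ∈ W, Y i = Y' i) :
    mW p W e Y = mW p W e Y' := mg_congr _ _ h

theorem iter_stable (p : WinLaw E) (W : Finset E) (X τ u : E → ℝ) (r : ℕ) :
    ∀ e, rk W τ e = r → ∀ n m, r < n → r < m →
      (stepW p W X τ u)^[n] (fun _ => 0) e = (stepW p W X τ u)^[m] (fun _ => 0) e := by
  induction r using Nat.strong_induction_on with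
  | _ r ih =>
    intro e he n m hn hm
    obtain ⟨n', rfl⟩ : ∃ n', n = n' + 1 := ⟨n - 1, by omega⟩
    obtain ⟨m', rfl⟩ : ∃ m', m = m' + 1 := ⟨m - 1, by omega⟩
    rw [Function.iterate_succ_apply', Function.iterate_succ_apply']
    unfold stepW
    congr 1
    apply mW_congr
    intro i hi
    unfold seen
    congr 1
    split_ifs with h
    · have hlt := rk_lt hi h
      rw [he] at hlt
      exact ih (rk W τ i) hlt i rfl n' m' (by omega) (by omega)
    · rfl

theorem stageW_fix (p : WinLaw E) (W : Finset E) (X τ u : E → ℝ) (e : E) :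
    stageW p W X τ u e = Tf (mW p W e (seen X τ (stageW p W X τ u) e)) (u e) := by
  have h := iter_stable p W X τ u (rk W τ e) e rfl (W.card + 1) (W.card + 2)
    (by have := rk_le W τ e; omega) (by have := rk_le W τ e; omega)
  have h2 : stageW p W X τ u e = (stepW p W X τ u)^[W.card + 2] (fun _ => 0) e := h
  rw [h2, Function.iterate_succ_apply']
  rfl

theorem stage_unique {W : Finset E} {K : E → (E → ℝ) → ℝ}
    (hK : ∀ e ∈ W, ∀ Y Y' : E → ℝ, (∀ i ∈ W, Y i = Y' i) → K e Y = K e Y')
    {X X' τ τ' u u' Z Z' : E → ℝ} (hX : ∀ i ∈ W, X i = X' i) (hτ : ∀ i ∈ W, τ i = τ' i)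
    (hu : ∀ i ∈ W, u i = u' i) (hZ : ∀ e ∈ W, Z e = Tf (K e (seen X τ Z e)) (u e))
    (hZ' : ∀ e ∈ W, Z' e = Tf (K e (seen X' τ' Z' e)) (u' e)) :
    ∀ e ∈ W, Z e = Z' e := by
  have key : ∀ r : ℕ, ∀ e ∈ W, rk W τ e = r → Z e = Z' e := by
    intro r
    induction r using Nat.strong_induction_on with
    | _ r ih =>
      intro e he hr
      rw [hZ e he, hZ' e he, hu e he]
      congr 1
      apply hK e he
      intro i hi
      unfold seen
      rw [hX i hi, hτ i hi, hτ e he]
      congr 1
      split_ifs with h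
      · have hlt := rk_lt (e := e) hi (τ := τ) (by rw [hτ i hi, hτ e he]; exact h)
        rw [hr] at hlt
        exact ih _ hlt i hi rfl
      · rfl
  intro e he
  exact key _ e he rfl

/-- labels used at stage `k` -/
def lab (y : E → ℕ → unitInterval) (k : ℕ) : E → ℝ := fun i => (y i k : ℝ)

theorem lab_mem (y : E → ℕ → unitInterval) (k : ℕ) (i : E) : lab y k i ∈ Set.Icc (0:ℝ) 1 :=
  (y i k).2

/-- accumulated tilts in the window `W` -/
noncomputable def Xw (p : WinLaw E) (W : Finset E) (y : E → ℕ → unitInterval) : ℕ → E → ℝ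
  | 0 => fun _ => 0
  | k + 1 => fun i => Xw p W y k i + stageW p W (Xw p W y k) (lab y (2 * k)) (lab y (2 * k + 1)) i

/-- increments in the window `W` -/
noncomputable def Zw (p : WinLaw E) (W : Finset E) (y : E → ℕ → unitInterval) (k : ℕ) : E → ℝ :=
  stageW p W (Xw p W y k) (lab y (2 * k)) (lab y (2 * k + 1))

theorem Xw_succ (p : WinLaw E) (W : Finset E) (y : E → ℕ → unitInterval) (k : ℕ) (i : E) :
    Xw p W y (k + 1) i = Xw p W y k i + Zw p W y k i := rfl

theorem Xw_eq_sum (p : WinLaw E) (W : Finset E) (y : E → ℕ → unitInterval) (k : ℕ) (i : E) :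
    Xw p W y k i = ∑ j ∈ Finset.range k, Zw p W y j i := by
  induction k with
  | zero => rfl
  | succ k ih => rw [Finset.sum_range_succ, ← ih]; rfl

theorem Zw_fix (p : WinLaw E) (W : Finset E) (y : E → ℕ → unitInterval) (k : ℕ) (e : E) :
    Zw p W y k e = Tf (mW p W e (seen (Xw p W y k) (lab y (2 * k)) (Zw p W y k) e))
      (lab y (2 * k + 1) e) := stageW_fix _ _ _ _ _ _

theorem Zw_abs_le {p : WinLaw E} (hp : IsSR p) (W : Finset E) (y : E → ℕ → unitInterval) (k : ℕ)
    (e : E) : |Zw p W y k e| ≤ 2 := by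
  rw [Zw_fix]
  exact Tf_abs_le (hp.mW_mem _ _ _) (lab_mem _ _ _)

theorem Xw_abs_le {p : WinLaw E} (hp : IsSR p) (W : Finset E) (y : E → ℕ → unitInterval) (k : ℕ)
    (e : E) : |Xw p W y k e| ≤ 2 * k := by
  induction k with
  | zero => simp [Xw]
  | succ k ih =>
    rw [Xw_succ]
    have := abs_add_le (Xw p W y k e) (Zw p W y k e)
    have := Zw_abs_le hp W y k e
    push_cast
    linarith

/-- dependence only on the labels in the window -/
theorem Xw_congr (p : WinLaw E) (W : Finset E) (y y' : E → ℕ → unitInterval) (K : ℕ)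
    (h : ∀ i ∈ W, ∀ j, j < 2 * K → y i j = y' i j) :
    ∀ k, k ≤ K → ∀ i ∈ W, Xw p W y k i = Xw p W y' k i := by
  intro k
  induction k with
  | zero => intro _ i _; rfl
  | succ k ih =>
    intro hk i hi
    rw [Xw_succ, Xw_succ, ih (by omega) i hi]
    congr 1
    refine stage_unique (W := W) (K := fun e Y => mW p W e Y) (fun e _ Y Y' hY => mW_congr hY)
      (ih (by omega)) (τ := lab y (2 * k)) (τ' := lab y' (2 * k)) ?_ (u := lab y (2 * k + 1))
      (u' := lab y' (2 * k + 1)) ?_ (fun e _ => Zw_fix p W y k e) (fun e _ => Zw_fix p W y' k e) i hi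
    · intro i hi
      unfold lab
      rw [h i hi _ (by omega)]
    · intro i hi
      unfold lab
      rw [h i hi _ (by omega)]

theorem Zw_congr (p : WinLaw E) (W : Finset E) (y y' : E → ℕ → unitInterval) (K : ℕ)
    (h : ∀ i ∈ W, ∀ j, j < 2 * K → y i j = y' i j) (k : ℕ) (hk : k < K) (i : E) (hi : i ∈ W) :
    Zw p W y k i = Zw p W y' k i := by
  have h1 := Xw_congr p W y y' K h (k+1) hk i hi
  have h2 := Xw_congr p W y y' K h k hk.le i hi
  rw [Xw_succ, Xw_succ, h2] at h1
  linarith

/-! ### null sites -/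

theorem IsSR.eq_zero_of_null {p : WinLaw E} (hp : IsSR p) {e : E} (he : p {e} {e} = 0)
    {W S : Finset E} (hS : S ⊆ W) (heS : e ∈ S) : p W S = 0 := by
  have h := hp.consistent {e} W (Finset.singleton_subset_iff.mpr (hS heS)) {e} (Finset.Subset.refl _)
  rw [he] at h
  have h2 := (Finset.sum_eq_zero_iff_of_nonneg (s := W.powerset.filter (fun S' => S' ∩ {e} = {e}))
    (f := fun S' => p W S') (fun S' hS' => hp.nonneg W S'
      (Finset.mem_powerset.mp (Finset.mem_filter.mp hS').1))).mp h.symm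
  apply h2 S
  rw [Finset.mem_filter, Finset.mem_powerset]
  refine ⟨hS, ?_⟩
  rw [Finset.inter_singleton_of_mem heS]

theorem IsSR.sum_null {p : WinLaw E} (hp : IsSR p) {E₀ : Set E} (hnull : ∀ e, e ∉ E₀ → p {e} {e} = 0)
    (W : Finset E) (F : Finset E → ℝ) :
    ∑ S ∈ W.powerset, p W S * F S =
      ∑ S ∈ (W.filter (· ∈ E₀)).powerset, p (W.filter (· ∈ E₀)) S * F S := by
  have h1 : ∑ S ∈ W.powerset, p W S * F S =
      ∑ S ∈ W.powerset, p W S * F (S ∩ W.filter (· ∈ E₀)) := by
    apply Finset.sum_congr rfl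
    intro S hS
    have hS' := Finset.mem_powerset.mp hS
    by_cases h : S ⊆ W.filter (· ∈ E₀)
    · rw [Finset.inter_eq_left.mpr h]
    · obtain ⟨e, heS, he⟩ := Finset.not_subset.mp h
      have heE : e ∉ E₀ := fun hc => he (Finset.mem_filter.mpr ⟨hS' heS, hc⟩)
      rw [hp.eq_zero_of_null (hnull e heE) hS' heS]
      ring
  rw [h1, hp.sum_consistent (W := W.filter (· ∈ E₀)) (Finset.filter_subset _ _)]
  · apply Finset.sum_congr rfl
    intro S hS
    rw [Finset.inter_eq_left.mpr (Finset.mem_powerset.mp hS)]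
  · intro S' _
    rw [Finset.inter_assoc, Finset.inter_self]

theorem IsSR.mW_null {p : WinLaw E} (hp : IsSR p) {E₀ : Set E} (hnull : ∀ e, e ∉ E₀ → p {e} {e} = 0)
    (W : Finset E) (e : E) (Y : E → ℝ) :
    mW p W e Y = mW p (W.filter (· ∈ E₀)) e Y := by
  unfold mW mg Nf Zf
  rw [sum_filter_mem_eq, sum_filter_mem_eq, hp.sum_null hnull W (fun S => if e ∈ S then wt Y S else 0),
    hp.sum_null hnull W (fun S => wt Y S)]

theorem IsSR.Xw_null {p : WinLaw E} (hp : IsSR p) {E₀ : Set E} (hnull : ∀ e, e ∉ E₀ → p {e} {e} = 0)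
    (W : Finset E) (y : E → ℕ → unitInterval) (k : ℕ) :
    ∀ i ∈ W.filter (· ∈ E₀), Xw p W y k i = Xw p (W.filter (· ∈ E₀)) y k i := by
  induction k with
  | zero => intro i _; rfl
  | succ k ih =>
    intro i hi
    rw [Xw_succ, Xw_succ, ih i hi]
    congr 1
    refine stage_unique (W := W.filter (· ∈ E₀)) (K := fun e Y => mW p (W.filter (· ∈ E₀)) e Y)
      (fun e _ Y Y' hY => mW_congr hY)
      ih (τ := lab y (2 * k)) (τ' := lab y (2 * k)) (fun _ _ => rfl) (u := lab y (2 * k + 1))
      (u' := lab y (2 * k + 1)) (fun _ _ => rfl) (fun e _ => ?_) (fun e _ => Zw_fix p _ y k e) i hi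
    rw [Zw_fix p W y k e, hp.mW_null hnull]

theorem IsSR.Zw_null {p : WinLaw E} (hp : IsSR p) {E₀ : Set E} (hnull : ∀ e, e ∉ E₀ → p {e} {e} = 0)
    (W : Finset E) (y : E → ℕ → unitInterval) (k : ℕ) (i : E) (hi : i ∈ W.filter (· ∈ E₀)) :
    Zw p W y k i = Zw p (W.filter (· ∈ E₀)) y k i := by
  have h1 := hp.Xw_null hnull W y (k+1) i hi
  have h2 := hp.Xw_null hnull W y k i hi
  rw [Xw_succ, Xw_succ, h2] at h1
  linarith

/-! ### naturality -/

/-- transported window law -/
def pb' (π : E ≃ E) (p : WinLaw E) : WinLaw E := fun W S => p (W.map π.toEmbedding) (S.map π.toEmbedding)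

theorem sum_map_powerset (π : E ≃ E) (W : Finset E) (F : Finset E → ℝ) :
    ∑ S ∈ W.powerset, F (S.map π.toEmbedding) = ∑ S ∈ (W.map π.toEmbedding).powerset, F S := by
  apply Finset.sum_nbij' (fun S => S.map π.toEmbedding) (fun S => S.map π.symm.toEmbedding)
  · intro S hS
    rw [Finset.mem_powerset] at hS ⊢
    exact Finset.map_subset_map.mpr hS
  · intro S hS
    rw [Finset.mem_powerset] at hS ⊢
    intro i hi
    rw [Finset.mem_map] at hi
    obtain ⟨j, hj, rfl⟩ := hi
    have := hS hj
    rw [Finset.mem_map] at this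
    obtain ⟨l, hl, rfl⟩ := this
    simpa using hl
  · intro S _
    ext i
    simp [Finset.mem_map]
  · intro S _
    ext i
    simp [Finset.mem_map]
  · intro S _
    rfl

theorem wt_map (π : E ≃ E) (Y : E → ℝ) (S : Finset E) :
    wt (Y ∘ π) S = wt Y (S.map π.toEmbedding) := by
  unfold wt
  rw [Finset.sum_map]
  rfl

theorem mW_map (π : E ≃ E) (p : WinLaw E) (W : Finset E) (e : E) (Y : E → ℝ) :
    mW (pb' π p) W e (Y ∘ π) = mW p (W.map π.toEmbedding) (π e) Y := by
  unfold mW mg Nf Zf
  rw [sum_filter_mem_eq, sum_filter_mem_eq]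
  congr 1
  · rw [← sum_map_powerset π W]
    apply Finset.sum_congr rfl
    intro S _
    rw [wt_map]
    simp [pb']
  · rw [← sum_map_powerset π W]
    apply Finset.sum_congr rfl
    intro S _
    rw [wt_map]
    rfl

theorem seen_map (π : E ≃ E) (X τ Z : E → ℝ) (e : E) :
    seen (X ∘ π) (τ ∘ π) (Z ∘ π) e = seen X τ Z (π e) ∘ π := rfl

theorem stepW_map (π : E ≃ E) (p : WinLaw E) (W : Finset E) (X τ u Z : E → ℝ) :
    stepW (pb' π p) W (X ∘ π) (τ ∘ π) (u ∘ π) (Z ∘ π) =
      stepW p (W.map π.toEmbedding) X τ u Z ∘ π := by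
  funext e
  unfold stepW
  rw [seen_map, mW_map]
  rfl

theorem stageW_map (π : E ≃ E) (p : WinLaw E) (W : Finset E) (X τ u : E → ℝ) :
    stageW (pb' π p) W (X ∘ π) (τ ∘ π) (u ∘ π) = stageW p (W.map π.toEmbedding) X τ u ∘ π := by
  unfold stageW
  rw [Finset.card_map]
  generalize W.card + 1 = n
  induction n with
  | zero => rfl
  | succ n ih =>
    rw [Function.iterate_succ_apply', Function.iterate_succ_apply', ih, stepW_map]

theorem lab_map (π : E ≃ E) (y : E → ℕ → unitInterval) (k : ℕ) : lab (y ∘ π) k = lab y k ∘ π := rfl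

theorem Xw_map (π : E ≃ E) (p : WinLaw E) (W : Finset E) (y : E → ℕ → unitInterval) (k : ℕ) :
    Xw (pb' π p) W (y ∘ π) k = Xw p (W.map π.toEmbedding) y k ∘ π := by
  induction k with
  | zero => rfl
  | succ k ih =>
    funext i
    have h : stageW (pb' π p) W (Xw (pb' π p) W (y ∘ π) k) (lab (y ∘ π) (2 * k))
        (lab (y ∘ π) (2 * k + 1)) = stageW p (W.map π.toEmbedding) (Xw p (W.map π.toEmbedding) y k)
        (lab y (2 * k)) (lab y (2 * k + 1)) ∘ π := by
      rw [ih, lab_map, lab_map, stageW_map]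
    have e1 : Xw (pb' π p) W (y ∘ π) (k+1) i = Xw (pb' π p) W (y ∘ π) k i +
      stageW (pb' π p) W (Xw (pb' π p) W (y ∘ π) k) (lab (y ∘ π) (2 * k))
        (lab (y ∘ π) (2 * k + 1)) i := rfl
    rw [e1, h, ih]
    rfl

theorem Zw_map (π : E ≃ E) (p : WinLaw E) (W : Finset E) (y : E → ℕ → unitInterval) (k : ℕ) :
    Zw (pb' π p) W (y ∘ π) k = Zw p (W.map π.toEmbedding) y k ∘ π := by
  unfold Zw
  rw [Xw_map, lab_map, lab_map, stageW_map]

/-! ### measurability -/

theorem measurable_mW {Ω : Type*} [MeasurableSpace Ω] {p : Ω → WinLaw E} (hp : Measurable p)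
    {Y : Ω → E → ℝ} (hY : Measurable Y) (W : Finset E) (e : E) :
    Measurable (fun ω => mW (p ω) W e (Y ω)) := by
  unfold mW mg Nf Zf wt
  have h1 : ∀ S : Finset E, Measurable (fun ω => p ω W S) := fun S =>
    (measurable_pi_apply S).comp ((measurable_pi_apply W).comp hp)
  have h2 : ∀ i : E, Measurable (fun ω => Y ω i) := fun i => (measurable_pi_apply i).comp hY
  apply Measurable.div
  · apply Finset.measurable_fun_sum
    intro S _
    exact (h1 S).mul (Real.measurable_exp.comp (Finset.measurable_fun_sum _ (fun i _ => h2 i)))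
  · apply Finset.measurable_fun_sum
    intro S _
    exact (h1 S).mul (Real.measurable_exp.comp (Finset.measurable_fun_sum _ (fun i _ => h2 i)))

theorem measurable_stepW {Ω : Type*} [MeasurableSpace Ω] {p : Ω → WinLaw E} (hp : Measurable p)
    {X τ u Z : Ω → E → ℝ} (hX : Measurable X) (hτ : Measurable τ) (hu : Measurable u)
    (hZ : Measurable Z) (W : Finset E) :
    Measurable (fun ω => stepW (p ω) W (X ω) (τ ω) (u ω) (Z ω)) := by
  rw [measurable_pi_iff]
  intro e
  unfold stepW
  have h1 : Measurable (fun ω => seen (X ω) (τ ω) (Z ω) e) := by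
    rw [measurable_pi_iff]
    intro i
    unfold seen
    have hX' : Measurable (fun ω => X ω i) := (measurable_pi_apply i).comp hX
    have hZ' : Measurable (fun ω => Z ω i) := (measurable_pi_apply i).comp hZ
    have hτi : Measurable (fun ω => τ ω i) := (measurable_pi_apply i).comp hτ
    have hτe : Measurable (fun ω => τ ω e) := (measurable_pi_apply e).comp hτ
    exact hX'.add (Measurable.ite (measurableSet_lt hτi hτe) hZ' measurable_const)
  have h2 := measurable_mW hp h1 W e
  have h3 : Measurable (fun ω => u ω e) := (measurable_pi_apply e).comp hu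
  exact measurable_Tf.comp (h2.prodMk h3)

theorem measurable_stageW {Ω : Type*} [MeasurableSpace Ω] {p : Ω → WinLaw E} (hp : Measurable p)
    {X τ u : Ω → E → ℝ} (hX : Measurable X) (hτ : Measurable τ) (hu : Measurable u)
    (W : Finset E) :
    Measurable (fun ω => stageW (p ω) W (X ω) (τ ω) (u ω)) := by
  unfold stageW
  generalize W.card + 1 = n
  induction n with
  | zero => exact measurable_const
  | succ n ih =>
    simp_rw [Function.iterate_succ_apply']
    exact measurable_stepW hp hX hτ hu ih W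

theorem measurable_lab (k : ℕ) : Measurable (fun y : E → ℕ → unitInterval => lab y k) := by
  rw [measurable_pi_iff]
  intro i
  unfold lab
  exact measurable_subtype_coe.comp ((measurable_pi_apply k).comp (measurable_pi_apply i))

theorem measurable_Xw (W : Finset E) (k : ℕ) :
    Measurable (fun q : WinLaw E × (E → ℕ → unitInterval) => Xw q.1 W q.2 k) := by
  induction k with
  | zero => exact measurable_const
  | succ k ih =>
    rw [measurable_pi_iff]
    intro i
    have h := measurable_stageW (Ω := WinLaw E × (E → ℕ → unitInterval)) (p := fun q => q.1)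
      measurable_fst ih ((measurable_lab (2 * k)).comp measurable_snd)
      ((measurable_lab (2 * k + 1)).comp measurable_snd) W
    exact ((measurable_pi_apply i).comp ih).add ((measurable_pi_apply i).comp h)

theorem measurable_Zw (W : Finset E) (k : ℕ) :
    Measurable (fun q : WinLaw E × (E → ℕ → unitInterval) => Zw q.1 W q.2 k) :=
  measurable_stageW (Ω := WinLaw E × (E → ℕ → unitInterval)) (p := fun q => q.1)
      measurable_fst (measurable_Xw W k) ((measurable_lab (2 * k)).comp measurable_snd)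
      ((measurable_lab (2 * k + 1)).comp measurable_snd) W

end

end Crest.Agent.FIID
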