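import Mathlib
import Crest.Agent.FIID.Stage

/-!
Convergence of the window dynamics as the window fills the whole space.
-/

set_option autoImplicit false

open Filter Topology MeasureTheory

namespace Crest.Agent.FIID

open scoped Classical

section
variable {E : Type*} {p : WinLaw E}

theorem seen_abs_le {X τ Z : E → ℝ} {M : ℝ} (hX : ∀ i, |X i| ≤ M) (hZ : ∀ i, |Z i| ≤ 2) (e i : E) :
    |seen X τ Z e i| ≤ M + 2 := by
  unfold seen
  have h1 := abs_add_le (X i) (if τ i < τ e then Z i else 0)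
  have h2 : |(if τ i < τ e then Z i else 0)| ≤ 2 := by
    split_ifs
    · exact hZ i
    · simp
  have h3 := hX i
  linarith

theorem IsSR.Minf_mem (hp : IsSR p) (e : E) (Y : E → ℝ) (M : ℝ) (hM : ∀ i, |Y i| ≤ M) :
    Minf p e Y ∈ Set.Icc (0:ℝ) 1 :=
  isClosed_Icc.mem_of_tendsto (hp.tendsto_Minf e Y M hM) (Eventually.of_forall fun W => hp.mW_mem W e Y)

theorem fix_unique (hp : IsSR p) (X τ u : E → ℝ) (M : ℝ) (hX : ∀ i, |X i| ≤ M)
    (hu : ∀ i, u i ∈ Set.Icc (0:ℝ) 1) (Z Z' : E → ℝ) (hZb : ∀ i, |Z i| ≤ 2) (hZb' : ∀ i, |Z' i| ≤ 2)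
    (hZ : ∀ e, Z e = Tf (Minf p e (seen X τ Z e)) (u e))
    (hZ' : ∀ e, Z' e = Tf (Minf p e (seen X τ Z' e)) (u e)) : Z = Z' := by
  have key : ∀ n : ℕ, ∀ e, |Z e - Z' e| ≤ 4 * (1/3) ^ n := by
    intro n
    induction n with
    | zero =>
      intro e
      have := abs_sub (Z e) (Z' e)
      have h1 := hZb e
      have h2 := hZb' e
      simp only [pow_zero, mul_one]
      linarith
    | succ n ih =>
      intro e
      rw [hZ e, hZ' e]
      have h1 := Tf_lip (hp.Minf_mem e (seen X τ Z e) (M + 2) (seen_abs_le hX hZb e))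
        (hp.Minf_mem e (seen X τ Z' e) (M + 2) (seen_abs_le hX hZb' e)) (hu e)
      have h2 := hp.Minf_lip e (seen X τ Z e) (seen X τ Z' e) (M + 2) (4 * (1/3) ^ n)
        (seen_abs_le hX hZb e) (seen_abs_le hX hZb' e) (by positivity) (fun i => by
          unfold seen
          split_ifs
          · have := ih i
            simpa using this
          · simp) (by simp [seen])
      rw [pow_succ]
      linarith
  funext e
  have h0 : Tendsto (fun n : ℕ => 4 * (1/3 : ℝ) ^ n) atTop (𝓝 0) := by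
    have := (tendsto_pow_atTop_nhds_zero_of_lt_one (r := (1/3:ℝ)) (by norm_num) (by norm_num)).const_mul 4
    simpa using this
  have h1 : |Z e - Z' e| ≤ 0 := ge_of_tendsto h0 (Eventually.of_forall fun n => key n e)
  have h2 := abs_nonpos_iff.mp h1
  linarith

theorem exists_lim_ultra (hp : IsSR p) (y : E → ℕ → unitInterval) (k : ℕ) (X : E → ℝ) (M : ℝ)
    (hXb : ∀ W i, |Xw p W y k i| ≤ M) (hX : ∀ i, |X i| ≤ M)
    (hlim : ∀ i, Tendsto (fun W => Xw p W y k i) atTop (𝓝 (X i)))
    (U : Ultrafilter (Finset E)) (hU : (U : Filter (Finset E)) ≤ atTop) :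
    ∃ Z : E → ℝ, (∀ i, |Z i| ≤ 2) ∧ (∀ i, Tendsto (fun W => Zw p W y k i) U (𝓝 (Z i))) ∧
      ∀ e, Z e = Tf (Minf p e (seen X (lab y (2 * k)) Z e)) (lab y (2 * k + 1) e) := by
  have ht : ∀ i, Tendsto (fun W => Zw p W y k i) U
      (𝓝 (limUnder (U : Filter (Finset E)) (fun W => Zw p W y k i))) := by
    intro i
    apply ultra_tendsto U _ (-2) 2
    intro W
    exact abs_le.mp (Zw_abs_le hp W y k i)
  set Z : E → ℝ := fun i => limUnder (U : Filter (Finset E)) (fun W => Zw p W y k i) with hZ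
  have hb : ∀ i, |Z i| ≤ 2 := by
    intro i
    exact le_of_tendsto (ht i).abs (Eventually.of_forall fun W => Zw_abs_le hp W y k i)
  refine ⟨Z, hb, ht, fun e => ?_⟩
  have hm : Tendsto (fun W => mW p W e (seen (Xw p W y k) (lab y (2 * k)) (Zw p W y k) e)) U
      (𝓝 (Minf p e (seen X (lab y (2 * k)) Z e))) := by
    apply hp.tendsto_mW e U hU _ _ (M + 2)
    · intro W i
      exact seen_abs_le (hXb W) (fun i => Zw_abs_le hp W y k i) e i
    · intro i
      exact seen_abs_le hX hb e i
    · intro i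
      unfold seen
      apply ((hlim i).mono_left hU).add
      split_ifs
      · exact ht i
      · exact tendsto_const_nhds
  have hT : Tendsto (fun W => Zw p W y k e) U
      (𝓝 (Tf (Minf p e (seen X (lab y (2 * k)) Z e)) (lab y (2 * k + 1) e))) := by
    have h1 : ∀ W, |Zw p W y k e - Tf (Minf p e (seen X (lab y (2 * k)) Z e)) (lab y (2 * k + 1) e)| ≤
        4 / 3 * |mW p W e (seen (Xw p W y k) (lab y (2 * k)) (Zw p W y k) e) -
          Minf p e (seen X (lab y (2 * k)) Z e)| := by
      intro W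
      rw [Zw_fix]
      exact Tf_lip (hp.mW_mem _ _ _) (hp.Minf_mem e _ (M + 2) (seen_abs_le hX hb e)) (lab_mem _ _ _)
    rw [tendsto_iff_dist_tendsto_zero]
    have h2 : Tendsto (fun W => 4 / 3 * |mW p W e (seen (Xw p W y k) (lab y (2 * k)) (Zw p W y k) e) -
          Minf p e (seen X (lab y (2 * k)) Z e)|) U (𝓝 0) := by
      have := ((hm.sub_const (Minf p e (seen X (lab y (2 * k)) Z e))).abs).const_mul (4/3)
      simpa using this
    refine squeeze_zero (fun _ => dist_nonneg) (fun W => ?_) h2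
    rw [Real.dist_eq]
    exact h1 W
  exact tendsto_nhds_unique (ht e) hT

theorem exists_lim (hp : IsSR p) (y : E → ℕ → unitInterval) (k : ℕ) :
    ∃ X : E → ℝ, (∀ i, |X i| ≤ 2 * k) ∧ ∀ i, Tendsto (fun W => Xw p W y k i) atTop (𝓝 (X i)) := by
  induction k with
  | zero => exact ⟨fun _ => 0, by simp, fun i => tendsto_const_nhds⟩
  | succ k ih =>
    obtain ⟨X, hXb, hX⟩ := ih
    have hb : ∀ W i, |Xw p W y k i| ≤ 2 * k := fun W i => Xw_abs_le hp W y k i
    obtain ⟨Z, hZb, _, hZ⟩ := exists_lim_ultra hp y k X (2 * k) hb hXb hX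
      (Ultrafilter.of atTop) (Ultrafilter.of_le _)
    have ht : ∀ i, Tendsto (fun W => Zw p W y k i) atTop (𝓝 (Z i)) := by
      intro i
      rw [tendsto_iff_ultrafilter]
      intro U hU
      obtain ⟨Z', hZb', ht', hZ'⟩ := exists_lim_ultra hp y k X (2 * k) hb hXb hX U hU
      have : Z = Z' := fix_unique hp X (lab y (2 * k)) (lab y (2 * k + 1)) (2 * k) hXb
        (fun i => lab_mem _ _ _) Z Z' hZb hZb' hZ hZ'
      rw [this]
      exact ht' i
    refine ⟨fun i => X i + Z i, fun i => ?_, fun i => ?_⟩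
    · have := abs_add_le (X i) (Z i)
      have := hXb i
      have := hZb i
      push_cast
      linarith
    · exact (hX i).add (ht i)

/-- limiting increment -/
noncomputable def Zl (p : WinLaw E) (y : E → ℕ → unitInterval) (k : ℕ) (i : E) : ℝ :=
  limsup (fun W : Finset E => Zw p W y k i) atTop

theorem tendsto_Zl (hp : IsSR p) (y : E → ℕ → unitInterval) (k : ℕ) (i : E) :
    Tendsto (fun W : Finset E => Zw p W y k i) atTop (𝓝 (Zl p y k i)) := by
  obtain ⟨X, _, hX⟩ := exists_lim hp y k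
  obtain ⟨X', _, hX'⟩ := exists_lim hp y (k+1)
  have h : Tendsto (fun W : Finset E => Zw p W y k i) atTop (𝓝 (X' i - X i)) := by
    have := (hX' i).sub (hX i)
    refine this.congr (fun W => ?_)
    rw [Xw_succ]; ring
  have e : Zl p y k i = X' i - X i := h.limsup_eq
  rw [e]
  exact h

theorem measurable_Zl [Countable E] (k : ℕ) (i : E) :
    Measurable (fun q : WinLaw E × (E → ℕ → unitInterval) => Zl q.1 q.2 k i) := by
  unfold Zl
  apply Measurable.limsup' (u := (atTop : Filter (Finset E)))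
    (fun W => (measurable_pi_apply i).comp (measurable_Zw W k))
    (atTop_countable_basis) (fun _ => Set.to_countable _)

theorem Zl_map (π : E ≃ E) (p : WinLaw E) (y : E → ℕ → unitInterval) (k : ℕ) (i : E) :
    Zl (pb' π p) (y ∘ π) k i = Zl p y k (π i) := by
  unfold Zl
  have h1 : (fun W : Finset E => Zw (pb' π p) W (y ∘ π) k i) =
      (fun W : Finset E => Zw p W y k (π i)) ∘ (fun W : Finset E => W.map π.toEmbedding) := by
    funext W
    rw [Zw_map]
    rfl
  rw [h1]
  have h2 : Tendsto (fun W : Finset E => W.map π.toEmbedding) atTop atTop := by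
    rw [tendsto_atTop]
    intro B
    filter_upwards [eventually_ge_atTop (B.map π.symm.toEmbedding)] with W hW
    intro b hb
    rw [Finset.mem_map]
    refine ⟨π.symm b, hW ?_, by simp⟩
    rw [Finset.mem_map]
    exact ⟨b, hb, rfl⟩
  have h3 : map (fun W : Finset E => W.map π.toEmbedding) atTop = atTop := by
    apply le_antisymm h2
    -- the inverse map also tends to atTop
    intro s hs
    rw [mem_map, mem_atTop_sets] at hs
    obtain ⟨B, hB⟩ := hs
    rw [mem_atTop_sets]
    refine ⟨B.map π.toEmbedding, fun W hW => ?_⟩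
    have h4 := hB (W.map π.symm.toEmbedding) (by
      intro b hb
      rw [Finset.mem_map]
      exact ⟨π b, hW (by rw [Finset.mem_map]; exact ⟨b, hb, rfl⟩), by simp⟩)
    have h5 : (W.map π.symm.toEmbedding).map π.toEmbedding = W := by
      ext i
      simp
    rw [Set.mem_preimage, h5] at h4
    exact h4
  rw [limsup_comp, h3]

end

end Crest.Agent.FIID
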