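import Mathlib
import Crest.Agent.FIID.Stage

/-!
Exactness of the sequential sampling in a finite window.
-/

set_option autoImplicit false

open Filter Topology MeasureTheory

namespace Crest.Agent.FIID

open scoped Classical

section
variable {E : Type*} {W : Finset E} {w : Finset E → ℝ}

noncomputable def sh (X : E → ℝ) (a : E) (ζ : ℝ) : E → ℝ := fun i => X i + if i = a then ζ else 0

theorem wt_sh (X : E → ℝ) (a : E) (ζ : ℝ) (S : Finset E) :
    wt (sh X a ζ) S = wt X S * (if a ∈ S then Real.exp ζ else 1) := by
  unfold wt sh
  rw [Finset.sum_add_distrib, Real.exp_add, Finset.sum_ite_eq' S a]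
  split_ifs <;> simp

theorem Zf_sh (hw : Pos W w) (X : E → ℝ) (a : E) (ζ : ℝ) :
    Zf W w (sh X a ζ) = Zf W w X * (mg W w a X * Real.exp ζ + (1 - mg W w a X)) := by
  have h1 : Zf W w (sh X a ζ) = Zf W w X + (Real.exp ζ - 1) * Nf W w a X := by
    unfold Zf Nf
    rw [sum_filter_mem_eq, Finset.mul_sum, ← Finset.sum_add_distrib]
    apply Finset.sum_congr rfl
    intro S _
    rw [wt_sh]
    split_ifs <;> ring
  rw [h1]
  unfold mg
  have := (Zf_pos hw X).ne'
  field_simp
  ring

theorem single_step (hw : Pos W w) (X : E → ℝ) (a : E) {z : ℝ} (hz : z ∈ Set.Icc (0:ℝ) 1)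
    (S : Finset E) :
    (mg W w a X * (z + 1/2) + (1 - mg W w a X) * (3/2 - z)) *
      (w S * wt (sh X a (llr z)) S / Zf W w (sh X a (llr z))) =
    (w S * wt X S / Zf W w X) * (if a ∈ S then (z + 1/2) else (3/2 - z)) := by
  have hZ := Zf_pos hw X
  have hZ' := Zf_pos hw (sh X a (llr z))
  have h3 : 0 < 3/2 - z := by linarith [hz.2]
  have h4 : 0 < z + 1/2 := by linarith [hz.1]
  have hexp := exp_llr hz
  have e1 : mg W w a X * (z + 1/2) + (1 - mg W w a X) * (3/2 - z) =
      (3/2 - z) * (Zf W w (sh X a (llr z)) / Zf W w X) := by
    rw [Zf_sh hw, hexp]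
    generalize 3/2 - z = q at *
    generalize z + 1/2 = r at *
    field_simp
  rw [e1, wt_sh, hexp]
  generalize 3/2 - z = q at *
  generalize z + 1/2 = r at *
  split_ifs
  · field_simp
  · field_simp

theorem lintegral_unit (G : ℝ → ENNReal) :
    ∫⁻ u : unitInterval, G (u : ℝ) = ∫⁻ u in Set.Icc (0:ℝ) 1, G u :=
  lintegral_subtype_comap measurableSet_Icc G

theorem lintegral_Tf_unit {m : ℝ} (hm : m ∈ Set.Icc (0:ℝ) 1) (G : ℝ → ENNReal) :
    ∫⁻ u : unitInterval, G (Tf m u) =
      ∫⁻ z in Set.Icc (0:ℝ) 1, ENNReal.ofReal (m * (z + 1/2) + (1 - m) * (3/2 - z)) * G (llr z) := by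
  rw [lintegral_unit (fun u => G (Tf m u)), lintegral_Tf hm]

/-- one sequential step of the sampler -/
theorem lintegral_step (hw : Pos W w) (X : E → ℝ) (a : E) (H : Finset E → ℝ → ENNReal)
    (hH : ∀ S, Measurable (H S)) :
    ∫⁻ u : unitInterval, ∑ S ∈ W.powerset,
        ENNReal.ofReal (w S * wt (sh X a (Tf (mg W w a X) u)) S /
          Zf W w (sh X a (Tf (mg W w a X) u))) * H S (Tf (mg W w a X) u) =
      ∑ S ∈ W.powerset, ENNReal.ofReal (w S * wt X S / Zf W w X) *
        ∫⁻ u : unitInterval, H S (Tf (if a ∈ S then 1 else 0) u) := by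
  have hm : mg W w a X ∈ Set.Icc (0:ℝ) 1 := ⟨mg_nonneg hw X, mg_le_one hw X⟩
  rw [lintegral_Tf_unit hm (fun ζ => ∑ S ∈ W.powerset,
        ENNReal.ofReal (w S * wt (sh X a ζ) S / Zf W w (sh X a ζ)) * H S ζ)]
  have h1 : ∀ S ∈ W.powerset, ENNReal.ofReal (w S * wt X S / Zf W w X) *
        ∫⁻ u : unitInterval, H S (Tf (if a ∈ S then 1 else 0) u) =
      ∫⁻ z in Set.Icc (0:ℝ) 1, ENNReal.ofReal (w S * wt X S / Zf W w X) *
        (ENNReal.ofReal (if a ∈ S then (z + 1/2) else (3/2 - z)) * H S (llr z)) := by
    intro S hS
    rw [lintegral_Tf_unit (by split_ifs <;> simp) (H S)]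
    rw [lintegral_const_mul]
    · congr 1
      apply lintegral_congr
      intro z
      congr 2
      split_ifs <;> ring
    · apply Measurable.mul
      · apply ENNReal.measurable_ofReal.comp
        split_ifs <;> fun_prop
      · exact (hH S).comp measurable_llr
  rw [Finset.sum_congr rfl h1, ← lintegral_finset_sum']
  · apply setLIntegral_congr_fun measurableSet_Icc
    intro z hz
    simp only
    rw [Finset.mul_sum]
    apply Finset.sum_congr rfl
    intro S hS
    have hwS := hw.nonneg S (Finset.mem_powerset.mp hS)
    rw [← mul_assoc, ← mul_assoc, ← ENNReal.ofReal_mul, ← ENNReal.ofReal_mul, single_step hw X a hz]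
    · exact div_nonneg (mul_nonneg hwS (wt_pos _ _).le) (Zf_pos hw _).le
    · have := hm.1
      have := hm.2
      have := hz.1
      have := hz.2
      have h5 : 0 ≤ mg W w a X * (z + 1/2) := mul_nonneg hm.1 (by linarith)
      have h6 : 0 ≤ (1 - mg W w a X) * (3/2 - z) := mul_nonneg (by linarith) (by linarith)
      linarith
  · intro S _
    apply Measurable.aemeasurable
    apply Measurable.const_mul
    apply Measurable.mul
    · apply ENNReal.measurable_ofReal.comp
      split_ifs <;> fun_prop
    · exact (hH S).comp measurable_llr

theorem exact_list {ι : Type*} [DecidableEq ι] (hw : Pos W w) (s : ι → E) (T : ι → ℝ) (J : Finset ι) :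
    Set.InjOn T J → ∀ (X : E → ℝ) (c : ι → ℝ) (Z : (ι → unitInterval) → ι → ℝ), Measurable Z →
    (∀ u, ∀ j ∈ J, Z u j = Tf (mg W w (s j)
      (fun e => X e + ∑ i ∈ J.filter (fun i => s i = e ∧ T i < T j), Z u i)) (u j)) →
    ∀ (G : (ι → ℝ) → ENNReal), Measurable G → ∀ x : ι → unitInterval,
    (∫⋯∫⁻_J, (fun u => G (fun j => if j ∈ J then Z u j else c j)) ∂(fun _ => volume)) x =
      ∑ S ∈ W.powerset, ENNReal.ofReal (w S * wt X S / Zf W w X) *
        (∫⋯∫⁻_J, (fun v : ι → unitInterval =>
          G (fun j => if j ∈ J then Tf (if s j ∈ S then 1 else 0) (v j) else c j))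
          ∂(fun _ => volume)) x := by
  induction J using Finset.induction_on_min_value T with
  | empty =>
    intro _ X c Z hZm hZ G hG x
    simp only [Finset.notMem_empty, if_false, lmarginal_empty]
    rw [← Finset.sum_mul, ← ENNReal.ofReal_sum_of_nonneg]
    · rw [← Finset.sum_div]
      have : ∑ S ∈ W.powerset, w S * wt X S = Zf W w X := rfl
      rw [this, div_self (Zf_pos hw X).ne']
      simp
    · intro S hS
      exact div_nonneg (mul_nonneg (hw.nonneg S (Finset.mem_powerset.mp hS)) (wt_pos _ _).le) (Zf_pos hw _).le
  | insert a J' ha hmin ih =>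
    intro hinj X c Z hZm hZ G hG x
    have hinj' : Set.InjOn T J' := hinj.mono (by simp)
    have hlt : ∀ j ∈ J', T a < T j := by
      intro j hj
      refine lt_of_le_of_ne (hmin j hj) (fun h => ?_)
      have : a = j := hinj (by simp) (by simp [hj]) h
      exact ha (this ▸ hj)
    have hT2 : Measurable (fun q : ℝ × unitInterval => Tf q.1 (q.2 : ℝ)) :=
      measurable_Tf.comp (measurable_fst.prodMk (measurable_subtype_coe.comp measurable_snd))
    -- the integrand is measurable
    have hmeas : Measurable (fun u : ι → unitInterval =>
        G (fun j => if j ∈ insert a J' then Z u j else c j)) := by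
      apply hG.comp
      rw [measurable_pi_iff]
      intro j
      split_ifs
      · exact (measurable_pi_apply j).comp hZm
      · exact measurable_const
    rw [lmarginal_insert _ hmeas ha]
    -- value of `Z` at the first event
    have hZa : ∀ u, Z u a = Tf (mg W w (s a) X) (u a) := by
      intro u
      rw [hZ u a (Finset.mem_insert_self _ _)]
      congr 2
      funext e
      rw [Finset.filter_eq_empty_iff.mpr]
      · simp
      · rintro i hi ⟨_, h2⟩
        rcases Finset.mem_insert.mp hi with h | h
        · rw [h] at h2; exact lt_irrefl _ h2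
        · exact absurd h2 (not_lt.mpr (hmin i h))
    set H : Finset E → ℝ → ENNReal := fun S ζ =>
      (∫⋯∫⁻_J', (fun v : ι → unitInterval => G (fun j => if j ∈ J' then
        Tf (if s j ∈ S then 1 else 0) (v j) else Function.update c a ζ j)) ∂(fun _ => volume)) x with hHdef
    have hHm : ∀ S, Measurable (H S) := by
      intro S
      simp only [hHdef, lmarginal]
      apply Measurable.lintegral_prod_right' (f := fun q : ℝ × (∀ i : J', unitInterval) =>
        G (fun j => if j ∈ J' then Tf (if s j ∈ S then 1 else 0) (Function.updateFinset x J' q.2 j)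
          else Function.update c a q.1 j))
      apply hG.comp
      rw [measurable_pi_iff]
      intro j
      by_cases hj : j ∈ J'
      · simp only [hj, if_true, Function.updateFinset, dif_pos]
        apply hT2.comp (measurable_const.prodMk _)
        exact (measurable_pi_apply _).comp measurable_snd
      · simp only [hj, if_false]
        by_cases hja : j = a
        · subst hja
          simp only [Function.update_self]
          exact measurable_fst
        · simp only [Function.update_of_ne hja]
          exact measurable_const
    have hinner : ∀ a₀ : unitInterval,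
        (∫⋯∫⁻_J', (fun u => G (fun j => if j ∈ insert a J' then Z u j else c j)) ∂(fun _ => volume))
          (Function.update x a a₀) =
        ∑ S ∈ W.powerset, ENNReal.ofReal (w S * wt (sh X (s a) (Tf (mg W w (s a) X) a₀)) S /
          Zf W w (sh X (s a) (Tf (mg W w (s a) X) a₀))) * H S (Tf (mg W w (s a) X) a₀) := by
      intro a₀
      rw [lmarginal_update_of_notMem hmeas ha]
      set ζ := Tf (mg W w (s a) X) a₀ with hζ
      have h := ih hinj' (sh X (s a) ζ) (Function.update c a ζ)
        (fun u => Z (Function.update u a a₀)) (hZm.comp measurable_update_left) (by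
          intro u j hj
          have hja : j ≠ a := fun h => ha (h ▸ hj)
          rw [hZ _ j (Finset.mem_insert_of_mem hj)]
          rw [Function.update_of_ne hja]
          congr 2
          funext e
          rw [Finset.filter_insert]
          by_cases he : s a = e
          · rw [if_pos ⟨he, hlt j hj⟩, Finset.sum_insert (by simp [ha])]
            rw [hZa, Function.update_self]
            unfold sh
            rw [if_pos he.symm]
            ring
          · rw [if_neg (fun h => he h.1)]
            unfold sh
            rw [if_neg (fun h => he h.symm)]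
            ring) G hG x
      rw [← h]
      have hfe : ((fun u => G (fun j => if j ∈ insert a J' then Z u j else c j)) ∘
          (Function.update · a a₀)) =
          (fun u : ι → unitInterval => G (fun j => if j ∈ J' then Z (Function.update u a a₀) j
            else Function.update c a ζ j)) := by
        funext u
        simp only [Function.comp]
        congr 1
        funext j
        by_cases hj : j ∈ J'
        · simp [hj]
        · by_cases hja : j = a
          · subst hja
            simp only [Finset.mem_insert_self, if_true, hj, if_false, Function.update_self]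
            rw [hZa, Function.update_self]
          · simp [hj, hja]
      rw [hfe]
    rw [lintegral_congr hinner, lintegral_step hw X (s a) H hHm]
    apply Finset.sum_congr rfl
    intro S _
    congr 1
    have hmeas2 : Measurable (fun v : ι → unitInterval =>
        G (fun j => if j ∈ insert a J' then Tf (if s j ∈ S then 1 else 0) (v j) else c j)) := by
      apply hG.comp
      rw [measurable_pi_iff]
      intro j
      split_ifs
      · exact hT2.comp (measurable_const.prodMk (measurable_pi_apply j))
      · exact hT2.comp (measurable_const.prodMk (measurable_pi_apply j))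
      · exact measurable_const
    rw [lmarginal_insert _ hmeas2 ha]
    apply lintegral_congr
    intro a₀
    rw [lmarginal_update_of_notMem hmeas2 ha]
    simp only [hHdef]
    congr 1
    congr 1
    funext v
    simp only [Function.comp]
    congr 1
    funext j
    by_cases hj : j ∈ J'
    · have hja : j ≠ a := fun h => ha (h ▸ hj)
      simp [hj, hja]
    · by_cases hja : j = a
      · subst hja
        simp [hj]
      · simp [hj, hja]

end

end Crest.Agent.FIID
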