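import Mathlib
import Crest.Agent.FIID.Exact

/-!
Law of the increments in a finite window.
-/

set_option autoImplicit false

open Filter Topology MeasureTheory

namespace Crest.Agent.FIID

open scoped Classical

theorem ae_injective {ι : Type*} [Fintype ι] :
    ∀ᵐ τ ∂(Measure.pi (fun _ : ι => (volume : Measure unitInterval))), Function.Injective τ := by
  have h : ∀ i j : ι, i ≠ j →
      ∀ᵐ τ ∂(Measure.pi (fun _ : ι => (volume : Measure unitInterval))), τ i ≠ τ j := by
    intro i j hij
    have h1 := Measure.infinitePi_map_eval_prod (P := fun _ : ι => (volume : Measure unitInterval)) hij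
    rw [Measure.infinitePi_eq_pi] at h1
    have hd : MeasurableSet {q : unitInterval × unitInterval | q.1 = q.2} :=
      measurableSet_eq_fun measurable_fst measurable_snd
    have h2 : ((volume : Measure unitInterval).prod (volume : Measure unitInterval))
        {q : unitInterval × unitInterval | q.1 = q.2} = 0 := by
      rw [Measure.measure_prod_null hd]
      apply Eventually.of_forall
      intro a
      have : Prod.mk a ⁻¹' {q : unitInterval × unitInterval | q.1 = q.2} = {a} := by
        ext b; simp [eq_comm]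
      show (volume : Measure unitInterval) (Prod.mk a ⁻¹' {q : unitInterval × unitInterval | q.1 = q.2}) = 0
      rw [this]
      simp
    rw [← h1, Measure.map_apply (by fun_prop) hd] at h2
    rw [ae_iff]
    simpa using h2
  have h3 : ∀ᵐ τ ∂(Measure.pi (fun _ : ι => (volume : Measure unitInterval))),
      ∀ i j : ι, i ≠ j → τ i ≠ τ j := by
    rw [ae_all_iff]
    intro i
    rw [ae_all_iff]
    intro j
    by_cases hij : i = j
    · simp [hij]
    · filter_upwards [h i j hij] with τ hτ _
      exact hτ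
  filter_upwards [h3] with τ hτ i j hij
  by_contra hne
  exact hτ i j hne hij

attribute [local irreducible] Zw Xw stageW mW

section
variable {E : Type*} {p : WinLaw E}

noncomputable def extL (W : Finset E) (K : ℕ) (τ u : (W × Fin K) → unitInterval) :
    E → ℕ → unitInterval :=
  fun e n => if h : e ∈ W ∧ n / 2 < K then
    (if n % 2 = 0 then τ (⟨e, h.1⟩, ⟨n / 2, h.2⟩) else u (⟨e, h.1⟩, ⟨n / 2, h.2⟩)) else 0

theorem extL_even (W : Finset E) (K : ℕ) (τ u : (W × Fin K) → unitInterval) {e : E} (he : e ∈ W)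
    {k : ℕ} (hk : k < K) : extL W K τ u e (2 * k) = τ (⟨e, he⟩, ⟨k, hk⟩) := by
  unfold extL
  have h1 : 2 * k / 2 = k := by omega
  have h2 : 2 * k % 2 = 0 := by omega
  rw [dif_pos ⟨he, by omega⟩, if_pos h2]
  congr 2
  exact Fin.ext h1

theorem extL_odd (W : Finset E) (K : ℕ) (τ u : (W × Fin K) → unitInterval) {e : E} (he : e ∈ W)
    {k : ℕ} (hk : k < K) : extL W K τ u e (2 * k + 1) = u (⟨e, he⟩, ⟨k, hk⟩) := by
  unfold extL
  have h1 : (2 * k + 1) / 2 = k := by omega
  have h2 : ¬ (2 * k + 1) % 2 = 0 := by omega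
  rw [dif_pos ⟨he, by omega⟩, if_neg h2]
  congr 2
  exact Fin.ext h1

theorem measurable_extL (W : Finset E) (K : ℕ) :
    Measurable (fun q : ((W × Fin K) → unitInterval) × ((W × Fin K) → unitInterval) =>
      extL W K q.1 q.2) := by
  rw [measurable_pi_iff]
  intro e
  rw [measurable_pi_iff]
  intro n
  unfold extL
  split_ifs
  · exact (measurable_pi_apply _).comp measurable_fst
  · exact (measurable_pi_apply _).comp measurable_snd
  · exact measurable_const

theorem measurable_Zext (p : WinLaw E) (W : Finset E) (K : ℕ) :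
    Measurable (fun q : ((W × Fin K) → unitInterval) × ((W × Fin K) → unitInterval) =>
      (fun j : W × Fin K => Zw p W (extL W K q.1 q.2) j.2 j.1)) := by
  rw [measurable_pi_iff]
  intro j
  have h1 := measurable_Zw W (j.2 : ℕ) (E := E)
  have h2 : Measurable (fun q : ((W × Fin K) → unitInterval) × ((W × Fin K) → unitInterval) =>
      ((p, extL W K q.1 q.2) : WinLaw E × (E → ℕ → unitInterval))) :=
    measurable_const.prodMk (measurable_extL W K)
  have h3 : Measurable (fun q : ((W × Fin K) → unitInterval) × ((W × Fin K) → unitInterval) =>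
      Zw p W (extL W K q.1 q.2) (j.2 : ℕ)) := h1.comp h2
  exact (measurable_pi_iff.mp h3) (j.1 : E)

theorem times_inj (W : Finset E) (K : ℕ) (τ : (W × Fin K) → unitInterval) (hτ : Function.Injective τ) :
    Function.Injective (fun j : W × Fin K => 2 * ((j.2 : ℕ) : ℝ) + (τ j : ℝ)) := by
  intro j j' h
  simp only at h
  have h1 := (τ j).2.1
  have h2 := (τ j).2.2
  have h3 := (τ j').2.1
  have h4 := (τ j').2.2
  have hk : ((j.2 : ℕ) : ℝ) = ((j'.2 : ℕ) : ℝ) := by
    rcases lt_trichotomy ((j.2 : ℕ)) ((j'.2 : ℕ)) with hlt | heq | hgt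
    · have : ((j.2 : ℕ) : ℝ) + 1 ≤ ((j'.2 : ℕ) : ℝ) := by exact_mod_cast hlt
      linarith
    · rw [heq]
    · have : ((j'.2 : ℕ) : ℝ) + 1 ≤ ((j.2 : ℕ) : ℝ) := by exact_mod_cast hgt
      linarith
  apply hτ
  apply Subtype.ext
  linarith

theorem past_sum (W : Finset E) (K : ℕ) (τ : (W × Fin K) → unitInterval) (z : ℕ → E → ℝ)
    (j : W × Fin K) (i₀ : E) (hi₀ : i₀ ∈ W) :
    ∑ i ∈ Finset.univ.filter (fun i : W × Fin K => (i.1 : E) = i₀ ∧
      2 * ((i.2 : ℕ) : ℝ) + (τ i : ℝ) < 2 * ((j.2 : ℕ) : ℝ) + (τ j : ℝ)), z i.2 i.1 =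
    ∑ l ∈ Finset.range j.2, z l i₀ + if (τ (⟨i₀, hi₀⟩, j.2) : ℝ) < (τ j : ℝ) then z j.2 i₀ else 0 := by
  rw [Finset.sum_filter, Fintype.sum_prod_type, Finset.sum_eq_single (⟨i₀, hi₀⟩ : W)]
  · simp only [true_and]
    set g : ℕ → ℝ := fun b => if b < j.2 then z b i₀ else
      if b = j.2 ∧ (τ (⟨i₀, hi₀⟩, j.2) : ℝ) < (τ j : ℝ) then z j.2 i₀ else 0 with hg
    have h1 : ∀ b : Fin K, (if 2 * ((b : ℕ) : ℝ) + (τ (⟨i₀, hi₀⟩, b) : ℝ) <
        2 * ((j.2 : ℕ) : ℝ) + (τ j : ℝ) then z b i₀ else 0) = g b := by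
      intro b
      have h1 := (τ (⟨i₀, hi₀⟩, b)).2.1
      have h2 := (τ (⟨i₀, hi₀⟩, b)).2.2
      have h3 := (τ j).2.1
      have h4 := (τ j).2.2
      simp only [hg]
      rcases lt_trichotomy (b : ℕ) ((j.2 : ℕ)) with hlt | heq | hgt
      · have : ((b : ℕ) : ℝ) + 1 ≤ ((j.2 : ℕ) : ℝ) := by exact_mod_cast hlt
        rw [if_pos (by linarith), if_pos hlt]
      · have hb : b = j.2 := Fin.ext heq
        subst hb
        simp
      · have : ((j.2 : ℕ) : ℝ) + 1 ≤ ((b : ℕ) : ℝ) := by exact_mod_cast hgt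
        rw [if_neg (by linarith), if_neg (by omega), if_neg (by omega)]
    rw [Finset.sum_congr rfl (fun b _ => h1 b), Fin.sum_univ_eq_sum_range]
    have h2 : ∑ b ∈ Finset.range K, g b = ∑ b ∈ Finset.range (j.2 + 1), g b := by
      symm
      apply Finset.sum_subset
      · intro b hb
        have := j.2.2
        simp only [Finset.mem_range] at hb ⊢
        omega
      · intro b _ hb
        simp only [Finset.mem_range, not_lt] at hb
        simp only [hg]
        rw [if_neg (by omega), if_neg (by omega)]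
    rw [h2, Finset.sum_range_succ]
    congr 1
    · apply Finset.sum_congr rfl
      intro b hb
      simp only [hg]
      rw [if_pos (Finset.mem_range.mp hb)]
    · simp [hg]
  · intro b _ hb
    apply Finset.sum_eq_zero
    intro c _
    rw [if_neg]
    rintro ⟨h1, _⟩
    exact hb (Subtype.ext h1)
  · intro h
    exact absurd (Finset.mem_univ _) h

theorem wt_zero (S : Finset E) : wt (fun _ : E => (0:ℝ)) S = 1 := by
  unfold wt; simp

theorem IsSR.Zf_zero (hp : IsSR p) (W : Finset E) : Zf W (p W) (fun _ => 0) = 1 := by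
  unfold Zf
  simp_rw [wt_zero, mul_one]
  exact hp.total W

theorem law_fixed_tau (hp : IsSR p) (W : Finset E) (K : ℕ) (τ : (W × Fin K) → unitInterval)
    (hτ : Function.Injective τ) (G : ((W × Fin K) → ℝ) → ENNReal) (hG : Measurable G) :
    ∫⁻ u, G (fun j => Zw p W (extL W K τ u) j.2 j.1)
        ∂(Measure.pi (fun _ : W × Fin K => (volume : Measure unitInterval))) =
      ∑ S ∈ W.powerset, ENNReal.ofReal (p W S) *
        ∫⁻ v, G (fun j => Tf (if (j.1 : E) ∈ S then 1 else 0) (v j))
          ∂(Measure.pi (fun _ : W × Fin K => (volume : Measure unitInterval))) := by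
  have hm : Measurable (fun u : (W × Fin K) → unitInterval =>
      (fun j : W × Fin K => Zw p W (extL W K τ u) j.2 j.1)) :=
    Measurable.comp (g := (fun q : ((W × Fin K) → unitInterval) × ((W × Fin K) → unitInterval) =>
      (fun j : W × Fin K => Zw p W (extL W K q.1 q.2) j.2 j.1)))
      (f := fun u : (W × Fin K) → unitInterval => (τ, u))
      (measurable_Zext p W K) (by fun_prop)
  have h := exact_list (ι := W × Fin K) (hp.pos W) (fun j => (j.1 : E))
    (fun j => 2 * ((j.2 : ℕ) : ℝ) + (τ j : ℝ)) Finset.univ ((times_inj W K τ hτ).injOn)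
    (fun _ => 0) (fun _ => 0) (fun u j => Zw p W (extL W K τ u) j.2 j.1) hm (by
      intro u j _
      rw [Zw_fix]
      have e1 : lab (extL W K τ u) (2 * (j.2:ℕ) + 1) (j.1 : E) = (u j : ℝ) := by
        unfold lab
        rw [extL_odd W K τ u j.1.2 j.2.2]
      rw [e1]
      congr 1
      have emw : mW p W (j.1 : E) = mg W (p W) (j.1 : E) := by
        funext Y; unfold mW; rfl
      rw [emw]
      apply mg_congr
      intro i hi
      rw [past_sum W K τ (fun l e => Zw p W (extL W K τ u) l e) j i hi]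
      unfold seen
      rw [Xw_eq_sum, zero_add]
      congr 1
      have e2 : lab (extL W K τ u) (2 * (j.2:ℕ)) i = (τ (⟨i, hi⟩, j.2) : ℝ) := by
        unfold lab
        rw [extL_even W K τ u hi j.2.2]
      have e3 : lab (extL W K τ u) (2 * (j.2:ℕ)) (j.1 : E) = (τ j : ℝ) := by
        unfold lab
        rw [extL_even W K τ u j.1.2 j.2.2]
      rw [e2, e3]) G hG (fun _ => 0)
  simp only [Finset.mem_univ, if_true, lmarginal_univ, wt_zero, hp.Zf_zero, mul_one, div_one] at h
  exact h

/-- the labels used -/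
def rd (W : Finset E) (K : ℕ) (j : (W × Fin K) ⊕ (W × Fin K)) : E × ℕ :=
  Sum.elim (fun i => ((i.1 : E), 2 * (i.2 : ℕ))) (fun i => ((i.1 : E), 2 * (i.2 : ℕ) + 1)) j

theorem rd_inj (W : Finset E) (K : ℕ) : Function.Injective (rd W K) := by
  rintro (⟨⟨a, ha⟩, b⟩ | ⟨⟨a, ha⟩, b⟩) (⟨⟨a', ha'⟩, b'⟩ | ⟨⟨a', ha'⟩, b'⟩) h
  · simp only [rd, Sum.elim_inl, Prod.mk.injEq] at h
    obtain ⟨h1, h2⟩ := h
    subst h1
    have : b = b' := Fin.ext (by omega)
    subst this
    rfl
  · simp only [rd, Sum.elim_inl, Sum.elim_inr, Prod.mk.injEq] at h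
    omega
  · simp only [rd, Sum.elim_inl, Sum.elim_inr, Prod.mk.injEq] at h
    omega
  · simp only [rd, Sum.elim_inr, Prod.mk.injEq] at h
    obtain ⟨h1, h2⟩ := h
    subst h1
    have : b = b' := Fin.ext (by omega)
    subst this
    rfl

theorem law_window (hp : IsSR p) (W : Finset E) (K : ℕ) (Q : Measure (E → ℕ → unitInterval))
    (hQ : Q.map (fun y (j : (W × Fin K) ⊕ (W × Fin K)) => y (rd W K j).1 (rd W K j).2) =
      Measure.pi (fun _ => (volume : Measure unitInterval)))
    (G : ((W × Fin K) → ℝ) → ENNReal) (hG : Measurable G) :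
    ∫⁻ y, G (fun j => Zw p W y j.2 j.1) ∂Q =
      ∑ S ∈ W.powerset, ENNReal.ofReal (p W S) *
        ∫⁻ v, G (fun j => Tf (if (j.1 : E) ∈ S then 1 else 0) (v j))
          ∂(Measure.pi (fun _ : W × Fin K => (volume : Measure unitInterval))) := by
  set C := ∑ S ∈ W.powerset, ENNReal.ofReal (p W S) *
        ∫⁻ v, G (fun j => Tf (if (j.1 : E) ∈ S then 1 else 0) (v j))
          ∂(Measure.pi (fun _ : W × Fin K => (volume : Measure unitInterval))) with hC
  have hmρ : Measurable (fun (y : E → ℕ → unitInterval) (j : (W × Fin K) ⊕ (W × Fin K)) =>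
      y (rd W K j).1 (rd W K j).2) := by fun_prop
  set G₁ : ((W × Fin K) → unitInterval) × ((W × Fin K) → unitInterval) → ENNReal :=
    fun q => G (fun j => Zw p W (extL W K q.1 q.2) j.2 j.1) with hG₁
  have hG₁m : Measurable G₁ := hG.comp (measurable_Zext p W K)
  have hsplit : Measurable (fun z : ((W × Fin K) ⊕ (W × Fin K)) → unitInterval =>
      ((fun i => z (Sum.inl i), fun i => z (Sum.inr i)) :
        ((W × Fin K) → unitInterval) × ((W × Fin K) → unitInterval))) := by fun_prop
  have h1 : ∫⁻ y, G (fun j => Zw p W y j.2 j.1) ∂Q =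
      ∫⁻ y, G₁ ((fun z : ((W × Fin K) ⊕ (W × Fin K)) → unitInterval =>
      ((fun i => z (Sum.inl i), fun i => z (Sum.inr i)) :
        ((W × Fin K) → unitInterval) × ((W × Fin K) → unitInterval)))
        (fun j => y (rd W K j).1 (rd W K j).2)) ∂Q := by
    apply lintegral_congr
    intro y
    simp only [hG₁]
    congr 1
    funext j
    apply Zw_congr p W y _ K _ _ j.2.2 _ j.1.2
    intro i hi n hn
    rcases Nat.even_or_odd' n with ⟨m, rfl | rfl⟩
    · rw [extL_even W K _ _ hi (by omega : m < K)]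
      simp [rd]
    · rw [extL_odd W K _ _ hi (by omega : m < K)]
      simp [rd]
  rw [h1, ← lintegral_map (hG₁m.comp hsplit) hmρ (μ := Q) (f := fun z => G₁ _), hQ]
  have h2 := (measurePreserving_sumPiEquivProdPi (X := fun _ : (W × Fin K) ⊕ (W × Fin K) => unitInterval)
    (fun _ => (volume : Measure unitInterval))).lintegral_comp hG₁m
  have h3 : ∫⁻ z : ((W × Fin K) ⊕ (W × Fin K)) → unitInterval, G₁ (fun i => z (Sum.inl i), fun i => z (Sum.inr i))
      ∂(Measure.pi (fun _ => (volume : Measure unitInterval))) =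
      ∫⁻ q, G₁ q ∂((Measure.pi (fun _ : W × Fin K => (volume : Measure unitInterval))).prod
        (Measure.pi (fun _ : W × Fin K => (volume : Measure unitInterval)))) := h2
  rw [h3, lintegral_prod _ hG₁m.aemeasurable]
  have h4 : ∀ᵐ τ ∂(Measure.pi (fun _ : W × Fin K => (volume : Measure unitInterval))),
      ∫⁻ u, G₁ (τ, u) ∂(Measure.pi (fun _ : W × Fin K => (volume : Measure unitInterval))) = C := by
    filter_upwards [ae_injective (ι := W × Fin K)] with τ hτ
    exact law_fixed_tau hp W K τ hτ G hG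
  rw [lintegral_congr_ae h4]
  simp

end

end Crest.Agent.FIID
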