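import Mathlib
import Crest.Agent.FIID.Channel

/-!
Reading the bit from an i.i.d. sequence of channel outputs.
-/

set_option autoImplicit false

open Filter Topology MeasureTheory

namespace Crest.Agent.FIID

open scoped Classical

/-- mean increment -/
noncomputable def mub (b : ℝ) : ℝ := ∫ u : unitInterval, Tf b u

theorem measurable_Tf_unit (b : ℝ) : Measurable (fun u : unitInterval => Tf b u) :=
  measurable_Tf.comp (measurable_const.prodMk measurable_subtype_coe)

theorem integrable_Tf {b : ℝ} (hb : b ∈ Set.Icc (0:ℝ) 1) :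
    Integrable (fun u : unitInterval => Tf b u) := by
  apply Integrable.of_bound (measurable_Tf_unit b).aestronglyMeasurable 2
  apply Eventually.of_forall
  intro u
  exact Tf_abs_le hb u.2

theorem Qk_gap {u : ℝ} (hu : u ∈ Set.Icc (0:ℝ) 1) : Qk (-1/2) u ≤ Qk (1/2) u ∧
    (0 < u → u < 1 → Qk (-1/2) u < Qk (1/2) u) := by
  have hk : |(1/2 : ℝ)| ≤ 1/2 := by rw [abs_of_pos (by norm_num)]
  have hk' : |(-1/2 : ℝ)| ≤ 1/2 := by rw [abs_of_neg (by norm_num)]; norm_num
  set z := Qk (1/2) u with hz
  set z' := Qk (-1/2) u with hz'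
  have hzm : z ∈ Set.Icc (0:ℝ) 1 := Qk_mem hk hu
  have hzm' : z' ∈ Set.Icc (0:ℝ) 1 := Qk_mem hk' hu
  have h1 : Fk (1/2) z = u := Fk_Qk hk hu
  have h2 : Fk (-1/2) z' = u := Fk_Qk hk' hu
  unfold Fk at h1 h2
  have h3 : (z - z') * (1 + 1/2 * (z + z' - 1)) = z' * (1 - z') := by linarith
  have h4 : 0 < 1 + 1/2 * (z + z' - 1) := by
    have := hzm.1; have := hzm'.1; linarith
  have h5 : 0 ≤ z' * (1 - z') := mul_nonneg hzm'.1 (by linarith [hzm'.2])
  constructor
  · by_contra hc
    push Not at hc
    have : (z - z') * (1 + 1/2 * (z + z' - 1)) < 0 := mul_neg_of_neg_of_pos (by linarith) h4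
    linarith
  · intro hu0 hu1
    have hz0 : z' ≠ 0 := by
      intro h
      rw [h] at h2
      norm_num at h2
      linarith
    have hz1 : z' ≠ 1 := by
      intro h
      rw [h] at h2
      norm_num at h2
      linarith
    have h6 : 0 < z' := lt_of_le_of_ne hzm'.1 (Ne.symm hz0)
    have h7 : z' < 1 := lt_of_le_of_ne hzm'.2 hz1
    have h8 : 0 < z' * (1 - z') := mul_pos h6 (by linarith)
    rw [← h3] at h8
    have := (mul_pos_iff_of_pos_right h4).mp h8
    linarith

theorem llr_mono {z z' : ℝ} (hz : z ∈ Set.Icc (0:ℝ) 1) (hz' : z' ∈ Set.Icc (0:ℝ) 1) (h : z ≤ z') :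
    llr z ≤ llr z' := by
  unfold llr
  have h1 : Real.log (z + 1/2) ≤ Real.log (z' + 1/2) :=
    Real.log_le_log (by linarith [hz.1]) (by linarith)
  have h2 : Real.log (3/2 - z') ≤ Real.log (3/2 - z) :=
    Real.log_le_log (by linarith [hz'.2]) (by linarith)
  linarith

theorem llr_strictMono {z z' : ℝ} (hz : z ∈ Set.Icc (0:ℝ) 1) (hz' : z' ∈ Set.Icc (0:ℝ) 1)
    (h : z < z') : llr z < llr z' := by
  unfold llr
  have h1 : Real.log (z + 1/2) < Real.log (z' + 1/2) :=
    Real.log_lt_log (by linarith [hz.1]) (by linarith)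
  have h2 : Real.log (3/2 - z') < Real.log (3/2 - z) :=
    Real.log_lt_log (by linarith [hz'.2]) (by linarith)
  linarith

theorem mub_lt : mub 0 < mub 1 := by
  have hk : |(1/2 : ℝ)| ≤ 1/2 := by rw [abs_of_pos (by norm_num)]
  have hk' : |(-1/2 : ℝ)| ≤ 1/2 := by rw [abs_of_neg (by norm_num)]; norm_num
  have e1 : (1:ℝ) - 1/2 = 1/2 := by norm_num
  have e0 : (0:ℝ) - 1/2 = -1/2 := by norm_num
  have i1 := integrable_Tf (b := 1) (by simp)
  have i0 := integrable_Tf (b := 0) (by simp)
  have hpos : 0 < ∫ u : unitInterval, (Tf 1 u - Tf 0 u) := by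
    rw [integral_pos_iff_support_of_nonneg]
    · have h1 : ∀ᵐ u : unitInterval, u ∈ Function.support (fun u : unitInterval => Tf 1 u - Tf 0 u) := by
        have ha : ∀ᵐ u : unitInterval, u ≠ 0 := by
          rw [ae_iff]; simp
        have hb : ∀ᵐ u : unitInterval, u ≠ 1 := by
          rw [ae_iff]; simp
        filter_upwards [ha, hb] with u hu0 hu1
        rw [Function.mem_support]
        have h0 : (0:ℝ) < u := lt_of_le_of_ne u.2.1 (fun h => hu0 (Subtype.ext h.symm))
        have h1 : (u:ℝ) < 1 := lt_of_le_of_ne u.2.2 (fun h => hu1 (Subtype.ext h))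
        have h2 := (Qk_gap u.2).2 h0 h1
        have h3 := llr_strictMono (Qk_mem hk' u.2) (Qk_mem hk u.2) h2
        unfold Tf
        rw [e1, e0]
        intro hc
        linarith
      have h2 : volume (Function.support (fun u : unitInterval => Tf 1 u - Tf 0 u)) = 1 := by
        rw [← measure_univ (μ := (volume : Measure unitInterval))]
        apply measure_congr
        filter_upwards [h1] with u hu
        exact propext ⟨fun _ => trivial, fun _ => hu⟩
      rw [h2]; exact one_pos
    · intro u
      unfold Tf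
      rw [e1, e0]
      have := llr_mono (Qk_mem hk' u.2) (Qk_mem hk u.2) (Qk_gap u.2).1
      simp only [Pi.zero_apply]
      linarith
    · exact i1.sub i0
  rw [integral_sub i1 i0] at hpos
  unfold mub
  linarith

/-- reading of the bit -/
noncomputable def rdg (z : ℕ → ℝ) : Bool :=
  decide (mub 0 < limsup (fun n : ℕ => (n : ℝ)⁻¹ * ∑ i ∈ Finset.range n, z i) atTop)

theorem measurable_rdg : Measurable rdg := by
  unfold rdg
  have h : Measurable (fun z : ℕ → ℝ =>
      limsup (fun n : ℕ => (n : ℝ)⁻¹ * ∑ i ∈ Finset.range n, z i) atTop) := by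
    apply Measurable.limsup
    intro n
    fun_prop
  apply measurable_to_bool
  have : (fun z : ℕ → ℝ => decide (mub 0 < limsup (fun n : ℕ => (n : ℝ)⁻¹ * ∑ i ∈ Finset.range n, z i) atTop)) ⁻¹'
      {true} = {z | mub 0 < limsup (fun n : ℕ => (n : ℝ)⁻¹ * ∑ i ∈ Finset.range n, z i) atTop} := by
    ext z; simp
  rw [this]
  exact measurableSet_lt measurable_const h

theorem ae_rdg {κ : Type*} (f : ℕ → κ) (hf : Function.Injective f) (b : Prop) [Decidable b] :
    ∀ᵐ v ∂(Measure.infinitePi (fun _ : κ => (volume : Measure unitInterval))),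
      rdg (fun n => Tf (if b then 1 else 0) (v (f n))) = decide b := by
  set μ := Measure.infinitePi (fun _ : κ => (volume : Measure unitInterval)) with hμ
  set c : ℝ := if b then 1 else 0 with hc
  have hcm : c ∈ Set.Icc (0:ℝ) 1 := by rw [hc]; split_ifs <;> simp
  set X : ℕ → (κ → unitInterval) → ℝ := fun n v => Tf c (v (f n)) with hX
  have hmap : ∀ n, Measure.map (fun v : κ → unitInterval => v (f n)) μ = volume := fun n =>
    Measure.infinitePi_map_eval _ (f n)
  have hev : ∀ n, Measurable (fun v : κ → unitInterval => v (f n)) := fun n => measurable_pi_apply _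
  have hXm : ∀ n, Measurable (X n) := fun n => (measurable_Tf_unit c).comp (hev n)
  have hint : Integrable (X 0) μ := by
    apply Integrable.of_bound (hXm 0).aestronglyMeasurable 2
    apply Eventually.of_forall
    intro v
    exact Tf_abs_le hcm (v (f 0)).2
  have hindep : ProbabilityTheory.iIndepFun X μ := by
    have h1 := ProbabilityTheory.iIndepFun_infinitePi (P := fun _ : κ => (volume : Measure unitInterval))
      (X := fun _ u => Tf c (u : ℝ)) (fun _ => measurable_Tf_unit c)
    exact h1.precomp hf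
  have hident : ∀ i, ProbabilityTheory.IdentDistrib (X i) (X 0) μ μ := by
    intro i
    refine ⟨(hXm i).aemeasurable, (hXm 0).aemeasurable, ?_⟩
    have h1 : ∀ n, Measure.map (X n) μ = Measure.map (fun u : unitInterval => Tf c u) volume := by
      intro n
      rw [← hmap n, Measure.map_map (measurable_Tf_unit c) (hev n)]
      rfl
    rw [h1, h1]
  have hlln := ProbabilityTheory.strong_law_ae X hint (fun i j hij => hindep.indepFun hij) hident
  have hmean : ∫ v, X 0 v ∂μ = mub c := by
    unfold mub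
    rw [← hmap 0, integral_map (hev 0).aemeasurable
      (measurable_Tf_unit c).aestronglyMeasurable]
  filter_upwards [hlln] with v hv
  rw [hmean] at hv
  have hlim : limsup (fun n : ℕ => (n : ℝ)⁻¹ * ∑ i ∈ Finset.range n, X i v) atTop = mub c :=
    hv.limsup_eq
  unfold rdg
  have e : limsup (fun n : ℕ => (n : ℝ)⁻¹ * ∑ i ∈ Finset.range n, Tf c (v (f i))) atTop = mub c := hlim
  rw [e]
  by_cases hb : b
  · have : c = 1 := by rw [hc, if_pos hb]
    rw [this]
    simp [hb, mub_lt]
  · have : c = 0 := by rw [hc, if_neg hb]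
    rw [this]
    simp [hb]

end Crest.Agent.FIID
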