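import Mathlib
import Crest.Agent.FIID.ExactWin
import Crest.Agent.FIID.Conv
import Crest.Agent.FIID.Reading

/-!
Law of the limiting increments.
-/

set_option autoImplicit false

open Filter Topology MeasureTheory
open scoped BoundedContinuousFunction NNReal

namespace Crest.Agent.FIID

open scoped Classical

attribute [local irreducible] Zw Xw stageW mW Zl

section
variable {E : Type*} {p : WinLaw E}

/-- consistency in `ENNReal` form -/
theorem IsSR.sum_consistent_enn (hp : IsSR p) {W W' : Finset E} (hW : W ⊆ W') (H : Finset E → ENNReal)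
    (hH : ∀ S', S' ⊆ W' → H S' = H (S' ∩ W)) :
    ∑ S' ∈ W'.powerset, ENNReal.ofReal (p W' S') * H S' =
      ∑ S ∈ W.powerset, ENNReal.ofReal (p W S) * H S := by
  have h1 := Finset.sum_fiberwise_of_maps_to (s := W'.powerset) (t := W.powerset)
    (g := fun S' => S' ∩ W) (fun S' _ => by simp) (fun S' => ENNReal.ofReal (p W' S') * H S')
  rw [← h1]
  apply Finset.sum_congr rfl
  intro S hS
  have hSW := Finset.mem_powerset.mp hS
  rw [hp.consistent W W' hW S hSW, ENNReal.ofReal_sum_of_nonneg, Finset.sum_mul]
  · apply Finset.sum_congr rfl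
    intro S' hS'
    rw [Finset.mem_filter, Finset.mem_powerset] at hS'
    rw [hH S' hS'.1, hS'.2]
  · intro S' hS'
    rw [Finset.mem_filter, Finset.mem_powerset] at hS'
    exact hp.nonneg W' S' hS'.1

/-- the two-colour channel output vector -/
noncomputable def chan (F : Finset E) (S : Finset E) (v : (F × ℕ) → unitInterval) : (F × ℕ) → ℝ :=
  fun i => Tf (if (i.1 : E) ∈ S then 1 else 0) (v i)

theorem measurable_chan (F S : Finset E) : Measurable (chan F S) := by
  rw [measurable_pi_iff]
  intro i
  exact (measurable_Tf_unit _).comp (measurable_pi_apply i)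

theorem law_window_marginal [Countable E] (hp : IsSR p) (E₀ : Set E)
    (hnull : ∀ e, e ∉ E₀ → p {e} {e} = 0)
    (Q : Measure (E → ℕ → unitInterval))
    (hQ : Q.map (fun y (i : E₀ × ℕ) => y i.1 i.2) =
      Measure.infinitePi (fun _ : E₀ × ℕ => (volume : Measure unitInterval)))
    (F : Finset E) (hF : (F : Set E) ⊆ E₀) (J : Finset (F × ℕ)) (g : (J → ℝ) → ENNReal)
    (hg : Measurable g) (W : Finset E) (hFW : F ⊆ W) :
    ∫⁻ y, g (fun i : J => Zw p W y i.1.2 i.1.1) ∂Q =
      ∑ S ∈ F.powerset, ENNReal.ofReal (p F S) *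
        ∫⁻ v, g (fun i : J => chan F S v i) ∂(Measure.infinitePi
          (fun _ : F × ℕ => (volume : Measure unitInterval))) := by
  set W₀ := W.filter (· ∈ E₀) with hW₀
  have hFW₀ : F ⊆ W₀ := fun e he => Finset.mem_filter.mpr ⟨hFW he, hF he⟩
  obtain ⟨K, hK⟩ : ∃ K : ℕ, ∀ i ∈ J, i.2 < K :=
    ⟨J.sup (fun i => i.2) + 1, fun i hi => Nat.lt_succ_of_le (Finset.le_sup (f := fun i : F × ℕ => i.2) hi)⟩
  set f : J → (W₀ × Fin K) := fun i => (⟨(i.1.1 : E), hFW₀ i.1.1.2⟩, ⟨i.1.2, hK i.1 i.2⟩) with hf
  have hfinj : Function.Injective f := by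
    intro i i' h
    simp only [hf, Prod.mk.injEq, Subtype.mk.injEq, Fin.mk.injEq] at h
    exact Subtype.ext (Prod.ext (Subtype.ext h.1) h.2)
  -- replace the window by `W₀`
  have h1 : ∫⁻ y, g (fun i : J => Zw p W y i.1.2 i.1.1) ∂Q =
      ∫⁻ y, g (fun i : J => Zw p W₀ y (f i).2 (f i).1) ∂Q := by
    apply lintegral_congr
    intro y
    congr 1
    funext i
    exact hp.Zw_null hnull W y i.1.2 i.1.1 (hFW₀ i.1.1.2)
  rw [h1]
  -- the labels read in the window are i.i.d.
  have hQ' : Q.map (fun y (j : (W₀ × Fin K) ⊕ (W₀ × Fin K)) => y (rd W₀ K j).1 (rd W₀ K j).2) =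
      Measure.pi (fun _ => (volume : Measure unitInterval)) := by
    have hmem : ∀ j, (rd W₀ K j).1 ∈ E₀ := by
      rintro (⟨⟨a, ha⟩, b⟩ | ⟨⟨a, ha⟩, b⟩)
      · exact (Finset.mem_filter.mp ha).2
      · exact (Finset.mem_filter.mp ha).2
    set r : ((W₀ × Fin K) ⊕ (W₀ × Fin K)) → E₀ × ℕ := fun j => (⟨(rd W₀ K j).1, hmem j⟩, (rd W₀ K j).2)
      with hr
    have hrinj : Function.Injective r := by
      intro j j' h
      simp only [hr, Prod.mk.injEq, Subtype.mk.injEq] at h
      exact rd_inj W₀ K (Prod.ext h.1 h.2)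
    have h2 := Measure.map_infinitePi_infinitePi_of_inj
      (P := fun _ : E₀ × ℕ => (volume : Measure unitInterval)) hrinj
    rw [← hQ, Measure.map_map (by fun_prop) (by fun_prop), Measure.infinitePi_eq_pi] at h2
    exact h2
  have h3 := law_window hp W₀ K Q hQ' (fun z => g (fun i : J => z (f i)))
    (hg.comp (by fun_prop))
  rw [h3]
  -- integrals over the i.i.d. labels
  set H : Finset E → ENNReal := fun S => ∫⁻ v : J → unitInterval,
    g (fun i : J => Tf (if ((i.1.1 : E)) ∈ S then 1 else 0) (v i))
      ∂(Measure.infinitePi (fun _ : J => (volume : Measure unitInterval))) with hH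
  have hgm : ∀ S : Finset E, Measurable (fun v : J → unitInterval =>
      g (fun i : J => Tf (if ((i.1.1 : E)) ∈ S then 1 else 0) (v i))) := by
    intro S
    apply hg.comp
    rw [measurable_pi_iff]
    intro i
    exact (measurable_Tf_unit _).comp (measurable_pi_apply i)
  have h4 : ∀ S : Finset E, ∫⁻ v, g (fun i : J => Tf (if (((f i).1 : E)) ∈ S then 1 else 0) (v (f i)))
          ∂(Measure.pi (fun _ : W₀ × Fin K => (volume : Measure unitInterval))) = H S := by
    intro S
    have h5 := Measure.map_infinitePi_infinitePi_of_inj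
      (P := fun _ : W₀ × Fin K => (volume : Measure unitInterval)) hfinj
    simp only [hH]
    rw [← h5, lintegral_map (hgm S) (by fun_prop), Measure.infinitePi_eq_pi]
  have h6 : ∀ S : Finset E, ∫⁻ v, g (fun i : J => chan F S v i) ∂(Measure.infinitePi
          (fun _ : F × ℕ => (volume : Measure unitInterval))) = H S := by
    intro S
    have h5 := Measure.map_infinitePi_infinitePi_of_inj
      (P := fun _ : F × ℕ => (volume : Measure unitInterval)) (f := fun i : J => (i : F × ℕ))
      Subtype.val_injective
    simp only [hH]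
    rw [← h5, lintegral_map (hgm S) (by fun_prop)]
    rfl
  have e2 : ∑ S ∈ F.powerset, ENNReal.ofReal (p F S) *
        ∫⁻ v, g (fun i : J => chan F S v i) ∂(Measure.infinitePi
          (fun _ : F × ℕ => (volume : Measure unitInterval))) =
      ∑ S ∈ F.powerset, ENNReal.ofReal (p F S) * H S :=
    Finset.sum_congr rfl (fun S _ => by rw [h6 S])
  rw [e2]
  refine (Finset.sum_congr rfl (fun S _ => by rw [h4 S]) : _ =
    ∑ S ∈ W₀.powerset, ENNReal.ofReal (p W₀ S) * H S).trans ?_
  apply hp.sum_consistent_enn hFW₀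
  intro S' _
  simp only [hH]
  apply lintegral_congr
  intro v
  congr 1
  funext i
  congr 1
  simp

/-- mixture law of channel outputs -/
noncomputable def mixLaw (p : WinLaw E) (F : Finset E) : Measure ((F × ℕ) → ℝ) :=
  ∑ S ∈ F.powerset, ENNReal.ofReal (p F S) •
    (Measure.infinitePi (fun _ : F × ℕ => (volume : Measure unitInterval))).map (chan F S)

theorem measurable_Zl' [Countable E] (p : WinLaw E) (k : ℕ) (i : E) :
    Measurable (fun y : E → ℕ → unitInterval => Zl p y k i) := by
  have h := measurable_Zl (E := E) k i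
  have h2 : Measurable (fun y : E → ℕ → unitInterval => ((p, y) : WinLaw E × (E → ℕ → unitInterval))) :=
    measurable_const.prodMk measurable_id
  exact h.comp h2

theorem measurable_Zw' (p : WinLaw E) (W : Finset E) (k : ℕ) (i : E) :
    Measurable (fun y : E → ℕ → unitInterval => Zw p W y k i) := by
  have h := measurable_Zw (E := E) W k
  have h2 : Measurable (fun y : E → ℕ → unitInterval => ((p, y) : WinLaw E × (E → ℕ → unitInterval))) :=
    measurable_const.prodMk measurable_id
  exact (measurable_pi_iff.mp (h.comp h2)) i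

theorem law_limit [Countable E] (hp : IsSR p) (E₀ : Set E)
    (hnull : ∀ e, e ∉ E₀ → p {e} {e} = 0)
    (Q : Measure (E → ℕ → unitInterval)) [IsProbabilityMeasure Q]
    (hQ : Q.map (fun y (i : E₀ × ℕ) => y i.1 i.2) =
      Measure.infinitePi (fun _ : E₀ × ℕ => (volume : Measure unitInterval)))
    (F : Finset E) (hF : (F : Set E) ⊆ E₀) :
    Q.map (fun y (i : F × ℕ) => Zl p y i.2 i.1) = mixLaw p F := by
  have hm : Measurable (fun (y : E → ℕ → unitInterval) (i : F × ℕ) => Zl p y i.2 i.1) := by
    rw [measurable_pi_iff]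
    intro i
    exact measurable_Zl' p i.2 i.1
  have hprob : IsProbabilityMeasure (Q.map (fun y (i : F × ℕ) => Zl p y i.2 i.1)) :=
    Measure.isProbabilityMeasure_map hm.aemeasurable
  have key : ∀ J : Finset (F × ℕ), (mixLaw p F).map J.restrict =
      (Q.map (fun y (i : F × ℕ) => Zl p y i.2 i.1)).map J.restrict := by
    intro J
    symm
    have hfin : IsFiniteMeasure ((Q.map (fun y (i : F × ℕ) => Zl p y i.2 i.1)).map J.restrict) :=
      inferInstance
    apply ext_of_forall_lintegral_eq_of_IsFiniteMeasure
    intro g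
    have hgc : Measurable (fun x : J → ℝ => ((g x : ℝ≥0) : ENNReal)) := by
      exact measurable_coe_nnreal_ennreal.comp g.continuous.measurable
    have hJm : Measurable (J.restrict : ((F × ℕ) → ℝ) → (J → ℝ)) := Finset.measurable_restrict J
    have hgJ : Measurable (fun a : (F × ℕ) → ℝ => ((g (J.restrict a) : ℝ≥0) : ENNReal)) := hgc.comp hJm
    rw [lintegral_map hgc hJm, lintegral_map hgJ hm]
    have e1 : ∫⁻ x, ((g x : ℝ≥0) : ENNReal) ∂((mixLaw p F).map J.restrict) =
        ∑ S ∈ F.powerset, ENNReal.ofReal (p F S) *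
        ∫⁻ v, ((g (fun i : J => chan F S v i) : ℝ≥0) : ENNReal) ∂(Measure.infinitePi
          (fun _ : F × ℕ => (volume : Measure unitInterval))) := by
      rw [lintegral_map hgc hJm]
      unfold mixLaw
      rw [lintegral_finset_sum_measure]
      apply Finset.sum_congr rfl
      intro S _
      rw [lintegral_smul_measure, lintegral_map hgJ (measurable_chan F S)]
      rfl
    rw [e1]
    -- convergence of the windows
    have hlim : Tendsto (fun W : Finset E => ∫⁻ y, ((g (fun i : J => Zw p W y i.1.2 i.1.1) : ℝ≥0) : ENNReal) ∂Q)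
        atTop (𝓝 (∫⁻ y, ((g (fun i : J => Zl p y i.1.2 i.1.1) : ℝ≥0) : ENNReal) ∂Q)) := by
      obtain ⟨C, hC⟩ : ∃ C : ℝ≥0, ∀ x, g x ≤ C := by
        refine ⟨nndist g 0, fun x => ?_⟩
        have := g.nndist_coe_le_nndist (g := 0) x
        simpa using this
      apply tendsto_lintegral_filter_of_dominated_convergence (fun _ => (C : ENNReal))
      · apply Eventually.of_forall
        intro W
        apply hgc.comp
        rw [measurable_pi_iff]
        intro i
        exact measurable_Zw' p W i.1.2 i.1.1
      · apply Eventually.of_forall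
        intro W
        apply Eventually.of_forall
        intro y
        exact ENNReal.coe_le_coe.mpr (hC _)
      · simp
      · apply Eventually.of_forall
        intro y
        apply ENNReal.tendsto_coe.mpr
        apply (g.continuous.tendsto _).comp
        rw [tendsto_pi_nhds]
        intro i
        exact tendsto_Zl hp y i.1.2 i.1.1
    refine tendsto_nhds_unique hlim ?_
    apply tendsto_const_nhds.congr'
    filter_upwards [eventually_ge_atTop F] with W hW
    exact (law_window_marginal hp E₀ hnull Q hQ F hF J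
      (fun x => ((g x : ℝ≥0) : ENNReal)) hgc W hW).symm
  have hQL : IsProjectiveLimit (Q.map (fun y (i : F × ℕ) => Zl p y i.2 i.1))
      (fun J => (Q.map (fun y (i : F × ℕ) => Zl p y i.2 i.1)).map J.restrict) := fun J => rfl
  have hML : IsProjectiveLimit (mixLaw p F)
      (fun J => (Q.map (fun y (i : F × ℕ) => Zl p y i.2 i.1)).map J.restrict) := fun J => key J
  exact hQL.unique hML

/-- The factor map. -/
noncomputable def Phi (p : WinLaw E) (y : E → ℕ → unitInterval) (e : E) : Bool :=
  rdg (fun k => Zl p y k e)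

theorem measurable_Phi [Countable E] :
    Measurable (fun q : WinLaw E × (E → ℕ → unitInterval) => Phi q.1 q.2) := by
  rw [measurable_pi_iff]
  intro e
  unfold Phi
  apply measurable_rdg.comp
  rw [measurable_pi_iff]
  intro k
  exact measurable_Zl k e

theorem measurable_Phi_comp [Countable E] {Ω : Type*} [MeasurableSpace Ω] {P : Ω → WinLaw E}
    {Y : Ω → E → ℕ → unitInterval} (hP : Measurable P) (hY : Measurable Y) :
    Measurable (fun ω => Phi (P ω) (Y ω)) := by
  have h1 : Measurable (fun ω => ((P ω, Y ω) : WinLaw E × (E → ℕ → unitInterval))) := hP.prodMk hY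
  have h : Measurable ((fun q : WinLaw E × (E → ℕ → unitInterval) => Phi q.1 q.2) ∘
      (fun ω => ((P ω, Y ω) : WinLaw E × (E → ℕ → unitInterval)))) := Measurable.comp measurable_Phi h1
  exact h

theorem Phi_map (π : E ≃ E) (p : WinLaw E) (y : E → ℕ → unitInterval) :
    Phi (pb' π p) (y ∘ π) = Phi p y ∘ π := by
  funext e
  unfold Phi
  simp only [Function.comp]
  congr 1
  funext k
  exact Zl_map π p y k e

theorem Phi_law [Countable E] (hp : IsSR p) (E₀ : Set E)
    (hnull : ∀ e, e ∉ E₀ → p {e} {e} = 0)
    (Q : Measure (E → ℕ → unitInterval)) [IsProbabilityMeasure Q]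
    (hQ : Q.map (fun y (i : E₀ × ℕ) => y i.1 i.2) =
      Measure.infinitePi (fun _ : E₀ × ℕ => (volume : Measure unitInterval)))
    (F : Finset E) (hF : (F : Set E) ⊆ E₀) :
    Q {y | ∀ e ∈ F, Phi p y e = true} = ENNReal.ofReal (p F F) := by
  have hm : Measurable (fun (y : E → ℕ → unitInterval) (i : F × ℕ) => Zl p y i.2 i.1) := by
    rw [measurable_pi_iff]
    intro i
    exact measurable_Zl' p i.2 i.1
  set A : Set ((F × ℕ) → ℝ) := {z | ∀ e : F, rdg (fun k => z (e, k)) = true} with hA
  have hAm : MeasurableSet A := by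
    have : A = ⋂ e : F, {z : (F × ℕ) → ℝ | rdg (fun k => z (e, k)) = true} := by
      ext z; simp [hA]
    rw [this]
    apply MeasurableSet.iInter
    intro e
    have h1 : Measurable (fun z : (F × ℕ) → ℝ => rdg (fun k => z (e, k))) :=
      measurable_rdg.comp (by fun_prop)
    exact h1 (measurableSet_singleton true)
  have h1 : Q {y | ∀ e ∈ F, Phi p y e = true} =
      (Q.map (fun y (i : F × ℕ) => Zl p y i.2 i.1)) A := by
    rw [Measure.map_apply hm hAm]
    congr 1
    ext y
    simp [hA, Phi]
  rw [h1, law_limit hp E₀ hnull Q hQ F hF]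
  unfold mixLaw
  rw [Measure.finset_sum_apply]
  have h2 : ∀ S ∈ F.powerset, (ENNReal.ofReal (p F S) •
    (Measure.infinitePi (fun _ : F × ℕ => (volume : Measure unitInterval))).map (chan F S)) A =
      if S = F then ENNReal.ofReal (p F S) else 0 := by
    intro S hS
    rw [Measure.smul_apply, Measure.map_apply (measurable_chan F S) hAm, smul_eq_mul]
    have hae : ∀ᵐ v ∂(Measure.infinitePi (fun _ : F × ℕ => (volume : Measure unitInterval))),
        ∀ e : F, rdg (fun k => chan F S v (e, k)) = decide ((e : E) ∈ S) := by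
      rw [ae_all_iff]
      intro e
      exact ae_rdg (fun n : ℕ => ((e, n) : F × ℕ)) (fun a b h => (Prod.mk.injEq _ _ _ _ ▸ h).2) ((e : E) ∈ S)
    split_ifs with hSF
    · subst hSF
      have h3 : (Measure.infinitePi (fun _ : S × ℕ => (volume : Measure unitInterval)))
          (chan S S ⁻¹' A) = 1 := by
        rw [← measure_univ (μ := Measure.infinitePi (fun _ : S × ℕ => (volume : Measure unitInterval)))]
        apply measure_congr
        filter_upwards [hae] with v hv
        refine propext ⟨fun _ => trivial, fun _ => ?_⟩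
        intro e
        rw [hv e]
        simp
      rw [h3, mul_one]
    · have h3 : (Measure.infinitePi (fun _ : F × ℕ => (volume : Measure unitInterval)))
          (chan F S ⁻¹' A) = 0 := by
        obtain ⟨e, heF, heS⟩ : ∃ e ∈ F, e ∉ S := by
          by_contra hcon
          push Not at hcon
          exact hSF (Finset.Subset.antisymm (Finset.mem_powerset.mp hS) hcon)
        rw [← measure_empty (μ := Measure.infinitePi (fun _ : F × ℕ => (volume : Measure unitInterval)))]
        apply measure_congr
        filter_upwards [hae] with v hv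
        refine propext ⟨fun h => ?_, fun h => absurd h (by exact fun h => h)⟩
        have h4 := h ⟨e, heF⟩
        rw [hv ⟨e, heF⟩] at h4
        simp [heS] at h4
      rw [h3, mul_zero]
  rw [Finset.sum_congr rfl h2, Finset.sum_ite_eq' F.powerset F]
  simp

end

end Crest.Agent.FIID
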