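import Mathlib
import Crest.Agent.FIID.Defs

/-!
T3 of row 168: independent uniform edge labels from independent uniform vertex labels.
-/

set_option autoImplicit false

open MeasureTheory Filter Topology
open scoped ENNReal

namespace Crest.Agent.FIID.T3

open Crest.Agent.FIID Crest.ProbabilityR Crest.ProbabilityR.SpanningTrees Crest.ProbabilityR.GraphTables

abbrev I01 : Type := ↥unitInterval

abbrev J : Type := Option (ℕ × ℕ)

open scoped Classical in
/-- number of neighbours of `v` with order label below that of `w`. -/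
@[irreducible] noncomputable def rank (G : SimpleGraph ℕ) (o : ℕ → I01) (v w : ℕ) : ℕ :=
  ⌊(∑' u : ℕ, (if G.Adj v u ∧ o u < o w then (1 : ℝ≥0∞) else 0)).toReal⌋₊

open scoped Classical in
noncomputable def pairLab (G : SimpleGraph ℕ) (o : ℕ → I01) (z : ℕ → ℕ × ℕ → I01) (k : ℕ)
    (v w : ℕ) : I01 :=
  if o w < o v then z v (rank G o v w, k) else if o v < o w then z w (rank G o w v, k) else 0

lemma pairLab_symm (G : SimpleGraph ℕ) (o : ℕ → I01) (z : ℕ → ℕ × ℕ → I01) (k : ℕ)
    (v w : ℕ) : pairLab G o z k v w = pairLab G o z k w v := by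
  unfold pairLab
  rcases lt_trichotomy (o v) (o w) with h | h | h
  · simp [h, not_lt_of_gt h]
  · simp [h]
  · simp [h, not_lt_of_gt h]

noncomputable def edgeLab (G : SimpleGraph ℕ) (o : ℕ → I01) (z : ℕ → ℕ × ℕ → I01)
    (e : Sym2 ℕ) (k : ℕ) : I01 :=
  Sym2.lift ⟨pairLab G o z k, pairLab_symm G o z k⟩ e

@[simp] lemma edgeLab_mk (G : SimpleGraph ℕ) (o : ℕ → I01) (z : ℕ → ℕ × ℕ → I01)
    (v w : ℕ) (k : ℕ) : edgeLab G o z s(v, w) k = pairLab G o z k v w := rfl

lemma rank_comap (σ : Equiv.Perm ℕ) (G : SimpleGraph ℕ) (o : ℕ → I01) (v w : ℕ) :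
    rank (G.comap ⇑σ) (o ∘ ⇑σ) v w = rank G o (σ v) (σ w) := by
  classical
  unfold rank
  congr 2
  rw [← σ.tsum_eq (fun u => if G.Adj (σ v) u ∧ o u < o (σ w) then (1 : ℝ≥0∞) else 0)]
  simp [SimpleGraph.comap_adj]

lemma edgeLab_comap (σ : Equiv.Perm ℕ) (G : SimpleGraph ℕ) (o : ℕ → I01)
    (z : ℕ → ℕ × ℕ → I01) :
    edgeLab (G.comap ⇑σ) (o ∘ ⇑σ) (z ∘ ⇑σ) = edgeLab G o z ∘ Sym2.map ⇑σ := by
  funext e k
  induction e using Sym2.ind with
  | _ v w =>
    simp only [edgeLab_mk, Function.comp_apply, Sym2.map_mk, pairLab, rank_comap]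

lemma graphOfTable_adj (A : ℕ → ℕ → Bool) (v w : ℕ) :
    (graphOfTable A).Adj v w ↔ v ≠ w ∧ (A v w = true ∨ A w v = true) := by
  unfold graphOfTable
  rw [SimpleGraph.fromRel_adj]

lemma measurable_rank (v w : ℕ) :
    Measurable (fun q : (ℕ → ℕ → Bool) × (ℕ → I01) => rank (graphOfTable q.1) q.2 v w) := by
  classical
  unfold rank
  refine Nat.measurable_floor.comp (ENNReal.measurable_toReal.comp ?_)
  refine Measurable.tsum fun u => ?_
  refine Measurable.ite ?_ measurable_const measurable_const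
  simp only [graphOfTable_adj]
  have h1 : Measurable (fun q : (ℕ → ℕ → Bool) × (ℕ → I01) => q.1 v u) := by fun_prop
  have h2 : Measurable (fun q : (ℕ → ℕ → Bool) × (ℕ → I01) => q.1 u v) := by fun_prop
  have h3 : Measurable (fun q : (ℕ → ℕ → Bool) × (ℕ → I01) => q.2 u) := by fun_prop
  have h4 : Measurable (fun q : (ℕ → ℕ → Bool) × (ℕ → I01) => q.2 w) := by fun_prop
  have e1 : MeasurableSet {q : (ℕ → ℕ → Bool) × (ℕ → I01) | q.1 v u = true} :=
    h1 (measurableSet_singleton true)
  have e2 : MeasurableSet {q : (ℕ → ℕ → Bool) × (ℕ → I01) | q.1 u v = true} :=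
    h2 (measurableSet_singleton true)
  have e3 : MeasurableSet {q : (ℕ → ℕ → Bool) × (ℕ → I01) | q.2 u < q.2 w} :=
    measurableSet_lt h3 h4
  exact ((MeasurableSet.const _).inter (e1.union e2)).inter e3

lemma measurable_edgeLab :
    Measurable (fun q : (ℕ → ℕ → Bool) × ((ℕ → I01) × (ℕ → ℕ × ℕ → I01)) =>
      edgeLab (graphOfTable q.1) q.2.1 q.2.2) := by
  classical
  refine measurable_pi_iff.2 fun e => measurable_pi_iff.2 fun k => ?_
  induction e using Sym2.ind with
  | _ v w =>
    simp only [edgeLab_mk, pairLab]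
    have ho : ∀ v, Measurable
        (fun q : (ℕ → ℕ → Bool) × ((ℕ → I01) × (ℕ → ℕ × ℕ → I01)) => q.2.1 v) := by
      intro v; exact (measurable_pi_apply v).comp (measurable_fst.comp measurable_snd)
    have hz : ∀ v w, Measurable
        (fun q : (ℕ → ℕ → Bool) × ((ℕ → I01) × (ℕ → ℕ × ℕ → I01)) =>
          q.2.2 v (rank (graphOfTable q.1) q.2.1 v w, k)) := by
      intro v w
      have hg : Measurable (fun q : (ℕ → ℕ → Bool) × ((ℕ → I01) × (ℕ → ℕ × ℕ → I01)) =>
          ((q.1, q.2.1) : (ℕ → ℕ → Bool) × (ℕ → I01))) :=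
        measurable_fst.prodMk (measurable_fst.comp measurable_snd)
      have hr : Measurable (fun q : (ℕ → ℕ → Bool) × ((ℕ → I01) × (ℕ → ℕ × ℕ → I01)) =>
          rank (graphOfTable q.1) q.2.1 v w) :=
        (measurable_rank v w).comp hg
      have hF : Measurable (fun p : (ℕ → ℕ × ℕ → I01) × ℕ => p.1 v (p.2, k)) := by
        refine measurable_from_prod_countable_left fun r => ?_
        exact (measurable_pi_apply (r, k)).comp (measurable_pi_apply v)
      exact hF.comp ((measurable_snd.comp measurable_snd).prodMk hr)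
    have hlt : ∀ v w, MeasurableSet
        {q : (ℕ → ℕ → Bool) × ((ℕ → I01) × (ℕ → ℕ × ℕ → I01)) | q.2.1 v < q.2.1 w} :=
      fun v w => measurableSet_lt (ho v) (ho w)
    exact Measurable.ite (hlt w v) (hz v w) (Measurable.ite (hlt v w) (hz w v) measurable_const)

/-! ### the law -/

lemma rank_eq_ncard (G : SimpleGraph ℕ) (o : ℕ → I01) (v w : ℕ)
    (hfin : (G.neighborSet v).Finite) :
    rank G o v w = {u | G.Adj v u ∧ o u < o w}.ncard := by
  classical
  have hf : {u | G.Adj v u ∧ o u < o w}.Finite := hfin.subset fun u hu => hu.1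
  unfold rank
  rw [tsum_eq_sum (s := hf.toFinset)]
  · rw [Finset.sum_congr rfl (g := fun _ => (1 : ℝ≥0∞))]
    · simp [Set.ncard_eq_toFinset_card _ hf]
    · intro u hu
      rw [Set.Finite.mem_toFinset] at hu
      exact if_pos hu
  · intro u hu
    rw [Set.Finite.mem_toFinset] at hu
    exact if_neg hu

lemma rank_lt (G : SimpleGraph ℕ) (o : ℕ → I01) (v w w' : ℕ)
    (hfin : (G.neighborSet v).Finite) (hw : G.Adj v w) (hlt : o w < o w') :
    rank G o v w < rank G o v w' := by
  rw [rank_eq_ncard G o v w hfin, rank_eq_ncard G o v w' hfin]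
  refine Set.ncard_lt_ncard ?_ (hfin.subset fun u hu => hu.1)
  refine ⟨fun u hu => ⟨hu.1, hu.2.trans hlt⟩, fun h => ?_⟩
  have := h (show w ∈ {u | G.Adj v u ∧ o u < o w'} from ⟨hw, hlt⟩)
  exact lt_irrefl _ this.2

lemma rank_inj (G : SimpleGraph ℕ) (o : ℕ → I01) (ho : Function.Injective o) (v w w' : ℕ)
    (hfin : (G.neighborSet v).Finite) (hw : G.Adj v w) (hw' : G.Adj v w')
    (h : rank G o v w = rank G o v w') : w = w' := by
  by_contra hne
  rcases lt_or_gt_of_ne (fun h' => hne (ho h') : o w ≠ o w') with h1 | h1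
  · exact absurd h (rank_lt G o v w w' hfin hw h1).ne
  · exact absurd h (rank_lt G o v w' w hfin hw' h1).ne'

/-- For injective `o`, each edge has a slot `(owner, rank)`, injectively, and its labels are the
labels of the slot. -/
lemma exists_slot (G : SimpleGraph ℕ) (hG : ∀ v, (G.neighborSet v).Finite)
    (o : ℕ → I01) (ho : Function.Injective o) :
    ∃ f : G.edgeSet → ℕ × ℕ, Function.Injective f ∧
      ∀ (z : ℕ → ℕ × ℕ → I01) (e : G.edgeSet) (k : ℕ),
        edgeLab G o z e k = z (f e).1 ((f e).2, k) := by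
  have key : ∀ e : G.edgeSet, ∃ v w, G.Adj v w ∧ o w < o v ∧ (e : Sym2 ℕ) = s(v, w) := by
    rintro ⟨e, he⟩
    induction e using Sym2.ind with
    | _ v w =>
      have hadj : G.Adj v w := he
      rcases lt_or_gt_of_ne (fun h' => hadj.ne (ho h') : o v ≠ o w) with h1 | h1
      · exact ⟨w, v, hadj.symm, h1, Sym2.eq_swap⟩
      · exact ⟨v, w, hadj, h1, rfl⟩
  choose a b hab hlt he using key
  refine ⟨fun e => (a e, rank G o (a e) (b e)), ?_, ?_⟩
  · intro e e' h
    simp only [Prod.mk.injEq] at h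
    obtain ⟨h1, h2⟩ := h
    rw [← h1] at h2
    have h3 : b e = b e' := rank_inj G o ho (a e) (b e) (b e') (hG _) (hab e)
      (by rw [h1]; exact hab e') h2
    apply Subtype.ext
    rw [he e, he e', h1, h3]
  · intro z e k
    rw [he e, edgeLab_mk, pairLab, if_pos (hlt e)]

/-- The measure on order labels and slot labels. -/
noncomputable def base : Measure ((ℕ → I01) × (ℕ × (ℕ × ℕ) → I01)) :=
  (Measure.infinitePi fun _ : ℕ => (volume : Measure I01)).prod
    (Measure.infinitePi fun _ : ℕ × (ℕ × ℕ) => (volume : Measure I01))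

instance : IsProbabilityMeasure base := by unfold base; infer_instance

def join (p : (ℕ → I01) × (ℕ × (ℕ × ℕ) → I01)) : ℕ × J → I01 := fun i =>
  match i.2 with
  | none => p.1 i.1
  | some r => p.2 (i.1, r)

lemma measurable_join : Measurable join := by
  refine measurable_pi_iff.2 fun i => ?_
  rcases i with ⟨v, _ | r⟩
  · exact (measurable_pi_apply v).comp measurable_fst
  · exact (measurable_pi_apply (v, r)).comp measurable_snd

lemma map_join : base.map join = Measure.infinitePi fun _ : ℕ × J => (volume : Measure I01) := by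
  classical
  refine Measure.eq_infinitePi _ fun s t ht => ?_
  rw [Measure.map_apply measurable_join (.pi s.countable_toSet fun _ _ => ht _)]
  have inj1 : Function.Injective (fun v : ℕ => ((v, none) : ℕ × J)) := by
    intro a b h; simpa using h
  have inj2 : Function.Injective (fun q : ℕ × (ℕ × ℕ) => ((q.1, some q.2) : ℕ × J)) := by
    intro a b h
    simp only [Prod.mk.injEq, Option.some.injEq] at h
    exact Prod.ext h.1 h.2
  obtain ⟨s1, hs1⟩ : ∃ s1 : Finset ℕ, ∀ v, v ∈ s1 ↔ ((v, none) : ℕ × J) ∈ s :=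
    ⟨s.preimage (fun v => (v, none)) inj1.injOn, fun v => Finset.mem_preimage⟩
  obtain ⟨s2, hs2⟩ : ∃ s2 : Finset (ℕ × (ℕ × ℕ)), ∀ q, q ∈ s2 ↔ ((q.1, some q.2) : ℕ × J) ∈ s :=
    ⟨s.preimage (fun q => (q.1, some q.2)) inj2.injOn, fun v => Finset.mem_preimage⟩
  have hpre : join ⁻¹' (Set.pi (s : Set (ℕ × J)) t) =
      (Set.pi (s1 : Set ℕ) fun v => t (v, none)) ×ˢ
      (Set.pi (s2 : Set (ℕ × (ℕ × ℕ))) fun q => t (q.1, some q.2)) := by
    ext p
    simp only [Set.mem_preimage, Set.mem_pi, Finset.mem_coe, Set.mem_prod, hs1, hs2, join]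
    constructor
    · intro h
      exact ⟨fun v hv => h (v, none) hv, fun q hq => h (q.1, some q.2) hq⟩
    · rintro ⟨h1, h2⟩ ⟨v, _ | r⟩ hi
      · exact h1 v hi
      · exact h2 (v, r) hi
  rw [hpre, base, Measure.prod_prod, Measure.infinitePi_pi _ (fun _ _ => ht _),
    Measure.infinitePi_pi _ (fun _ _ => ht _)]
  have hs : s = s1.image (fun v => ((v, none) : ℕ × J)) ∪
      s2.image (fun q => ((q.1, some q.2) : ℕ × J)) := by
    ext ⟨v, _ | r⟩
    · simp [hs1]
    · simp [hs2]
  have hd : Disjoint (s1.image (fun v => ((v, none) : ℕ × J)))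
      (s2.image (fun q => ((q.1, some q.2) : ℕ × J))) := by
    rw [Finset.disjoint_left]
    simp
  rw [hs, Finset.prod_union hd, Finset.prod_image inj1.injOn, Finset.prod_image inj2.injOn]

lemma ae_injective : ∀ᵐ o ∂(Measure.infinitePi fun _ : ℕ => (volume : Measure I01)),
    Function.Injective o := by
  have key : ∀ v w : ℕ, v ≠ w →
      ∀ᵐ o ∂(Measure.infinitePi fun _ : ℕ => (volume : Measure I01)), o v ≠ o w := by
    intro v w hvw
    have h1 := Measure.infinitePi_map_eval_prod (P := fun _ : ℕ => (volume : Measure I01)) hvw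
    have h2 : ((volume : Measure I01).prod (volume : Measure I01)) {p | p.1 = p.2} = 0 := by
      rw [Measure.measure_prod_null (measurableSet_eq_fun measurable_fst measurable_snd)]
      refine Eventually.of_forall fun a => ?_
      have : (Prod.mk a ⁻¹' {p : I01 × I01 | p.1 = p.2}) = {a} := by
        ext b; simp [eq_comm]
      change (volume : Measure I01) (Prod.mk a ⁻¹' {p : I01 × I01 | p.1 = p.2}) = 0
      rw [this]
      simp
    rw [← h1, Measure.map_apply (by fun_prop)
      (measurableSet_eq_fun measurable_fst measurable_snd)] at h2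
    rw [ae_iff]
    simpa using h2
  have : ∀ᵐ o ∂(Measure.infinitePi fun _ : ℕ => (volume : Measure I01)),
      ∀ v w : ℕ, v ≠ w → o v ≠ o w := by
    rw [ae_all_iff]; intro v
    rw [ae_all_iff]; intro w
    by_cases h : v = w
    · simp [h]
    · simpa [h] using key v w h
  filter_upwards [this] with o ho
  intro v w h
  by_contra hne
  exact ho v w hne h

lemma exists_table (G : SimpleGraph ℕ) : ∃ A, graphOfTable A = G := by
  classical
  refine ⟨tableOf G, ?_⟩
  ext v w
  rw [graphOfTable_adj]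
  simp only [tableOf, decide_eq_true_eq]
  constructor
  · rintro ⟨_, h | h⟩
    · exact h
    · exact h.symm
  · intro h
    exact ⟨h.ne, Or.inl h⟩

lemma measurable_edgeLab_fixed (G : SimpleGraph ℕ) :
    Measurable (fun (q : ℕ × J → I01) (i : G.edgeSet × ℕ) =>
      edgeLab G (fun v => q (v, none)) (fun v r => q (v, some r)) i.1 i.2) := by
  obtain ⟨A, hA⟩ := exists_table G
  have h1 : Measurable (fun q : ℕ × J → I01 =>
      ((A, ((fun v => q (v, none)), fun v r => q (v, some r))) :
        (ℕ → ℕ → Bool) × ((ℕ → I01) × (ℕ → ℕ × ℕ → I01)))) := by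
    refine measurable_const.prodMk (Measurable.prodMk ?_ ?_)
    · exact measurable_pi_iff.2 fun v => measurable_pi_apply _
    · exact measurable_pi_iff.2 fun v => measurable_pi_iff.2 fun r => measurable_pi_apply _
  have h2 := measurable_edgeLab.comp h1
  refine measurable_pi_iff.2 fun i => ?_
  have h3 := (measurable_pi_apply i.2).comp ((measurable_pi_apply (i.1 : Sym2 ℕ)).comp h2)
  simpa [Function.comp_def, hA] using h3

/-- The law of the edge labels for a fixed locally finite graph. -/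
lemma law_base (G : SimpleGraph ℕ) (hG : ∀ v, (G.neighborSet v).Finite) :
    base.map (fun p (i : G.edgeSet × ℕ) =>
      edgeLab G p.1 (fun v r => p.2 (v, r)) i.1 i.2) =
    Measure.infinitePi (fun _ : G.edgeSet × ℕ => (volume : Measure I01)) := by
  classical
  have hmeas : Measurable (fun (p : (ℕ → I01) × (ℕ × (ℕ × ℕ) → I01)) (i : G.edgeSet × ℕ) =>
      edgeLab G p.1 (fun v r => p.2 (v, r)) i.1 i.2) :=
    (measurable_edgeLab_fixed G).comp measurable_join
  refine Measure.eq_infinitePi _ fun s t ht => ?_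
  have hbox : MeasurableSet (Set.pi (s : Set (G.edgeSet × ℕ)) t) :=
    .pi s.countable_toSet fun _ _ => ht _
  rw [Measure.map_apply hmeas hbox, base, Measure.prod_apply (hmeas hbox)]
  have hae : ∀ᵐ o ∂(Measure.infinitePi fun _ : ℕ => (volume : Measure I01)),
      (Measure.infinitePi fun _ : ℕ × (ℕ × ℕ) => (volume : Measure I01))
        (Prod.mk o ⁻¹' ((fun (p : (ℕ → I01) × (ℕ × (ℕ × ℕ) → I01)) (i : G.edgeSet × ℕ) =>
      edgeLab G p.1 (fun v r => p.2 (v, r)) i.1 i.2) ⁻¹' (Set.pi (s : Set (G.edgeSet × ℕ)) t)))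
      = ∏ i ∈ s, (volume : Measure I01) (t i) := by
    filter_upwards [ae_injective] with o ho
    obtain ⟨f, hf, hslot⟩ := exists_slot G hG o ho
    have hinj : Function.Injective (fun i : G.edgeSet × ℕ => ((f i.1).1, ((f i.1).2, i.2))) := by
      intro i j h
      simp only [Prod.mk.injEq] at h
      exact Prod.ext (hf (Prod.ext h.1 h.2.1)) h.2.2
    have hset : (Prod.mk o ⁻¹' ((fun (p : (ℕ → I01) × (ℕ × (ℕ × ℕ) → I01)) (i : G.edgeSet × ℕ) =>
        edgeLab G p.1 (fun v r => p.2 (v, r)) i.1 i.2) ⁻¹'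
          (Set.pi (s : Set (G.edgeSet × ℕ)) t))) =
        (fun (z : ℕ × (ℕ × ℕ) → I01) (i : G.edgeSet × ℕ) =>
          z ((f i.1).1, ((f i.1).2, i.2))) ⁻¹' (Set.pi (s : Set (G.edgeSet × ℕ)) t) := by
      ext z
      simp only [Set.mem_preimage, Set.mem_pi, Finset.mem_coe, hslot]
    rw [hset, ← Measure.map_apply (by fun_prop) hbox,
      Measure.map_infinitePi_infinitePi_of_inj (P := fun _ : ℕ × (ℕ × ℕ) => (volume : Measure I01))
        hinj, Measure.infinitePi_pi _ (fun _ _ => ht _)]
  rw [lintegral_congr_ae hae]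
  simp

theorem exists_edge_labels :
    ∃ Y : SimpleGraph ℕ → (ℕ → unitInterval) → (Sym2 ℕ → ℕ → unitInterval),
      Measurable (fun q : (ℕ → ℕ → Bool) × (ℕ → unitInterval) => Y (graphOfTable q.1) q.2) ∧
      (∀ (σ : Equiv.Perm ℕ) (G : SimpleGraph ℕ) (x : ℕ → unitInterval),
        Y (G.comap ⇑σ) (x ∘ ⇑σ) = Y G x ∘ Sym2.map ⇑σ) ∧
      ∀ G : SimpleGraph ℕ, (∀ v : ℕ, (G.neighborSet v).Finite) →
        (Crest.ProbabilityR.Labels.labelMeasure ℕ).map
            (fun x (i : G.edgeSet × ℕ) => Y G x i.1 i.2) =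
          Measure.infinitePi (fun _ : G.edgeSet × ℕ => (volume : Measure unitInterval)) := by
  classical
  obtain ⟨ψ, hψ, hψm⟩ := MeasureTheory.Measure.exists_measurable_map_eq
    (Measure.infinitePi fun _ : J => (volume : Measure I01))
  refine ⟨fun G x => edgeLab G (fun v => ψ (x v) none) (fun v r => ψ (x v) (some r)),
    ?_, ?_, ?_⟩
  · have h1 : Measurable (fun q : (ℕ → ℕ → Bool) × (ℕ → I01) =>
        ((q.1, ((fun v => ψ (q.2 v) none), fun v r => ψ (q.2 v) (some r))) :
          (ℕ → ℕ → Bool) × ((ℕ → I01) × (ℕ → ℕ × ℕ → I01)))) := by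
      have h0 : ∀ v, Measurable (fun q : (ℕ → ℕ → Bool) × (ℕ → I01) => ψ (q.2 v)) := fun v =>
        hψ.comp ((measurable_pi_apply v).comp measurable_snd)
      refine measurable_fst.prodMk ((measurable_pi_iff.2 fun v => ?_).prodMk
        (measurable_pi_iff.2 fun v => measurable_pi_iff.2 fun r => ?_))
      · exact (measurable_pi_apply _).comp (h0 v)
      · exact (measurable_pi_apply _).comp (h0 v)
    exact measurable_edgeLab.comp h1
  · intro σ G x
    exact edgeLab_comap σ G (fun v => ψ (x v) none) (fun v r => ψ (x v) (some r))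
  · intro G hG
    rw [← law_base G hG]
    have e1 : base.map (fun p (i : G.edgeSet × ℕ) =>
        edgeLab G p.1 (fun v r => p.2 (v, r)) i.1 i.2) =
        (Measure.infinitePi fun _ : ℕ × J => (volume : Measure I01)).map
          (fun (q : ℕ × J → I01) (i : G.edgeSet × ℕ) =>
            edgeLab G (fun v => q (v, none)) (fun v r => q (v, some r)) i.1 i.2) := by
      rw [← map_join, Measure.map_map (measurable_edgeLab_fixed G) measurable_join]
      rfl
    have e2 : (Measure.infinitePi fun _ : ℕ × J => (volume : Measure I01)) =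
        (Crest.ProbabilityR.Labels.labelMeasure ℕ).map
          (fun (x : ℕ → I01) (i : ℕ × J) => ψ (x i.1) i.2) := by
      have h1 := Measure.infinitePi_map_pi (μ := fun _ : ℕ => (volume : Measure I01))
        (f := fun _ : ℕ => ψ) (fun _ => hψ)
      rw [hψm] at h1
      have h2 := Measure.infinitePi_map_curry_symm
        (μ := fun (_ : ℕ) (_ : J) => (volume : Measure I01))
      rw [← h2, ← h1, Measure.map_map (by fun_prop) (by fun_prop)]
      rfl
    rw [e1, e2, Measure.map_map (measurable_edgeLab_fixed G) (by fun_prop)]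
    rfl

end Crest.Agent.FIID.T3
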