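import Mathlib
import Crest.Agent.FIID.Law
import Crest.Agent.FIID.T3

/-!
Assembly of S0254 from the factor theorem, edge labels and a window law of the free uniform
spanning forest.
-/

set_option autoImplicit false

open Filter Topology MeasureTheory

namespace Crest.Agent.FIID

open Crest.ProbabilityR Crest.ProbabilityR.SpanningTrees Crest.ProbabilityR.GraphTables

attribute [local irreducible] Phi

/-- relabelling of unordered pairs -/
def sym2Equiv (σ : Equiv.Perm ℕ) : Sym2 ℕ ≃ Sym2 ℕ where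
  toFun := Sym2.map ⇑σ
  invFun := Sym2.map ⇑σ.symm
  left_inv e := by
    rw [Sym2.map_map]
    have : (⇑σ.symm ∘ ⇑σ) = id := by funext x; simp
    rw [this, Sym2.map_id]
    rfl
  right_inv e := by
    rw [Sym2.map_map]
    have : (⇑σ ∘ ⇑σ.symm) = id := by funext x; simp
    rw [this, Sym2.map_id]
    rfl

theorem graphOfTable_tableOf (G : SimpleGraph ℕ) : graphOfTable (tableOf G) = G := by
  ext i j
  unfold graphOfTable tableOf
  simp only [SimpleGraph.fromRel_adj, decide_eq_true_eq]
  constructor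
  · rintro ⟨_, h | h⟩
    · exact h
    · exact h.symm
  · intro h
    exact ⟨h.ne, Or.inl h⟩

open scoped Classical in
theorem assemble
    (hT4 : ∃ P : SimpleGraph ℕ → WinLaw (Sym2 ℕ),
      Measurable (fun A : ℕ → ℕ → Bool => P (graphOfTable A)) ∧
      (∀ (σ : Equiv.Perm ℕ) (G : SimpleGraph ℕ) (W R : Finset (Sym2 ℕ)),
        P (G.comap ⇑σ) W R =
          P G (W.image (Sym2.map ⇑σ)) (R.image (Sym2.map ⇑σ))) ∧
      ∀ G : SimpleGraph ℕ, G.Connected → (∀ v : ℕ, (G.neighborSet v).Finite) →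
        IsSR (P G) ∧ (∀ e, e ∉ G.edgeSet → P G {e} {e} = 0) ∧
        ∀ S : ℕ → Finset ℕ, Monotone S → (∀ v : ℕ, ∃ n, v ∈ S n) →
          (∀ n, (G.induce (S n : Set ℕ)).Connected) →
          ∀ F : Finset (Sym2 ℕ), (F : Set (Sym2 ℕ)) ⊆ G.edgeSet →
            Tendsto (fun n => ustContains G (S n) F) atTop (𝓝 (P G F F))) :
    ∃ Φ : SimpleGraph ℕ → (ℕ → unitInterval) → (Sym2 ℕ → Bool),
      Measurable (fun p : (ℕ → ℕ → Bool) × (ℕ → unitInterval) =>
          Φ (Crest.ProbabilityR.GraphTables.graphOfTable p.1) p.2) ∧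
      (∀ (σ : Equiv.Perm ℕ) (G : SimpleGraph ℕ) (x : ℕ → unitInterval),
          Φ (G.comap ⇑σ) (x ∘ ⇑σ) = Φ G x ∘ Sym2.map ⇑σ) ∧
      ∀ G : SimpleGraph ℕ, G.Connected → (∀ v : ℕ, (G.neighborSet v).Finite) →
        ∀ S : ℕ → Finset ℕ, Monotone S → (∀ v : ℕ, ∃ n, v ∈ S n) →
          (∀ n, (G.induce (S n : Set ℕ)).Connected) →
          ∀ F : Finset (Sym2 ℕ), (↑F : Set (Sym2 ℕ)) ⊆ G.edgeSet →
            Filter.Tendsto (fun n => Crest.ProbabilityR.SpanningTrees.ustContains G (S n) F) Filter.atTop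
              (nhds (((Crest.ProbabilityR.Labels.labelMeasure ℕ).map (Φ G) {ω | ∀ e ∈ F, ω e = true}).toReal)) := by
  obtain ⟨P, hPm, hPσ, hP⟩ := hT4
  obtain ⟨Y, hYm, hYσ, hY⟩ := T3.exists_edge_labels
  have hΦm : Measurable (fun q : (ℕ → ℕ → Bool) × (ℕ → unitInterval) =>
      Phi (P (graphOfTable q.1)) (Y (graphOfTable q.1) q.2)) :=
    measurable_Phi_comp (P := fun q : (ℕ → ℕ → Bool) × (ℕ → unitInterval) => P (graphOfTable q.1))
      (Y := fun q : (ℕ → ℕ → Bool) × (ℕ → unitInterval) => Y (graphOfTable q.1) q.2)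
      (hPm.comp measurable_fst) hYm
  refine ⟨fun G x => Phi (P G) (Y G x), hΦm, ?_, ?_⟩
  · intro σ G x
    have h1 : P (G.comap ⇑σ) = pb' (sym2Equiv σ) (P G) := by
      funext W R
      rw [hPσ]
      unfold pb'
      rw [Finset.map_eq_image, Finset.map_eq_image]
      rfl
    have h2 : Y (G.comap ⇑σ) (x ∘ ⇑σ) = Y G x ∘ sym2Equiv σ := hYσ σ G x
    show Phi (P (G.comap ⇑σ)) (Y (G.comap ⇑σ) (x ∘ ⇑σ)) = _
    rw [h1, h2, Phi_map]
    rfl
  · intro G hconn hlf S hmono hexh hSconn F hF
    obtain ⟨hSR, hnull, hlim⟩ := hP G hconn hlf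
    have hprobL : IsProbabilityMeasure (Crest.ProbabilityR.Labels.labelMeasure ℕ) := by
      unfold Crest.ProbabilityR.Labels.labelMeasure
      infer_instance
    have hYG : Measurable (fun x : ℕ → unitInterval => Y G x) := by
      have h1 : Measurable (fun x : ℕ → unitInterval =>
          ((tableOf G, x) : (ℕ → ℕ → Bool) × (ℕ → unitInterval))) :=
        measurable_const.prodMk measurable_id
      have h2 := hYm.comp h1
      have h3 : (fun x : ℕ → unitInterval => Y G x) =
          (fun q : (ℕ → ℕ → Bool) × (ℕ → unitInterval) => Y (graphOfTable q.1) q.2) ∘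
          (fun x : ℕ → unitInterval =>
          ((tableOf G, x) : (ℕ → ℕ → Bool) × (ℕ → unitInterval))) := by
        funext x
        simp only [Function.comp, graphOfTable_tableOf]
      rw [h3]
      exact h2
    have hQprob : IsProbabilityMeasure ((Crest.ProbabilityR.Labels.labelMeasure ℕ).map (Y G)) :=
      Measure.isProbabilityMeasure_map hYG.aemeasurable
    have hQ : ((Crest.ProbabilityR.Labels.labelMeasure ℕ).map (Y G)).map
        (fun y (i : G.edgeSet × ℕ) => y i.1 i.2) =
        Measure.infinitePi (fun _ : G.edgeSet × ℕ => (volume : Measure unitInterval)) := by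
      rw [Measure.map_map (by fun_prop) hYG, ← hY G hlf]
      rfl
    have h3 := Phi_law hSR G.edgeSet hnull _ hQ F hF
    have hmeasF : MeasurableSet {ω : Sym2 ℕ → Bool | ∀ e ∈ F, ω e = true} := by
      have : {ω : Sym2 ℕ → Bool | ∀ e ∈ F, ω e = true} = ⋂ e ∈ F, {ω : Sym2 ℕ → Bool | ω e = true} := by
        ext ω; simp
      rw [this]
      apply Finset.measurableSet_biInter
      intro i _
      have hmi : Measurable (fun ω : Sym2 ℕ → Bool => ω i) := measurable_pi_apply i
      exact hmi (measurableSet_singleton true)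
    have hPm' : Measurable (fun y : Sym2 ℕ → ℕ → unitInterval => Phi (P G) y) :=
      measurable_Phi_comp (P := fun _ => P G) measurable_const measurable_id
    have hms : MeasurableSet {y : Sym2 ℕ → ℕ → unitInterval | ∀ e ∈ F, Phi (P G) y e = true} :=
      hPm' hmeasF
    have hΦG : Measurable (fun x : ℕ → unitInterval => Phi (P G) (Y G x)) :=
      measurable_Phi_comp (P := fun _ => P G) measurable_const hYG
    rw [Measure.map_apply hYG hms] at h3
    have h4 : ((Crest.ProbabilityR.Labels.labelMeasure ℕ).map (fun x => Phi (P G) (Y G x)))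
        {ω | ∀ e ∈ F, ω e = true} = ENNReal.ofReal (P G F F) := by
      rw [Measure.map_apply hΦG hmeasF]
      exact h3
    have h5 : (((Crest.ProbabilityR.Labels.labelMeasure ℕ).map (fun x => Phi (P G) (Y G x)))
        {ω | ∀ e ∈ F, ω e = true}).toReal = P G F F := by
      rw [h4, ENNReal.toReal_ofReal (hSR.nonneg F F (Finset.Subset.refl F))]
    have h6 := hlim S hmono hexh hSconn F hF
    rw [← h5] at h6
    exact h6

end Crest.Agent.FIID
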