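import Mathlib
import Crest.Agent.FIID.WindowProps

/-!
Negative dependence for stable weights.
-/

set_option autoImplicit false

open Filter Topology

namespace Crest.Agent.FIID

open scoped Classical in
/-- Negative dependence for a stable nonnegative weight. -/
theorem negdep_set {E : Type*} (W : Finset E) (w : Finset E → ℝ) (hw : ∀ S, S ⊆ W → 0 ≤ w S)
    (hst : ∀ z : E → ℂ, (∀ i ∈ W, 0 < (z i).im) →
      ∑ S ∈ W.powerset, (w S : ℂ) * ∏ i ∈ S, z i ≠ 0)
    (F : Finset E) (hF : F ⊆ W) (g : E) (hg : g ∈ W) (hgF : g ∉ F) :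
    (∑ S ∈ W.powerset.filter (fun S => insert g F ⊆ S), w S) * (∑ S ∈ W.powerset, w S) ≤
      (∑ S ∈ W.powerset.filter (fun S => F ⊆ S), w S) *
        (∑ S ∈ W.powerset.filter (fun S => g ∈ S), w S) := by
  have _ := hF
  have _ := hg
  rcases (Finset.sum_nonneg (fun S hS => hw S (Finset.mem_powerset.mp hS)) :
    0 ≤ ∑ S ∈ W.powerset, w S).lt_or_eq with hpos | hzero
  swap
  · rw [← hzero, mul_zero]
    apply mul_nonneg
    · exact Finset.sum_nonneg (fun S hS => hw S (Finset.mem_powerset.mp (Finset.mem_filter.mp hS).1))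
    · exact Finset.sum_nonneg (fun S hS => hw S (Finset.mem_powerset.mp (Finset.mem_filter.mp hS).1))
  have hP : Pos W w := ⟨hw, hpos⟩
  -- the inequality for finite tilt
  have key : ∀ t : ℝ, 0 ≤ t →
      (∑ S ∈ W.powerset.filter (fun S => g ∈ S), w S * Real.exp (t * (((S ∩ F).card : ℝ) - F.card))) *
        (∑ S ∈ W.powerset, w S) ≤
      (∑ S ∈ W.powerset, w S * Real.exp (t * (((S ∩ F).card : ℝ) - F.card))) *
        (∑ S ∈ W.powerset.filter (fun S => g ∈ S), w S) := by
    intro t ht
    have h1 := mg_addOn_anti (g := fun _ => 0) (e := g) hP hst hgF t ht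
    unfold mg at h1
    rw [div_le_div_iff₀ (Zf_pos hP _) (Zf_pos hP _)] at h1
    have ewt : ∀ S : Finset E, wt (addOn (fun _ => 0) F t) S =
        Real.exp (t * F.card) * Real.exp (t * (((S ∩ F).card : ℝ) - F.card)) := by
      intro S
      rw [wt_addOn, ← Real.exp_add, ← Real.exp_nat_mul]
      have : wt (fun _ : E => (0:ℝ)) S = 1 := by unfold wt; simp
      rw [this, one_mul]
      congr 1
      ring
    have ewt0 : ∀ S : Finset E, wt (fun _ : E => (0:ℝ)) S = 1 := by
      intro S; unfold wt; simp
    unfold Nf Zf at h1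
    simp only [ewt, ewt0, mul_one] at h1
    have e1 : ∀ T : Finset (Finset E), ∑ S ∈ T, w S * (Real.exp (t * F.card) *
        Real.exp (t * (((S ∩ F).card : ℝ) - F.card))) = Real.exp (t * F.card) *
        ∑ S ∈ T, w S * Real.exp (t * (((S ∩ F).card : ℝ) - F.card)) := by
      intro T
      rw [Finset.mul_sum]
      apply Finset.sum_congr rfl
      intro S _
      ring
    rw [e1, e1] at h1
    have hexp := Real.exp_pos (t * F.card)
    have h2 : Real.exp (t * F.card) * ((∑ S ∈ W.powerset.filter (fun S => g ∈ S), w S * Real.exp (t * (((S ∩ F).card : ℝ) - F.card))) *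
        (∑ S ∈ W.powerset, w S)) ≤ Real.exp (t * F.card) * ((∑ S ∈ W.powerset, w S * Real.exp (t * (((S ∩ F).card : ℝ) - F.card))) *
        (∑ S ∈ W.powerset.filter (fun S => g ∈ S), w S)) := by linarith
    exact le_of_mul_le_mul_left h2 hexp
  -- limits
  have hlim : ∀ T : Finset (Finset E), Tendsto (fun t : ℝ => ∑ S ∈ T, w S * Real.exp (t * (((S ∩ F).card : ℝ) - F.card)))
      atTop (𝓝 (∑ S ∈ T, if F ⊆ S then w S else 0)) := by
    intro T
    apply tendsto_finsetSum
    intro S _
    split_ifs with hFS
    · have : S ∩ F = F := Finset.inter_eq_right.mpr hFS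
      rw [this]
      simp
    · have hlt : (S ∩ F).card < F.card := by
        apply Finset.card_lt_card
        refine ⟨Finset.inter_subset_right, fun h => hFS ?_⟩
        exact h.trans Finset.inter_subset_left
      have hneg : (((S ∩ F).card : ℝ) - F.card) < 0 := by
        have : ((S ∩ F).card : ℝ) < F.card := by exact_mod_cast hlt
        linarith
      have h1 : Tendsto (fun t : ℝ => Real.exp (t * (((S ∩ F).card : ℝ) - F.card))) atTop (𝓝 0) := by
        apply Real.tendsto_exp_atBot.comp
        exact tendsto_id.atTop_mul_const_of_neg hneg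
      simpa using h1.const_mul (w S)
  have hl := (hlim (W.powerset.filter (fun S => g ∈ S))).mul_const (∑ S ∈ W.powerset, w S)
  have hr := (hlim W.powerset).mul_const (∑ S ∈ W.powerset.filter (fun S => g ∈ S), w S)
  have hfin := le_of_tendsto_of_tendsto hl hr (by
    filter_upwards [eventually_ge_atTop 0] with t ht
    exact key t ht)
  rw [← Finset.sum_filter, ← Finset.sum_filter, Finset.filter_filter] at hfin
  have e2 : W.powerset.filter (fun S => insert g F ⊆ S) = W.powerset.filter (fun S => g ∈ S ∧ F ⊆ S) := by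
    apply Finset.filter_congr
    intro S _
    rw [Finset.insert_subset_iff]
  rw [e2]
  exact hfin

end Crest.Agent.FIID
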