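import Mathlib
import Crest.Agent.FIID.Law
import Crest.Prelude.Def_StronglyRayleigh

/-!
The window law of a strongly Rayleigh probability law.
-/

set_option autoImplicit false

open Filter Topology MeasureTheory

namespace Crest.Agent.FIID

open scoped Classical

/-- cylinder -/
def cyl {E : Type*} (W S : Finset E) : Set (E → Bool) := {ω | ∀ i ∈ W, (ω i = true ↔ i ∈ S)}

theorem measurableSet_cyl {E : Type*} (W S : Finset E) : MeasurableSet (cyl W S) := by
  have : cyl W S = ⋂ i ∈ W, {ω : E → Bool | (ω i = true ↔ i ∈ S)} := by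
    ext ω; simp [cyl]
  rw [this]
  apply Finset.measurableSet_biInter
  intro i _
  have h1 : {ω : E → Bool | (ω i = true ↔ i ∈ S)} = (fun ω : E → Bool => ω i) ⁻¹' {b | b = true ↔ i ∈ S} := rfl
  rw [h1]
  exact (measurable_pi_apply i) (MeasurableSet.of_discrete)

/-- window law of a measure -/
noncomputable def winOf {E : Type*} (ν : Measure (E → Bool)) : WinLaw E :=
  fun W S => (ν (cyl W S)).toReal

theorem winOf_consistent {E : Type*} (ν : Measure (E → Bool)) [IsProbabilityMeasure ν]
    (W W' : Finset E) (hW : W ⊆ W') (S : Finset E) (hS : S ⊆ W) :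
    winOf ν W S = ∑ S' ∈ W'.powerset.filter (fun S' => S' ∩ W = S), winOf ν W' S' := by
  unfold winOf
  rw [← ENNReal.toReal_sum (fun _ _ => measure_ne_top _ _)]
  congr 1
  rw [← measure_biUnion_finset]
  · congr 1
    ext ω
    simp only [Set.mem_iUnion]
    constructor
    · intro h
      refine ⟨W'.filter (fun i => ω i = true), ?_, ?_⟩
      · rw [Finset.mem_filter, Finset.mem_powerset]
        refine ⟨Finset.filter_subset _ _, ?_⟩
        ext i
        rw [Finset.mem_inter, Finset.mem_filter]
        constructor
        · rintro ⟨⟨_, h1⟩, h2⟩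
          exact (h i h2).mp h1
        · intro hi
          exact ⟨⟨hW (hS hi), (h i (hS hi)).mpr hi⟩, hS hi⟩
      · intro i hi
        simp [hi]
    · rintro ⟨S', hS', h⟩ i hi
      rw [Finset.mem_filter] at hS'
      rw [h i (hW hi), ← hS'.2, Finset.mem_inter]
      exact ⟨fun h => ⟨h, hi⟩, fun h => h.1⟩
  · intro S₁ h₁ S₂ h₂ hne
    rw [Function.onFun, Set.disjoint_left]
    intro ω hω₁ hω₂
    apply hne
    simp only [Finset.coe_filter, Finset.mem_powerset, Set.mem_setOf_eq] at h₁ h₂
    ext i
    constructor
    · intro hi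
      have := h₁.1 hi
      exact (hω₂ i this).mp ((hω₁ i this).mpr hi)
    · intro hi
      have := h₂.1 hi
      exact (hω₁ i this).mp ((hω₂ i this).mpr hi)
  · intro S' _
    exact measurableSet_cyl _ _

theorem winOf_isSR {E : Type*} (ν : Measure (E → Bool)) [IsProbabilityMeasure ν]
    (hsr : Crest.ProbabilityR.StronglyRayleigh.IsStronglyRayleigh ν) : IsSR (winOf ν) where
  nonneg W S _ := ENNReal.toReal_nonneg
  total W := by
    have h := winOf_consistent ν ∅ W (Finset.empty_subset _) ∅ (Finset.Subset.refl _)
    have h0 : winOf ν ∅ ∅ = 1 := by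
      unfold winOf cyl
      simp
    rw [h0] at h
    rw [h]
    apply Finset.sum_congr _ (fun _ _ => rfl)
    ext S
    simp
  consistent := winOf_consistent ν
  stable W z hz := hsr W z hz

/-- two probability laws on configurations agreeing on all events `all of F occupied` agree -/
theorem ext_of_occupied {E : Type*} (μ ν : Measure (E → Bool)) [IsProbabilityMeasure μ]
    [IsProbabilityMeasure ν]
    (h : ∀ F : Finset E, μ {ω | ∀ e ∈ F, ω e = true} = ν {ω | ∀ e ∈ F, ω e = true}) : μ = ν := by
  set C : Set (Set (E → Bool)) := Set.range (fun F : Finset E => {ω : E → Bool | ∀ e ∈ F, ω e = true})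
    with hC
  have hmeas : ∀ F : Finset E, MeasurableSet {ω : E → Bool | ∀ e ∈ F, ω e = true} := by
    intro F
    have : {ω : E → Bool | ∀ e ∈ F, ω e = true} = ⋂ e ∈ F, {ω : E → Bool | ω e = true} := by
      ext ω; simp
    rw [this]
    apply Finset.measurableSet_biInter
    intro i _
    have hmi : Measurable (fun ω : E → Bool => ω i) := measurable_pi_apply i
    exact hmi (measurableSet_singleton true)
  refine ext_of_generate_finite C ?_ ?_ ?_ (by simp)
  · apply le_antisymm
    · apply iSup_le
      intro i
      rw [← measurable_iff_comap_le]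
      apply @measurable_to_bool (E → Bool) (MeasurableSpace.generateFrom C)
      apply MeasurableSpace.measurableSet_generateFrom
      refine ⟨{i}, ?_⟩
      ext ω
      simp
    · apply MeasurableSpace.generateFrom_le
      rintro s ⟨F, rfl⟩
      exact hmeas F
  · rintro s ⟨F, rfl⟩ t ⟨F', rfl⟩ _
    refine ⟨F ∪ F', ?_⟩
    ext ω
    simp only [Finset.mem_union, Set.mem_inter_iff, Set.mem_setOf_eq]
    constructor
    · intro h
      exact ⟨fun e he => h e (Or.inl he), fun e he => h e (Or.inr he)⟩
    · rintro ⟨h1, h2⟩ e (he | he)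
      · exact h1 e he
      · exact h2 e he
  · rintro s ⟨F, rfl⟩
    exact h F

/-- uniform label splits into a sequence of independent uniform labels -/
theorem exists_split : ∃ f : unitInterval → (ℕ → unitInterval), Measurable f ∧
    (volume : Measure unitInterval).map f =
      Measure.infinitePi (fun _ : ℕ => (volume : Measure unitInterval)) :=
  Measure.exists_measurable_map_eq _

end Crest.Agent.FIID
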