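import Mathlib
import Crest.Agent.FIID.Defs

/-!
T1: nonvanishing of the spanning tree polynomial on the upper half plane, through the matrix-tree
theorem (expansion of the reduced Laplacian determinant over parent maps).
-/

set_option autoImplicit false

open MeasureTheory Filter Topology

namespace Crest.Agent.FIID.T1

open Crest.Agent.FIID Crest.ProbabilityR Crest.ProbabilityR.SpanningTrees Crest.ProbabilityR.GraphTables

section Det

variable {U : Type*} [Fintype U] [DecidableEq U]

/-- The matrix of a parent map. -/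
def pm (r : U) (f : U → U) : Matrix U U ℂ := fun v w =>
  (if v = w then 1 else 0) - (if v ≠ r ∧ f v = w then 1 else 0)

/-- `f` reaches `r` from every point. -/
def Acyc (r : U) (f : U → U) : Prop := ∀ v, ∃ n : ℕ, f^[n] v = r

omit [Fintype U] [DecidableEq U] in
lemma Acyc.eq_empty {r : U} {f : U → U} (hf : Acyc r f) (D : Set U)
    (hD : ∀ v ∈ D, f v ∈ D) (hr : r ∉ D) : D = ∅ := by
  rw [Set.eq_empty_iff_forall_notMem]
  intro v hv
  obtain ⟨n, hn⟩ := hf v
  have h : ∀ k : ℕ, f^[k] v ∈ D := by
    intro k
    induction k with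
    | zero => exact hv
    | succ k ih => rw [Function.iterate_succ_apply']; exact hD _ ih
  exact hr (hn ▸ h n)

omit [Fintype U] [DecidableEq U] in
lemma Acyc.ne_self {r : U} {f : U → U} (hf : Acyc r f) {v : U} (hv : v ≠ r) : f v ≠ v := by
  intro h
  have := hf.eq_empty {v} (by simpa using h) (by simpa using hv.symm)
  simp at this

omit [Fintype U] [DecidableEq U] in
lemma Acyc.no_two {r : U} {f : U → U} (hf : Acyc r f) {v w : U} (hv : v ≠ r) (hw : w ≠ r)
    (h1 : f v = w) (h2 : f w = v) : False := by
  have := hf.eq_empty {v, w} (by simp [h1, h2]) (by simp [hv.symm, hw.symm])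
  exact absurd (this ▸ Set.mem_insert v {w} : v ∈ (∅ : Set U)) (Set.notMem_empty v)

lemma det_pm_of_acyc {r : U} {f : U → U} (hf : Acyc r f) (hr : f r = r) :
    (pm r f).det = 1 := by
  classical
  let d : U → ℕ := fun v => Nat.find (hf v)
  have hd : ∀ v, v ≠ r → d (f v) < d v := by
    intro v hv
    have h1 : f^[d v] v = r := Nat.find_spec (hf v)
    have h0 : d v ≠ 0 := by
      intro h0
      rw [h0] at h1
      exact hv h1
    obtain ⟨k, hk⟩ := Nat.exists_eq_succ_of_ne_zero h0
    rw [hk, Function.iterate_succ_apply] at h1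
    have : d (f v) ≤ k := Nat.find_min' (hf (f v)) h1
    omega
  have hT : (pm r f).BlockTriangular (OrderDual.toDual ∘ d) := by
    intro v w hvw
    have hlt : d v < d w := hvw
    have h1 : v ≠ w := by
      rintro rfl
      exact lt_irrefl _ hlt
    have h2 : ¬ (v ≠ r ∧ f v = w) := by
      rintro ⟨h3, rfl⟩
      exact absurd hlt (not_lt.mpr (hd v h3).le)
    simp [pm, h1, h2]
  rw [hT.det]
  refine Finset.prod_eq_one fun a _ => ?_
  have : (pm r f).toSquareBlock (OrderDual.toDual ∘ d) a = 1 := by
    ext ⟨v, hv⟩ ⟨w, hw⟩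
    rw [Matrix.one_apply]
    simp only [Subtype.mk.injEq]
    change pm r f v w = _
    simp only [pm]
    have h2 : ¬ (v ≠ r ∧ f v = w) := by
      rintro ⟨h3, rfl⟩
      have h4 : d (f v) = d v := OrderDual.toDual.injective (hw.trans hv.symm)
      exact absurd (hd v h3) (by omega)
    simp [h2]
  rw [this, Matrix.det_one]

lemma det_pm_of_not_acyc {r : U} {f : U → U} (hf : ¬ Acyc r f) :
    (pm r f).det = 0 := by
  classical
  rw [← Matrix.exists_mulVec_eq_zero_iff]
  unfold Acyc at hf
  push Not at hf
  obtain ⟨v₀, hv₀⟩ := hf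
  refine ⟨fun v => if ∃ n : ℕ, f^[n] v = r then 0 else 1, ?_, ?_⟩
  · intro h
    have := congrFun h v₀
    simp [hv₀] at this
  · ext v
    simp only [Matrix.mulVec, dotProduct, pm, sub_mul, ite_mul, one_mul, zero_mul,
      Finset.sum_sub_distrib, Finset.sum_ite_eq, Finset.mem_univ, if_true, Pi.zero_apply]
    by_cases hv : v = r
    · subst hv
      have : ∃ n : ℕ, f^[n] v = v := ⟨0, rfl⟩
      simp [this]
    · simp only [ne_eq, hv, not_false_eq_true, true_and, Finset.sum_ite_eq, Finset.mem_univ,
        if_true]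
      have : (∃ n : ℕ, f^[n] v = r) ↔ (∃ n : ℕ, f^[n] (f v) = r) := by
        constructor
        · rintro ⟨n, hn⟩
          cases n with
          | zero => exact absurd hn hv
          | succ n => exact ⟨n, by rwa [Function.iterate_succ_apply] at hn⟩
        · rintro ⟨n, hn⟩
          exact ⟨n + 1, by rwa [Function.iterate_succ_apply]⟩
      by_cases h : ∃ n : ℕ, f^[n] v = r
      · have h' := this.mp h
        simp [h, h']
      · have h' : ¬ ∃ n : ℕ, f^[n] (f v) = r := fun h2 => h (this.mpr h2)
        rw [if_neg h, if_neg h', sub_self]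

/-- Laplacian with the row of the root replaced by the indicator of the root. -/
def lap (r : U) (c : U → U → ℂ) : Matrix U U ℂ := fun v w =>
  if v = r then (if w = r then 1 else 0)
  else ∑ u, c v u * ((if v = w then 1 else 0) - (if u = w then 1 else 0))

lemma det_lap (r : U) (c : U → U → ℂ) :
    (lap r c).det = ∑ f : U → U with f r = r,
      (∏ v ∈ Finset.univ.erase r, c v (f v)) * (pm r f).det := by
  classical
  have h1 : lap r c = fun v => ∑ u : U, (if v = r then (if u = r then (1:ℂ) else 0) else c v u) •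
      (fun w => ((if v = w then (1:ℂ) else 0) - (if v ≠ r ∧ u = w then 1 else 0))) := by
    ext v w
    simp only [lap, Finset.sum_apply, Pi.smul_apply, smul_eq_mul]
    by_cases hv : v = r
    · subst hv
      simp [eq_comm]
    · simp [hv]
  have h2 := (Matrix.detRowAlternating (n := U) (R := ℂ)).toMultilinearMap.map_sum
    (α := fun _ => U) (g := fun v u => (if v = r then (if u = r then (1:ℂ) else 0) else c v u) •
      (fun w => ((if v = w then (1:ℂ) else 0) - (if v ≠ r ∧ u = w then 1 else 0))))
  have h3 : (lap r c).det = ∑ f : U → U, (∏ v, (if v = r then (if f v = r then (1:ℂ) else 0)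
      else c v (f v))) * (pm r f).det := by
    rw [h1]
    refine h2.trans ?_
    refine Finset.sum_congr rfl fun f _ => ?_
    rw [MultilinearMap.map_smul_univ]
    rfl
  rw [h3, Finset.sum_filter]
  refine Finset.sum_congr rfl fun f _ => ?_
  rw [← Finset.mul_prod_erase Finset.univ _ (Finset.mem_univ r)]
  by_cases hf : f r = r
  · simp only [hf, if_true, one_mul]
    congr 1
    refine Finset.prod_congr rfl fun v hv => ?_
    rw [if_neg (Finset.ne_of_mem_erase hv)]
  · simp [hf]

/-- Nonvanishing of the Laplacian determinant. -/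
lemma det_lap_ne_zero (r : U) (H : SimpleGraph U) (hH : H.Connected) (c : U → U → ℂ)
    (hsymm : ∀ v u, c v u = c u v) (hc0 : ∀ v u, ¬ H.Adj v u → c v u = 0)
    (hc1 : ∀ v u, H.Adj v u → 0 < (c v u).im ∨ c v u = 1) : (lap r c).det ≠ 0 := by
  classical
  intro hdet
  rw [← Matrix.exists_mulVec_eq_zero_iff] at hdet
  obtain ⟨φ, hφ, h0⟩ := hdet
  have hr : φ r = 0 := by
    have := congrFun h0 r
    simpa [Matrix.mulVec, dotProduct, lap] using this
  have hrow : ∀ v, v ≠ r → ∑ u, c v u * (φ v - φ u) = 0 := by
    intro v hv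
    have h1 := congrFun h0 v
    simp only [Matrix.mulVec, dotProduct, lap, hv, if_false, Pi.zero_apply, Finset.sum_mul] at h1
    rw [Finset.sum_comm] at h1
    rw [← h1]
    refine Finset.sum_congr rfl fun u _ => ?_
    simp only [mul_sub, sub_mul, mul_assoc, ← Finset.mul_sum, Finset.sum_sub_distrib, ite_mul,
      one_mul, zero_mul, Finset.sum_ite_eq, Finset.mem_univ, if_true]
  have hq : ∑ v, ∑ u, c v u * (φ v - φ u) * (starRingEnd ℂ) (φ v) = 0 := by
    refine Finset.sum_eq_zero fun v _ => ?_
    rw [← Finset.sum_mul]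
    by_cases hv : v = r
    · rw [hv, hr]; simp
    · rw [hrow v hv, zero_mul]
  have hq' : ∑ v, ∑ u, c v u * (φ v - φ u) * (starRingEnd ℂ) (φ u) = 0 := by
    rw [Finset.sum_comm]
    rw [← neg_eq_zero, ← hq, ← Finset.sum_neg_distrib]
    refine Finset.sum_congr rfl fun v _ => ?_
    rw [← Finset.sum_neg_distrib]
    refine Finset.sum_congr rfl fun u _ => ?_
    rw [hsymm u v]; ring
  have hE : ∑ v, ∑ u, c v u * (Complex.normSq (φ v - φ u) : ℂ) = 0 := by
    have : ∑ v, ∑ u, c v u * (Complex.normSq (φ v - φ u) : ℂ) =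
        ∑ v, ∑ u, c v u * (φ v - φ u) * (starRingEnd ℂ) (φ v) -
        ∑ v, ∑ u, c v u * (φ v - φ u) * (starRingEnd ℂ) (φ u) := by
      rw [← Finset.sum_sub_distrib]
      refine Finset.sum_congr rfl fun v _ => ?_
      rw [← Finset.sum_sub_distrib]
      refine Finset.sum_congr rfl fun u _ => ?_
      rw [← Complex.mul_conj, map_sub]
      ring
    rw [this, hq, hq', sub_zero]
  have him : ∀ v u, 0 ≤ (c v u).im := by
    intro v u
    by_cases h : H.Adj v u
    · rcases hc1 v u h with h1 | h1
      · exact h1.le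
      · rw [h1]; simp
    · rw [hc0 v u h]; simp
  have hEim : ∑ v, ∑ u, (c v u).im * Complex.normSq (φ v - φ u) = 0 := by
    have := congrArg Complex.im hE
    simpa [Complex.im_sum, Complex.mul_im] using this
  have hEre : ∑ v, ∑ u, (c v u).re * Complex.normSq (φ v - φ u) = 0 := by
    have := congrArg Complex.re hE
    simpa [Complex.re_sum, Complex.mul_re] using this
  have hz1 : ∀ v u, (c v u).im * Complex.normSq (φ v - φ u) = 0 := by
    intro v u
    have hnn : ∀ v u, 0 ≤ (c v u).im * Complex.normSq (φ v - φ u) := fun v u =>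
      mul_nonneg (him v u) (Complex.normSq_nonneg _)
    have h1 := (Finset.sum_eq_zero_iff_of_nonneg
      (fun v _ => Finset.sum_nonneg fun u _ => hnn v u)).mp hEim v (Finset.mem_univ v)
    exact (Finset.sum_eq_zero_iff_of_nonneg (fun u _ => hnn v u)).mp h1 u (Finset.mem_univ u)
  have hre : ∀ v u, 0 ≤ (c v u).re * Complex.normSq (φ v - φ u) := by
    intro v u
    by_cases h : H.Adj v u
    · rcases hc1 v u h with h1 | h1
      · rcases mul_eq_zero.mp (hz1 v u) with h2 | h2
        · exact absurd h2 h1.ne'
        · rw [h2]; simp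
      · rw [h1]; simpa using Complex.normSq_nonneg _
    · rw [hc0 v u h]; simp
  have hz2 : ∀ v u, (c v u).re * Complex.normSq (φ v - φ u) = 0 := by
    intro v u
    have h1 := (Finset.sum_eq_zero_iff_of_nonneg
      (fun v _ => Finset.sum_nonneg fun u _ => hre v u)).mp hEre v (Finset.mem_univ v)
    exact (Finset.sum_eq_zero_iff_of_nonneg (fun u _ => hre v u)).mp h1 u (Finset.mem_univ u)
  have hadj : ∀ v u, H.Adj v u → φ v = φ u := by
    intro v u h
    have h3 : Complex.normSq (φ v - φ u) = 0 := by
      rcases hc1 v u h with h1 | h1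
      · rcases mul_eq_zero.mp (hz1 v u) with h2 | h2
        · exact absurd h2 h1.ne'
        · exact h2
      · have := hz2 v u
        rw [h1] at this
        simpa using this
    exact sub_eq_zero.mp (Complex.normSq_eq_zero.mp h3)
  apply hφ
  ext v
  obtain ⟨p⟩ := hH.preconnected v r
  have hp : ∀ {a b : U} (p : H.Walk a b), φ a = φ b := by
    intro a b p
    induction p with
    | nil => rfl
    | cons h _ ih => exact (hadj _ _ h).trans ih
  rw [hp p, hr]; rfl

end Det

section Comb

open scoped Classical in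
/-- The edge set of a parent map. -/
noncomputable def edg {V : Type*} {S : Set V} [Fintype S] (r : S) (f : S → S) : Finset (Sym2 V) :=
  (Finset.univ.erase r).image (fun v : S => s((v : V), (f v : V)))

variable {V : Type*} {S : Finset V}

open scoped Classical in
lemma edg_injOn {r : (S : Set V)} {f : ↥(S : Set V) → ↥(S : Set V)} (hf : Acyc r f) :
    Set.InjOn (fun v : (S : Set V) => s((v : V), (f v : V)))
      ((Finset.univ.erase r : Finset (S : Set V)) : Set (S : Set V)) := by
  intro v hv w hw h
  have hv' : v ≠ r := by simpa using hv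
  have hw' : w ≠ r := by simpa using hw
  simp only [Sym2.eq_iff] at h
  rcases h with ⟨h1, _⟩ | ⟨h1, h2⟩
  · exact Subtype.ext h1
  · exact (hf.no_two hv' hw' (Subtype.ext h2) (Subtype.ext h1.symm)).elim

lemma card_edg {r : (S : Set V)} {f : ↥(S : Set V) → ↥(S : Set V)} (hf : Acyc r f) :
    (edg r f).card + 1 = Fintype.card (S : Set V) := by
  classical
  rw [edg, Finset.card_image_of_injOn (edg_injOn hf), Finset.card_erase_of_mem (Finset.mem_univ r),
    Finset.card_univ]
  have : 0 < Fintype.card (S : Set V) := Fintype.card_pos_iff.mpr ⟨r⟩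
  omega

open scoped Classical in
lemma prod_edg {r : (S : Set V)} {f : ↥(S : Set V) → ↥(S : Set V)} (hf : Acyc r f)
    (z : Sym2 V → ℂ) : ∏ e ∈ edg r f, z e =
      ∏ v ∈ Finset.univ.erase r, z s((v : V), (f v : V)) := by
  rw [edg, Finset.prod_image (edg_injOn hf)]

lemma edg_inj {r : (S : Set V)} {f g : ↥(S : Set V) → ↥(S : Set V)} (hf : Acyc r f) (hg : Acyc r g)
    (hfr : f r = r) (hgr : g r = r) (h : edg r f = edg r g) : f = g := by
  classical
  have key : {v : (S : Set V) | v ≠ r ∧ f v ≠ g v} = ∅ := by
    apply hf.eq_empty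
    · rintro v ⟨hv, hne⟩
      have h1 : s((v : V), (f v : V)) ∈ edg r g := by
        rw [← h, edg]
        exact Finset.mem_image_of_mem (fun v : (S : Set V) => s((v : V), (f v : V)))
          (by simpa using hv)
      rw [edg, Finset.mem_image] at h1
      obtain ⟨w, hw, hw2⟩ := h1
      have hw' : w ≠ r := by simpa using hw
      simp only [Sym2.eq_iff] at hw2
      rcases hw2 with ⟨h2, h3⟩ | ⟨h2, h3⟩
      · have : w = v := Subtype.ext h2
        subst this
        exact absurd (Subtype.ext h3).symm hne
      · have h4 : w = f v := Subtype.ext h2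
        have h5 : g w = v := Subtype.ext h3
        refine ⟨h4 ▸ hw', ?_⟩
        intro h6
        rw [← h4, h5] at h6
        exact hf.no_two hv hw' h4.symm h6
    · simp
  ext v
  by_cases hv : v = r
  · rw [hv, hfr, hgr]
  · by_contra hne
    have : v ∈ {v : (S : Set V) | v ≠ r ∧ f v ≠ g v} := ⟨hv, fun h2 => hne (by rw [h2])⟩
    rw [key] at this
    exact this

lemma mem_edgesIn {G : SimpleGraph V} {a b : V} :
    s(a, b) ∈ edgesIn G S ↔ a ∈ S ∧ b ∈ S ∧ G.Adj a b := by
  simp only [edgesIn, Finset.mem_filter, Finset.mk_mem_sym2_iff, SimpleGraph.mem_edgeSet]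
  tauto

lemma edg_isTree (G : SimpleGraph V) {r : (S : Set V)} {f : ↥(S : Set V) → ↥(S : Set V)}
    (hf : Acyc r f) (hadj : ∀ v, v ≠ r → G.Adj (v : V) (f v : V)) :
    IsSpanningTreeOn G S (edg r f) := by
  classical
  refine ⟨?_, ?_⟩
  · intro e he
    rw [edg, Finset.mem_image] at he
    obtain ⟨v, hv, rfl⟩ := he
    rw [mem_edgesIn]
    exact ⟨v.2, (f v).2, hadj v (by simpa using hv)⟩
  · set T := (SimpleGraph.fromEdgeSet ((edg r f : Finset (Sym2 V)) : Set (Sym2 V))).induce
      (S : Set V) with hT
    have hTadj : ∀ v, v ≠ r → T.Adj v (f v) := by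
      intro v hv
      simp only [hT, SimpleGraph.comap_adj, SimpleGraph.fromEdgeSet_adj, Finset.mem_coe,
        Function.Embedding.subtype_apply]
      refine ⟨?_, (hadj v hv).ne⟩
      rw [edg]
      exact Finset.mem_image_of_mem (fun v : (S : Set V) => s((v : V), (f v : V)))
          (by simpa using hv)
    have hreach : ∀ n : ℕ, ∀ v, f^[n] v = r → T.Reachable v r := by
      intro n
      induction n with
      | zero => intro v hv; rw [show v = r from hv]
      | succ n ih =>
        intro v hv
        by_cases hvr : v = r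
        · rw [hvr]
        · rw [Function.iterate_succ_apply] at hv
          exact (hTadj v hvr).reachable.trans (ih _ hv)
    have hconn : T.Connected := by
      have : Nonempty (S : Set V) := ⟨r⟩
      refine SimpleGraph.Connected.mk fun v w => ?_
      obtain ⟨n, hn⟩ := hf v
      obtain ⟨m, hm⟩ := hf w
      exact (hreach n v hn).trans (hreach m w hm).symm
    rw [SimpleGraph.isTree_iff_connected_and_card]
    refine ⟨hconn, ?_⟩
    have hle := hconn.card_vert_le_card_edgeSet_add_one
    have hge : Nat.card T.edgeSet ≤ (Finset.univ.erase r : Finset (S : Set V)).card := by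
      rw [Nat.card_eq_fintype_card, ← Set.toFinset_card]
      have : T.edgeSet.toFinset ⊆ (Finset.univ.erase r : Finset (S : Set V)).image
          (fun v => s(v, f v)) := by
        intro e he
        rw [Set.mem_toFinset] at he
        induction e using Sym2.ind with
        | _ a b =>
        rw [SimpleGraph.mem_edgeSet] at he
        simp only [hT, SimpleGraph.comap_adj, SimpleGraph.fromEdgeSet_adj, Finset.mem_coe,
          Function.Embedding.subtype_apply] at he
        have h1 := he.1
        rw [edg, Finset.mem_image] at h1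
        obtain ⟨v, hv, hv2⟩ := h1
        rw [Finset.mem_image]
        refine ⟨v, hv, ?_⟩
        simp only [Sym2.eq_iff] at hv2 ⊢
        rcases hv2 with ⟨h2, h3⟩ | ⟨h2, h3⟩
        · exact Or.inl ⟨Subtype.ext h2, Subtype.ext h3⟩
        · exact Or.inr ⟨Subtype.ext h2, Subtype.ext h3⟩
      exact (Finset.card_le_card this).trans Finset.card_image_le
    rw [Finset.card_erase_of_mem (Finset.mem_univ r), Finset.card_univ] at hge
    have : 0 < Fintype.card (S : Set V) := Fintype.card_pos_iff.mpr ⟨r⟩
    rw [Nat.card_eq_fintype_card] at hle ⊢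
    rw [Nat.card_eq_fintype_card] at hge hle
    rw [Nat.card_eq_fintype_card]
    omega

lemma exists_parent (G : SimpleGraph V) (r : (S : Set V)) (A : Finset (Sym2 V))
    (hA : IsSpanningTreeOn G S A) :
    ∃ f : ↥(S : Set V) → ↥(S : Set V), Acyc r f ∧ f r = r ∧
      (∀ v, v ≠ r → G.Adj (v : V) (f v : V)) ∧ edg r f = A := by
  classical
  obtain ⟨hA1, hA2⟩ := hA
  set T := (SimpleGraph.fromEdgeSet (A : Set (Sym2 V))).induce (S : Set V) with hT
  have hstep : ∀ v : (S : Set V), v ≠ r → ∃ u, T.Adj v u ∧ T.dist u r < T.dist v r := by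
    intro v hv
    obtain ⟨p, hp⟩ := hA2.connected.exists_walk_length_eq_dist v r
    cases p with
    | nil => exact absurd rfl hv
    | cons h q =>
      refine ⟨_, h, ?_⟩
      rw [← hp, SimpleGraph.Walk.length_cons]
      exact Nat.lt_succ_of_le (SimpleGraph.dist_le q)
  choose! g hg using hstep
  let f : ↥(S : Set V) → ↥(S : Set V) := fun v => if v = r then r else g v
  have hfr : f r = r := by simp [f]
  have hfadj : ∀ v, v ≠ r → T.Adj v (f v) := by
    intro v hv
    simp only [f, hv, if_false]
    exact (hg v hv).1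
  have hfd : ∀ v, v ≠ r → T.dist (f v) r < T.dist v r := by
    intro v hv
    simp only [f, hv, if_false]
    exact (hg v hv).2
  have hac : Acyc r f := by
    intro v
    induction hn : T.dist v r using Nat.strong_induction_on generalizing v with
    | _ n ih =>
    by_cases hv : v = r
    · exact ⟨0, hv⟩
    · obtain ⟨m, hm⟩ := ih _ (hn ▸ hfd v hv) (f v) rfl
      exact ⟨m + 1, by rwa [Function.iterate_succ_apply]⟩
  have hmem : ∀ v, v ≠ r → s((v : V), (f v : V)) ∈ A := by
    intro v hv
    have := hfadj v hv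
    simp only [hT, SimpleGraph.comap_adj, SimpleGraph.fromEdgeSet_adj, Finset.mem_coe,
      Function.Embedding.subtype_apply] at this
    exact this.1
  have hGadj : ∀ v, v ≠ r → G.Adj (v : V) (f v : V) := fun v hv =>
    (mem_edgesIn.mp (hA1 (hmem v hv))).2.2
  refine ⟨f, hac, hfr, hGadj, ?_⟩
  have hsub : edg r f ⊆ A := by
    intro e he
    rw [edg, Finset.mem_image] at he
    obtain ⟨v, hv, rfl⟩ := he
    exact hmem v (by simpa using hv)
  apply Finset.eq_of_subset_of_card_le hsub
  have h1 := card_edg hac
  have h2 := hA2.card_edgeFinset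
  have h3 : A ⊆ T.edgeFinset.image (Sym2.map Subtype.val) := by
    intro e he
    have he1 := hA1 he
    induction e using Sym2.ind with
    | _ a b =>
    rw [mem_edgesIn] at he1
    rw [Finset.mem_image]
    refine ⟨s(⟨a, he1.1⟩, ⟨b, he1.2.1⟩), ?_, by simp⟩
    rw [SimpleGraph.mem_edgeFinset, SimpleGraph.mem_edgeSet]
    simp only [hT, SimpleGraph.comap_adj, SimpleGraph.fromEdgeSet_adj, Finset.mem_coe,
      Function.Embedding.subtype_apply]
    exact ⟨he, he1.2.2.ne⟩
  have h4 : A.card ≤ T.edgeFinset.card := (Finset.card_le_card h3).trans Finset.card_image_le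
  omega

end Comb

open scoped Classical in
/-- Matrix-tree theorem. -/
theorem tree_sum_eq_det {V : Type*} (G : SimpleGraph V) (S : Finset V) (r : (S : Set V))
    (z : Sym2 V → ℂ) :
    ∑ A ∈ (edgesIn G S).powerset.filter (fun A => IsSpanningTreeOn G S A), ∏ e ∈ A, z e =
      (lap r (fun v u : (S : Set V) => if G.Adj (v : V) (u : V) then z s((v : V), (u : V))
        else 0)).det := by
  rw [det_lap]
  have h1 : ∀ f ∈ (Finset.univ.filter (fun f : ↥(S : Set V) → ↥(S : Set V) => f r = r)),
      (∏ v ∈ Finset.univ.erase r, (if G.Adj (v : V) (f v : V) then z s((v : V), (f v : V)) else 0)) *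
        (pm r f).det ≠ 0 → (Acyc r f ∧ ∀ v, v ≠ r → G.Adj (v : V) (f v : V)) := by
    intro f _ hne
    constructor
    · by_contra hac
      rw [det_pm_of_not_acyc hac, mul_zero] at hne
      exact hne rfl
    · intro v hv
      by_contra h
      apply hne
      rw [Finset.prod_eq_zero (i := v) (by simpa using hv) (by rw [if_neg h]), zero_mul]
  rw [← Finset.sum_filter_of_ne h1]
  symm
  refine Finset.sum_bij (fun f _ => edg r f) ?_ ?_ ?_ ?_
  · intro f hf
    simp only [Finset.mem_filter, Finset.mem_univ, true_and] at hf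
    have := edg_isTree G hf.2.1 hf.2.2
    rw [Finset.mem_filter, Finset.mem_powerset]
    exact ⟨this.1, this⟩
  · intro f hf g hg h
    simp only [Finset.mem_filter, Finset.mem_univ, true_and] at hf hg
    exact edg_inj hf.2.1 hg.2.1 hf.1 hg.1 h
  · intro A hA
    rw [Finset.mem_filter] at hA
    obtain ⟨f, h1, h2, h3, h4⟩ := exists_parent G r A hA.2
    exact ⟨f, by simp only [Finset.mem_filter, Finset.mem_univ, true_and]; exact ⟨h2, h1, h3⟩, h4⟩
  · intro f hf
    simp only [Finset.mem_filter, Finset.mem_univ, true_and] at hf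
    rw [det_pm_of_acyc hf.2.1 hf.1, mul_one, prod_edg hf.2.1]
    refine Finset.prod_congr rfl fun v hv => ?_
    rw [if_pos (hf.2.2 v (by simpa using hv))]

open scoped Classical in
/-- T1. Stability of the spanning tree polynomial. -/
theorem tree_poly_ne_zero {V : Type*} (G : SimpleGraph V) (S : Finset V)
    (hS : (G.induce (S : Set V)).Connected) (W : Finset (Sym2 V)) (z : Sym2 V → ℂ)
    (hW : ∀ e ∈ W, 0 < (z e).im) (h1 : ∀ e, e ∉ W → z e = 1) :
    ∑ A ∈ (edgesIn G S).powerset.filter (fun A => IsSpanningTreeOn G S A), ∏ e ∈ A, z e ≠ 0 := by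
  obtain ⟨r⟩ := hS.nonempty
  rw [tree_sum_eq_det G S r z]
  apply det_lap_ne_zero r (G.induce (S : Set V)) hS
  · intro v u
    rw [G.adj_comm, Sym2.eq_swap]
  · intro v u h
    rw [if_neg]
    simpa using h
  · intro v u h
    have : G.Adj (v : V) (u : V) := by simpa using h
    rw [if_pos this]
    by_cases hm : s((v : V), (u : V)) ∈ W
    · exact Or.inl (hW _ hm)
    · exact Or.inr (h1 _ hm)

end Crest.Agent.FIID.T1
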