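import Mathlib
import Crest.Agent.FIID.Defs
import Crest.Agent.FIID.T1
import Crest.Agent.FIID.NegDep

/-!
T2: free-boundary uniform spanning tree measures decrease in the vertex set.
-/

set_option autoImplicit false

open MeasureTheory Filter Topology

namespace Crest.Agent.FIID.T2

open Crest.Agent.FIID Crest.ProbabilityR Crest.ProbabilityR.SpanningTrees Crest.ProbabilityR.GraphTables
open Crest.Agent.FIID.T1

variable {V : Type*}

open scoped Classical in
/-- Number of spanning trees of `G[S]` containing `F`. -/
noncomputable def cnt (G : SimpleGraph V) (S : Finset V) (F : Finset (Sym2 V)) : ℝ :=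
  (((edgesIn G S).powerset.filter (fun A => IsSpanningTreeOn G S A ∧ F ⊆ A)).card : ℝ)

lemma ustContains_eq (G : SimpleGraph V) (S : Finset V) (F : Finset (Sym2 V)) :
    ustContains G S F = cnt G S F / cnt G S ∅ := by
  classical
  unfold ustContains cnt
  congr! 4
  simp

lemma cnt_nonneg (G : SimpleGraph V) (S : Finset V) (F : Finset (Sym2 V)) : 0 ≤ cnt G S F :=
  Nat.cast_nonneg _

lemma edgesIn_mono {G H : SimpleGraph V} (h : H ≤ G) (S : Finset V) : edgesIn H S ⊆ edgesIn G S := by
  intro e he
  induction e using Sym2.ind with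
  | _ a b =>
  rw [mem_edgesIn] at he ⊢
  exact ⟨he.1, he.2.1, h he.2.2⟩

lemma mem_edgesIn_edgeSet {G : SimpleGraph V} {S : Finset V} {e : Sym2 V} (h : e ∈ edgesIn G S) :
    e ∈ G.edgeSet := by
  induction e using Sym2.ind with
  | _ a b =>
  rw [mem_edgesIn] at h
  exact h.2.2

/-- A connected piece has a spanning tree. -/
lemma exists_spanning (G : SimpleGraph V) (S : Finset V)
    (hS : (G.induce (S : Set V)).Connected) : ∃ A, IsSpanningTreeOn G S A := by
  classical
  by_contra hcon
  push Not at hcon
  obtain ⟨r⟩ := hS.nonempty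
  have h := tree_poly_ne_zero G S hS ∅ (fun _ => 1) (by simp) (by simp)
  apply h
  apply Finset.sum_eq_zero
  intro A hA
  rw [Finset.mem_filter] at hA
  exact absurd hA.2 (hcon A)

lemma cnt_pos (G : SimpleGraph V) (S : Finset V)
    (hS : (G.induce (S : Set V)).Connected) : 0 < cnt G S ∅ := by
  classical
  obtain ⟨A, hA⟩ := exists_spanning G S hS
  unfold cnt
  rw [Nat.cast_pos, Finset.card_pos]
  exact ⟨A, by
    rw [Finset.mem_filter, Finset.mem_powerset]
    exact ⟨hA.1, hA, Finset.empty_subset _⟩⟩

lemma cnt_delete (G : SimpleGraph V) (S : Finset V) (F : Finset (Sym2 V)) (g : Sym2 V) :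
    cnt (G.deleteEdges {g}) S F = cnt G S F - cnt G S (@insert _ _ (@Finset.instInsert _ (Classical.decEq _)) g F) := by
  classical
  have key : cnt G S F = cnt (G.deleteEdges {g}) S F +
      cnt G S (@insert _ _ (@Finset.instInsert _ (Classical.decEq _)) g F) := by
    unfold cnt
    rw [← Nat.cast_add, Nat.cast_inj]
    rw [← Finset.card_filter_add_card_filter_not (s := (edgesIn G S).powerset.filter
      (fun A => IsSpanningTreeOn G S A ∧ F ⊆ A)) (fun A => g ∉ A)]
    congr 1
    · congr 1
      ext A
      simp only [Finset.mem_filter, Finset.mem_powerset]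
      constructor
      · rintro ⟨⟨h1, h2, h3⟩, h4⟩
        have h5 : A ⊆ edgesIn (G.deleteEdges {g}) S := by
          intro e he
          have he1 := h1 he
          induction e using Sym2.ind with
          | _ a b =>
          rw [mem_edgesIn] at he1 ⊢
          refine ⟨he1.1, he1.2.1, ?_⟩
          rw [SimpleGraph.deleteEdges_adj]
          refine ⟨he1.2.2, ?_⟩
          intro hg
          rw [Set.mem_singleton_iff] at hg
          exact h4 (hg ▸ he)
        exact ⟨h5, ⟨h5, h2.2⟩, h3⟩
      · rintro ⟨h1, h2, h3⟩
        have h5 : A ⊆ edgesIn G S := h1.trans (edgesIn_mono (SimpleGraph.deleteEdges_le _) S)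
        refine ⟨⟨h5, ⟨h5, h2.2⟩, h3⟩, ?_⟩
        intro hg
        have := mem_edgesIn_edgeSet (h1 hg)
        rw [SimpleGraph.edgeSet_deleteEdges] at this
        exact this.2 rfl
    · congr 1
      ext A
      simp only [Finset.mem_filter, Finset.mem_powerset, not_not, Finset.insert_subset_iff]
      constructor
      · rintro ⟨⟨h1, h2, h3⟩, h4⟩
        exact ⟨h1, h2, h4, h3⟩
      · rintro ⟨h1, h2, h4, h3⟩
        exact ⟨⟨h1, h2, h3⟩, h4⟩
  rw [key]; ring

open scoped Classical in
lemma cnt_eq_sum (G : SimpleGraph V) (S : Finset V) (F : Finset (Sym2 V)) :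
    cnt G S F = ∑ A ∈ (edgesIn G S).powerset.filter (fun A => F ⊆ A),
      (if IsSpanningTreeOn G S A then (1:ℝ) else 0) := by
  unfold cnt
  rw [Finset.sum_ite, Finset.sum_const_zero, add_zero, Finset.sum_const, nsmul_eq_mul, mul_one,
    Finset.filter_filter]
  congr 2
  ext A
  simp only [Finset.mem_filter, Finset.mem_powerset]
  tauto

/-- Negative dependence: `P(F ∪ g) P(all) ≤ P(F) P(g)`. -/
lemma cnt_negdep (G : SimpleGraph V) (S : Finset V) (hS : (G.induce (S : Set V)).Connected)
    (F : Finset (Sym2 V)) (hF : F ⊆ edgesIn G S) (g : Sym2 V) (hg : g ∈ edgesIn G S) (hgF : g ∉ F) :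
    cnt G S (@insert _ _ (@Finset.instInsert _ (Classical.decEq _)) g F) * cnt G S ∅ ≤
      cnt G S F * cnt G S {g} := by
  classical
  have h := negdep_set (edgesIn G S) (fun A => if IsSpanningTreeOn G S A then (1:ℝ) else 0)
    (by intro A _; split_ifs <;> norm_num) ?_ F hF g hg hgF
  · rw [cnt_eq_sum, cnt_eq_sum, cnt_eq_sum, cnt_eq_sum]
    simp only [Finset.empty_subset, Finset.filter_true, Finset.singleton_subset_iff]
    convert h using 3 <;> (ext A; simp)
  · intro z hz
    have h1 := tree_poly_ne_zero G S hS (edgesIn G S)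
      (fun e => if e ∈ edgesIn G S then z e else 1)
      (by intro e he; simp only [he, if_true]; exact hz e he)
      (by intro e he; simp only [he, if_false])
    intro h2
    apply h1
    rw [← h2, Finset.sum_filter]
    refine Finset.sum_congr rfl fun A hA => ?_
    rw [Finset.mem_powerset] at hA
    split_ifs with h3
    · simp only [Complex.ofReal_one, one_mul]
      refine Finset.prod_congr rfl fun e he => ?_
      rw [if_pos (hA he)]
    · simp

/-- Deleting an edge (keeping connectivity) increases the containment probability. -/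
lemma ust_delete_le (G : SimpleGraph V) (S : Finset V) (F : Finset (Sym2 V))
    (hF : F ⊆ edgesIn G S) (g : Sym2 V) (hgF : g ∉ F)
    (hc : ((G.deleteEdges {g}).induce (S : Set V)).Connected) :
    ustContains G S F ≤ ustContains (G.deleteEdges {g}) S F := by
  classical
  have hS : (G.induce (S : Set V)).Connected := hc.mono (by
    intro a b hab
    exact (SimpleGraph.deleteEdges_le (G := G) {g}) hab)
  rw [ustContains_eq, ustContains_eq]
  by_cases hg : g ∈ edgesIn G S
  · have h1 := cnt_negdep G S hS F hF g hg hgF
    have h2 := cnt_delete G S F g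
    have h3 := cnt_delete G S ∅ g
    have h4 := cnt_pos G S hS
    have h5 := cnt_pos _ S hc
    rw [div_le_div_iff₀ h4 h5, h2, h3]
    have h6 : (@insert _ _ (@Finset.instInsert _ (Classical.decEq _)) g (∅ : Finset (Sym2 V))) = {g} := by
      simp
    rw [h6]
    nlinarith
  · have h0 : edgesIn (G.deleteEdges {g}) S = edgesIn G S := by
      apply Finset.Subset.antisymm (edgesIn_mono (SimpleGraph.deleteEdges_le _) S)
      intro e he
      have he1 := he
      induction e using Sym2.ind with
      | _ a b =>
      rw [mem_edgesIn] at he1 ⊢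
      refine ⟨he1.1, he1.2.1, ?_⟩
      rw [SimpleGraph.deleteEdges_adj]
      refine ⟨he1.2.2, ?_⟩
      intro hg'
      rw [Set.mem_singleton_iff] at hg'
      exact hg (hg' ▸ he)
    have h1 : ∀ F', cnt (G.deleteEdges {g}) S F' = cnt G S F' := by
      intro F'
      have h2 : ∀ A, IsSpanningTreeOn (G.deleteEdges {g}) S A ↔ IsSpanningTreeOn G S A := by
        intro A
        unfold IsSpanningTreeOn
        rw [h0]
      unfold cnt
      congr 2
      ext A
      rw [Finset.mem_filter, Finset.mem_filter, h2, h0]
    rw [h1, h1]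

open scoped Classical in
/-- Adding a pendant vertex: spanning trees of `insert v S` when `u` is the only neighbour of `v`. -/
lemma pendant_iff (G : SimpleGraph V) (S : Finset V) (v : V) (hv : v ∉ S) (u : V) (hu : u ∈ S)
    (huv : G.Adj v u) (honly : ∀ w ∈ S, G.Adj v w → w = u) (A : Finset (Sym2 V))
    (hA : s(v, u) ∉ A) :
    IsSpanningTreeOn G S A ↔ IsSpanningTreeOn G (insert v S) (insert s(v, u) A) := by
  constructor
  · intro h
    obtain ⟨f, hac, hfr, hadj, hedg⟩ := exists_parent G (⟨u, hu⟩ : (S : Set V)) A h
    let r' : ((insert v S : Finset V) : Set V) := ⟨u, by simp [hu]⟩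
    let f' : ((insert v S : Finset V) : Set V) → ((insert v S : Finset V) : Set V) := fun w =>
      if hw : w.1 ∈ S then ⟨(f ⟨w.1, hw⟩).1, by
        have := (f ⟨w.1, hw⟩).2
        simp only [Finset.mem_coe] at this
        simp [this]⟩ else r'
    have hf'S : ∀ (w : V) (hw : w ∈ S) (hw' : w ∈ ((insert v S : Finset V) : Set V)),
        f' ⟨w, hw'⟩ = ⟨(f ⟨w, hw⟩).1, by
          have := (f ⟨w, hw⟩).2
          simp only [Finset.mem_coe] at this
          simp [this]⟩ := by
      intro w hw hw'
      simp only [f', hw, dif_pos]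
    have hf'v : ∀ (hw' : v ∈ ((insert v S : Finset V) : Set V)), f' ⟨v, hw'⟩ = r' := by
      intro hw'
      simp only [f', hv, dif_neg, not_false_eq_true]
    have hit : ∀ (n : ℕ) (w : V) (hw : w ∈ S) (hw' : w ∈ ((insert v S : Finset V) : Set V)),
        (f'^[n] ⟨w, hw'⟩).1 = (f^[n] ⟨w, hw⟩).1 := by
      intro n
      induction n with
      | zero => intro w hw hw'; rfl
      | succ n ih =>
        intro w hw hw'
        rw [Function.iterate_succ_apply, Function.iterate_succ_apply, hf'S w hw hw']
        exact ih _ (f ⟨w, hw⟩).2 _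
    have hac' : Acyc r' f' := by
      rintro ⟨w, hw'⟩
      by_cases hw : w ∈ S
      · obtain ⟨n, hn⟩ := hac ⟨w, hw⟩
        exact ⟨n, Subtype.ext (by rw [hit n w hw hw', hn])⟩
      · have hwv : w = v := by
          have := hw'
          simp only [Finset.coe_insert, Set.mem_insert_iff, Finset.mem_coe] at this
          tauto
        subst hwv
        exact ⟨1, by rw [Function.iterate_one, hf'v hw']⟩
    have hadj' : ∀ w, w ≠ r' → G.Adj (w : V) (f' w : V) := by
      rintro ⟨w, hw'⟩ hne
      by_cases hw : w ∈ S
      · rw [hf'S w hw hw']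
        refine hadj ⟨w, hw⟩ ?_
        intro h1
        apply hne
        have : w = u := congrArg Subtype.val h1
        exact Subtype.ext this
      · have hwv : w = v := by
          have := hw'
          simp only [Finset.coe_insert, Set.mem_insert_iff, Finset.mem_coe] at this
          tauto
        subst hwv
        rw [hf'v hw']
        exact huv
    have h2 := edg_isTree G hac' hadj'
    have h3 : edg r' f' = insert s(v, u) A := by
      rw [← hedg]
      ext e
      rw [edg, edg, Finset.mem_image, Finset.mem_insert, Finset.mem_image]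
      constructor
      · rintro ⟨⟨w, hw'⟩, hne, rfl⟩
        have hne' : (⟨w, hw'⟩ : ((insert v S : Finset V) : Set V)) ≠ r' := Finset.ne_of_mem_erase hne
        by_cases hw : w ∈ S
        · right
          refine ⟨⟨w, hw⟩, ?_, ?_⟩
          · simp only [Finset.mem_erase, Finset.mem_univ, and_true, ne_eq]
            intro h1
            have h7 : w = u := congrArg Subtype.val h1
            exact hne' (Subtype.ext h7)
          · rw [hf'S w hw hw']
        · left
          have hwv : w = v := by
            have := hw'
            simp only [Finset.coe_insert, Set.mem_insert_iff, Finset.mem_coe] at this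
            tauto
          subst hwv
          rw [hf'v hw']
      · rintro (rfl | ⟨⟨w, hw⟩, hne, rfl⟩)
        · refine ⟨⟨v, by simp⟩, ?_, ?_⟩
          · simp only [Finset.mem_erase, Finset.mem_univ, and_true, ne_eq]
            intro h1
            have : v = u := congrArg Subtype.val h1
            exact hv (this ▸ hu)
          · rw [hf'v]
        · have hw' : w ∈ ((insert v S : Finset V) : Set V) := by
            have : w ∈ S := hw
            simp [this]
          refine ⟨⟨w, hw'⟩, ?_, ?_⟩
          · simp only [Finset.mem_erase, Finset.mem_univ, and_true, ne_eq] at hne ⊢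
            intro h1
            have h7 : w = u := congrArg Subtype.val h1
            exact hne (Subtype.ext h7)
          · rw [hf'S w hw hw']
    rw [← h3]
    exact h2
  · intro h
    have hu' : u ∈ ((insert v S : Finset V) : Set V) := by simp [hu]
    have hv' : v ∈ ((insert v S : Finset V) : Set V) := by simp
    obtain ⟨f', hac', hfr', hadj', hedg'⟩ :=
      exists_parent G (⟨u, hu'⟩ : ((insert v S : Finset V) : Set V)) (insert s(v, u) A) h
    have hmemS : ∀ (w : V) (hw : w ∈ S) (hw' : w ∈ ((insert v S : Finset V) : Set V)),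
        (f' ⟨w, hw'⟩).1 ∈ S := by
      intro w hw hw'
      by_cases hwu : w = u
      · subst hwu
        rw [hfr']
        exact hu
      · have h1 := hadj' ⟨w, hw'⟩ (by intro h2; exact hwu (congrArg Subtype.val h2))
        have h2 := (f' ⟨w, hw'⟩).2
        simp only [Finset.coe_insert, Set.mem_insert_iff, Finset.mem_coe] at h2
        rcases h2 with h2 | h2
        · rw [h2] at h1
          exact absurd (honly w hw h1.symm) hwu
        · exact h2
    have hfv : f' ⟨v, hv'⟩ = ⟨u, hu'⟩ := by
      have hne : (⟨v, hv'⟩ : ((insert v S : Finset V) : Set V)) ≠ ⟨u, hu'⟩ := by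
        intro h1
        have : v = u := congrArg Subtype.val h1
        exact hv (this ▸ hu)
      have h1 := hadj' ⟨v, hv'⟩ hne
      have h2 := (f' ⟨v, hv'⟩).2
      simp only [Finset.coe_insert, Set.mem_insert_iff, Finset.mem_coe] at h2
      rcases h2 with h2 | h2
      · rw [h2] at h1
        exact absurd h1 (G.loopless.irrefl v)
      · exact Subtype.ext (honly _ h2 h1)
    let f : ↥(S : Set V) → ↥(S : Set V) := fun w =>
      ⟨(f' ⟨w.1, by have := w.2; simp only [Finset.mem_coe] at this; simp [this]⟩).1,
        hmemS w.1 w.2 _⟩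
    have hit : ∀ (n : ℕ) (w : V) (hw : w ∈ S) (hw' : w ∈ ((insert v S : Finset V) : Set V)),
        (f^[n] ⟨w, hw⟩).1 = (f'^[n] ⟨w, hw'⟩).1 := by
      intro n
      induction n with
      | zero => intro w hw hw'; rfl
      | succ n ih =>
        intro w hw hw'
        rw [Function.iterate_succ_apply, Function.iterate_succ_apply]
        exact ih _ _ _
    have hac : Acyc (⟨u, hu⟩ : (S : Set V)) f := by
      rintro ⟨w, hw⟩
      have hw' : w ∈ ((insert v S : Finset V) : Set V) := by
        have : w ∈ S := hw
        simp [this]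
      obtain ⟨n, hn⟩ := hac' ⟨w, hw'⟩
      exact ⟨n, Subtype.ext (by rw [hit n w hw hw', hn])⟩
    have hadj : ∀ w, w ≠ (⟨u, hu⟩ : (S : Set V)) → G.Adj (w : V) (f w : V) := by
      rintro ⟨w, hw⟩ hne
      refine hadj' ⟨w, _⟩ ?_
      intro h1
      have h7 : w = u := congrArg Subtype.val h1
      exact hne (Subtype.ext h7)
    have h2 := edg_isTree G hac hadj
    have h3 : edg (⟨u, hu⟩ : (S : Set V)) f = A := by
      ext e
      have h4 : e ∈ insert s(v, u) A ↔ e = s(v, u) ∨ e ∈ edg (⟨u, hu⟩ : (S : Set V)) f := by
        rw [← hedg', edg, edg, Finset.mem_image, Finset.mem_image]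
        constructor
        · rintro ⟨⟨w, hw'⟩, hne, rfl⟩
          have hne' : (⟨w, hw'⟩ : ((insert v S : Finset V) : Set V)) ≠ ⟨u, hu'⟩ := Finset.ne_of_mem_erase hne
          by_cases hw : w ∈ S
          · right
            refine ⟨⟨w, hw⟩, ?_, rfl⟩
            simp only [Finset.mem_erase, Finset.mem_univ, and_true, ne_eq]
            intro h1
            have h7 : w = u := congrArg Subtype.val h1
            exact hne' (Subtype.ext h7)
          · left
            have hwv : w = v := by
              have := hw'
              simp only [Finset.coe_insert, Set.mem_insert_iff, Finset.mem_coe] at this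
              tauto
            subst hwv
            rw [hfv]
        · rintro (rfl | ⟨⟨w, hw⟩, hne, rfl⟩)
          · refine ⟨⟨v, hv'⟩, ?_, by rw [hfv]⟩
            simp only [Finset.mem_erase, Finset.mem_univ, and_true, ne_eq]
            intro h1
            have : v = u := congrArg Subtype.val h1
            exact hv (this ▸ hu)
          · have hw' : w ∈ ((insert v S : Finset V) : Set V) := by
              have : w ∈ S := hw
              simp [this]
            refine ⟨⟨w, hw'⟩, ?_, rfl⟩
            simp only [Finset.mem_erase, Finset.mem_univ, and_true, ne_eq] at hne ⊢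
            intro h1
            have h7 : w = u := congrArg Subtype.val h1
            exact hne (Subtype.ext h7)
      have h5 : s(v, u) ∉ edg (⟨u, hu⟩ : (S : Set V)) f := by
        intro h6
        have := h2.1 h6
        rw [mem_edgesIn] at this
        exact hv this.1
      constructor
      · intro he
        have := h4.mpr (Or.inr he)
        rw [Finset.mem_insert] at this
        rcases this with h6 | h6
        · exact absurd (h6 ▸ he) h5
        · exact h6
      · intro he
        rcases h4.mp (Finset.mem_insert_of_mem he) with h6 | h6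
        · exact absurd (h6 ▸ he) hA
        · exact h6
    rw [← h3]
    exact h2

/-- Pendant vertex: same containment probabilities. -/
lemma ust_pendant (G : SimpleGraph V) (S S' : Finset V) (v : V) (hv : v ∉ S)
    (hS' : ∀ w, w ∈ S' ↔ w = v ∨ w ∈ S) (u : V) (hu : u ∈ S)
    (huv : G.Adj v u) (honly : ∀ w ∈ S, G.Adj v w → w = u) (F : Finset (Sym2 V))
    (hF : F ⊆ edgesIn G S) : ustContains G S' F = ustContains G S F := by
  classical
  have hS'' : S' = insert v S := by ext w; simp [hS']
  have key : ∀ F : Finset (Sym2 V), F ⊆ edgesIn G S → cnt G S' F = cnt G S F := by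
    intro F hF
    rw [hS'']
    unfold cnt
    rw [Nat.cast_inj]
    symm
    have hnot : ∀ A : Finset (Sym2 V), A ⊆ edgesIn G S → s(v, u) ∉ A := by
      intro A hA h
      have := hA h
      rw [mem_edgesIn] at this
      exact hv this.1
    have hvu : s(v, u) ∈ edgesIn G (insert v S) := by
      rw [mem_edgesIn]
      exact ⟨Finset.mem_insert_self _ _, Finset.mem_insert_of_mem hu, huv⟩
    refine Finset.card_bij (fun A _ => insert s(v, u) A) ?_ ?_ ?_
    · intro A hA
      rw [Finset.mem_filter, Finset.mem_powerset] at hA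
      obtain ⟨h1, h2, h3⟩ := hA
      have h4 := (pendant_iff G S v hv u hu huv honly A (hnot A h1)).mp h2
      rw [Finset.mem_filter, Finset.mem_powerset]
      exact ⟨h4.1, h4, h3.trans (Finset.subset_insert _ _)⟩
    · intro A hA B hB hAB
      rw [Finset.mem_filter, Finset.mem_powerset] at hA hB
      have h1 := hnot A hA.1
      have h2 := hnot B hB.1
      have h3 : (insert s(v, u) A).erase s(v, u) = (insert s(v, u) B).erase s(v, u) := by
        rw [show insert s(v, u) A = insert s(v, u) B from hAB]
      rwa [Finset.erase_insert h1, Finset.erase_insert h2] at h3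
    · intro B hB
      rw [Finset.mem_filter, Finset.mem_powerset] at hB
      obtain ⟨h1, h2, h3⟩ := hB
      -- `s(v,u) ∈ B`
      have hmem : s(v, u) ∈ B := by
        by_contra hcon
        -- v is isolated
        have hconn := h2.2.connected
        have hv' : v ∈ ((insert v S : Finset V) : Set V) := by simp
        have hu' : u ∈ ((insert v S : Finset V) : Set V) := by simp [hu]
        have hr := hconn.preconnected ⟨v, hv'⟩ ⟨u, hu'⟩
        obtain ⟨p⟩ := hr
        cases p with
        | nil => exact hv hu
        | cons h q =>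
          rename_i w
          simp only [SimpleGraph.comap_adj, SimpleGraph.fromEdgeSet_adj, Finset.mem_coe,
            Function.Embedding.subtype_apply] at h
          have h5 := h1 h.1
          rw [mem_edgesIn] at h5
          have h6 := h5.2.1
          rw [Finset.mem_insert] at h6
          rcases h6 with h6 | h6
          · exact h.2 h6.symm
          · have h7 := honly _ h6 h5.2.2
            apply hcon
            rw [← h7]
            exact h.1
      refine ⟨B.erase s(v, u), ?_, Finset.insert_erase hmem⟩
      have h4 : IsSpanningTreeOn G S (B.erase s(v, u)) := by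
        rw [pendant_iff G S v hv u hu huv honly _ (Finset.notMem_erase _ _)]
        rwa [Finset.insert_erase hmem]
      rw [Finset.mem_filter, Finset.mem_powerset]
      refine ⟨h4.1, h4, ?_⟩
      intro e he
      rw [Finset.mem_erase]
      refine ⟨?_, h3 he⟩
      intro h5
      have h6 := hF he
      rw [h5, mem_edgesIn] at h6
      exact hv h6.1
  rw [ustContains_eq, ustContains_eq, key F hF, key ∅ (Finset.empty_subset _)]

lemma induce_connected_insert (G : SimpleGraph V) (S S' : Finset V)
    (hS : (G.induce (S : Set V)).Connected) (v : V)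
    (hS' : ∀ w, w ∈ S' ↔ w = v ∨ w ∈ S) (u : V) (hu : u ∈ S) (huv : G.Adj v u) :
    (G.induce (S' : Set V)).Connected := by
  have hu' : u ∈ (S' : Set V) := by simp [hS', hu]
  have : Nonempty (S' : Set V) := ⟨⟨u, hu'⟩⟩
  have hreach : ∀ w : (S' : Set V), (G.induce (S' : Set V)).Reachable w ⟨u, hu'⟩ := by
    rintro ⟨w, hw⟩
    have hw1 := hw
    rw [Finset.mem_coe, hS'] at hw1
    rcases hw1 with rfl | hw1
    · exact SimpleGraph.Adj.reachable (by simpa using huv)
    · have h1 := hS.preconnected ⟨w, hw1⟩ ⟨u, hu⟩
      have hsub : ∀ a : ↥(S : Set V), a.1 ∈ (S' : Set V) := by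
        intro a
        have := a.2
        rw [Finset.mem_coe] at this ⊢
        rw [hS']
        exact Or.inr this
      let hmap : (G.induce (S : Set V)) →g (G.induce (S' : Set V)) :=
        { toFun := fun a : ↥(S : Set V) => (⟨a.1, hsub a⟩ : ↥(S' : Set V))
          map_rel' := by
            intro a b hab
            simpa using hab }
      exact h1.map hmap
  exact SimpleGraph.Connected.mk fun a b => (hreach a).trans (hreach b).symm

/-- One-vertex step. -/
lemma ust_insert_le (G : SimpleGraph V) (S S' : Finset V)
    (hS : (G.induce (S : Set V)).Connected) (v : V) (hv : v ∉ S)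
    (hS' : ∀ w, w ∈ S' ↔ w = v ∨ w ∈ S) (u : V) (hu : u ∈ S) (huv : G.Adj v u)
    (F : Finset (Sym2 V)) (hF : F ⊆ edgesIn G S) :
    ustContains G S' F ≤ ustContains G S F := by
  classical
  -- the edges to delete
  set D : Finset (Sym2 V) := (S.erase u).image (fun w => s(v, w)) with hD
  have hDmem : ∀ a b, s(a, b) ∈ D → (a = v ∧ b ∈ S ∧ b ≠ u) ∨ (b = v ∧ a ∈ S ∧ a ≠ u) := by
    intro a b h
    rw [hD, Finset.mem_image] at h
    obtain ⟨w, hw, h2⟩ := h
    rw [Finset.mem_erase] at hw
    rw [Sym2.eq_iff] at h2
    rcases h2 with ⟨rfl, rfl⟩ | ⟨rfl, rfl⟩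
    · exact Or.inl ⟨rfl, hw.2, hw.1⟩
    · exact Or.inr ⟨rfl, hw.2, hw.1⟩
  have hadjS : ∀ K : Finset (Sym2 V), K ⊆ D → ∀ a ∈ S, ∀ b ∈ S, G.Adj a b →
      (G.deleteEdges (K : Set (Sym2 V))).Adj a b := by
    intro K hK a ha b hb hab
    rw [SimpleGraph.deleteEdges_adj]
    refine ⟨hab, fun h => ?_⟩
    rcases hDmem a b (hK h) with ⟨h1, _⟩ | ⟨h1, _⟩
    · exact hv (h1 ▸ ha)
    · exact hv (h1 ▸ hb)
  have hvuD : s(v, u) ∉ D := by
    intro h
    rcases hDmem v u h with ⟨_, _, h1⟩ | ⟨h1, _⟩
    · exact h1 rfl
    · exact hv (h1 ▸ hu)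
  have hSK : ∀ K : Finset (Sym2 V), K ⊆ D →
      ((G.deleteEdges (K : Set (Sym2 V))).induce (S : Set V)).Connected := by
    intro K hK
    refine hS.mono ?_
    intro a b hab
    exact hadjS K hK a.1 a.2 b.1 b.2 hab
  have hconn : ∀ K : Finset (Sym2 V), K ⊆ D →
      ((G.deleteEdges (K : Set (Sym2 V))).induce (S' : Set V)).Connected := by
    intro K hK
    refine induce_connected_insert _ S S' (hSK K hK) v hS' u hu ?_
    rw [SimpleGraph.deleteEdges_adj]
    exact ⟨huv, fun h => hvuD (hK h)⟩
  have hFK : ∀ K : Finset (Sym2 V), K ⊆ D → F ⊆ edgesIn (G.deleteEdges (K : Set (Sym2 V))) S := by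
    intro K hK e he
    have he1 := hF he
    induction e using Sym2.ind with
    | _ a b =>
    rw [mem_edgesIn] at he1 ⊢
    exact ⟨he1.1, he1.2.1, hadjS K hK a he1.1 b he1.2.1 he1.2.2⟩
  have hedgS' : ∀ H : SimpleGraph V, edgesIn H S ⊆ edgesIn H S' := by
    intro H e he
    induction e using Sym2.ind with
    | _ a b =>
    rw [mem_edgesIn] at he ⊢
    exact ⟨(hS' a).mpr (Or.inr he.1), (hS' b).mpr (Or.inr he.2.1), he.2.2⟩
  have key : ∀ K : Finset (Sym2 V), K ⊆ D →
      ustContains G S' F ≤ ustContains (G.deleteEdges (K : Set (Sym2 V))) S' F := by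
    intro K
    induction K using Finset.induction with
    | empty => intro _; simp
    | insert g K hg ih =>
      intro hK
      have hK' : K ⊆ D := (Finset.subset_insert _ _).trans hK
      refine (ih hK').trans ?_
      have h1 : G.deleteEdges ((insert g K : Finset (Sym2 V)) : Set (Sym2 V)) =
          (G.deleteEdges (K : Set (Sym2 V))).deleteEdges {g} := by
        rw [SimpleGraph.deleteEdges_deleteEdges, Finset.coe_insert, Set.insert_eq, Set.union_comm]
      rw [h1]
      apply ust_delete_le
      · exact (hFK K hK').trans (hedgS' _)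
      · intro hgF
        have h2 := hF hgF
        have h3 := hK (Finset.mem_insert_self g K)
        induction g using Sym2.ind with
        | _ a b =>
        rw [mem_edgesIn] at h2
        rcases hDmem a b h3 with ⟨h4, _⟩ | ⟨h4, _⟩
        · exact hv (h4 ▸ h2.1)
        · exact hv (h4 ▸ h2.2.1)
      · rw [← h1]
        exact hconn _ hK
  refine (key D (Finset.Subset.refl _)).trans ?_
  have h1 : ustContains (G.deleteEdges (D : Set (Sym2 V))) S' F =
      ustContains (G.deleteEdges (D : Set (Sym2 V))) S F := by
    refine ust_pendant _ S S' v hv hS' u hu ?_ ?_ F (hFK D (Finset.Subset.refl _))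
    · rw [SimpleGraph.deleteEdges_adj]
      exact ⟨huv, fun h => hvuD h⟩
    · intro w hw hadj
      rw [SimpleGraph.deleteEdges_adj] at hadj
      by_contra hne
      apply hadj.2
      rw [Finset.mem_coe, hD, Finset.mem_image]
      exact ⟨w, by rw [Finset.mem_erase]; exact ⟨hne, hw⟩, rfl⟩
  rw [h1]
  have h2 : edgesIn (G.deleteEdges (D : Set (Sym2 V))) S = edgesIn G S := by
    apply Finset.Subset.antisymm (edgesIn_mono (SimpleGraph.deleteEdges_le _) S)
    intro e he
    induction e using Sym2.ind with
    | _ a b =>
    rw [mem_edgesIn] at he ⊢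
    exact ⟨he.1, he.2.1, hadjS D (Finset.Subset.refl _) a he.1 b he.2.1 he.2.2⟩
  have h3 : ∀ F', cnt (G.deleteEdges (D : Set (Sym2 V))) S F' = cnt G S F' := by
    intro F'
    have h4 : ∀ A, IsSpanningTreeOn (G.deleteEdges (D : Set (Sym2 V))) S A ↔
        IsSpanningTreeOn G S A := by
      intro A
      unfold IsSpanningTreeOn
      rw [h2]
    unfold cnt
    congr 2
    ext A
    rw [Finset.mem_filter, Finset.mem_filter, h4, h2]
  rw [ustContains_eq, ustContains_eq, h3, h3]

/-- T2. Free-boundary spanning tree measures are decreasing in the vertex set. -/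
theorem ustContains_anti {V : Type*} (G : SimpleGraph V) (S S' : Finset V)
    (hS : (G.induce (S : Set V)).Connected) (hS' : (G.induce (S' : Set V)).Connected)
    (h : S ⊆ S') (F : Finset (Sym2 V)) (hF : F ⊆ edgesIn G S) :
    ustContains G S' F ≤ ustContains G S F := by
  classical
  induction hn : (S' \ S).card using Nat.strong_induction_on generalizing S with
  | _ n ih =>
  by_cases hE : S' \ S = ∅
  · have : S = S' := Finset.Subset.antisymm h (Finset.sdiff_eq_empty_iff_subset.mp hE)
    rw [this]
  · -- find a vertex of `S' \ S` adjacent to `S`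
    obtain ⟨x, hx⟩ := Finset.nonempty_iff_ne_empty.mpr hE
    rw [Finset.mem_sdiff] at hx
    obtain ⟨⟨y, hy⟩⟩ := hS.nonempty
    have hy' : y ∈ S' := h hy
    obtain ⟨p⟩ := hS'.preconnected ⟨x, hx.1⟩ ⟨y, hy'⟩
    have hex : ∀ {a b : (S' : Set V)} (p : (G.induce (S' : Set V)).Walk a b), a.1 ∉ S → b.1 ∈ S →
        ∃ v u, v ∈ S' ∧ v ∉ S ∧ u ∈ S ∧ G.Adj v u := by
      intro a b p
      induction p with
      | nil => intro h1 h2; exact absurd h2 h1
      | cons hadj q ihq =>
        rename_i a' c b'
        intro h1 h2
        by_cases hc : c.1 ∈ S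
        · exact ⟨a'.1, c.1, a'.2, h1, hc, by simpa using hadj⟩
        · exact ihq hc h2
    obtain ⟨v, u, hvS', hvS, huS, huv⟩ := hex p hx.2 hy
    have h1 : ∀ w, w ∈ insert v S ↔ w = v ∨ w ∈ S := fun w => Finset.mem_insert
    have h2 := ust_insert_le G S (insert v S) hS v hvS h1 u huS huv F hF
    have h3 := induce_connected_insert G S (insert v S) hS v h1 u huS huv
    have h4 : insert v S ⊆ S' := Finset.insert_subset hvS' h
    have h5 : F ⊆ edgesIn G (insert v S) := by
      intro e he
      have he1 := hF he
      induction e using Sym2.ind with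
      | _ a b =>
      rw [mem_edgesIn] at he1 ⊢
      exact ⟨Finset.mem_insert_of_mem he1.1, Finset.mem_insert_of_mem he1.2.1, he1.2.2⟩
    have h6 : (S' \ insert v S).card < n := by
      rw [← hn]
      apply Finset.card_lt_card
      rw [Finset.ssubset_iff_of_subset (Finset.sdiff_subset_sdiff (Finset.Subset.refl _)
        (Finset.subset_insert _ _))]
      exact ⟨v, by rw [Finset.mem_sdiff]; exact ⟨hvS', hvS⟩, by simp⟩
    exact (ih _ h6 (insert v S) h3 h4 h5 rfl).trans h2

end Crest.Agent.FIID.T2
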