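import Mathlib

/-!
T5: limits of normalised stable window polynomials are stable.
-/

set_option autoImplicit false

open Filter Topology Polynomial

namespace Crest.Agent.FIID.T5

/-- A polynomial without roots in the disc of radius `δ` grows in a controlled way. -/
theorem poly_growth (g : ℂ[X]) (n : ℕ) (hn : g.natDegree ≤ n) (δ R : ℝ) (hδ : 0 < δ) (hR : 0 ≤ R)
    (hroot : ∀ t : ℂ, ‖t‖ < δ → g.eval t ≠ 0) :
    ‖g.eval (R : ℂ)‖ ≤ ‖g.eval 0‖ * (1 + R / δ) ^ n := by
  have hs : Splits g := IsAlgClosed.splits g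
  have h1 := hs.eval_eq_prod_roots (R : ℂ)
  have h0 := hs.eval_eq_prod_roots (0 : ℂ)
  rw [h1, h0, norm_mul, norm_mul, mul_assoc]
  apply mul_le_mul_of_nonneg_left _ (norm_nonneg _)
  have hmem : ∀ r ∈ g.roots, δ ≤ ‖r‖ := by
    intro r hr
    by_contra hc
    push Not at hc
    exact hroot r hc ((mem_roots'.mp hr).2)
  have hcard : Multiset.card g.roots ≤ n := (card_roots' g).trans hn
  have hge1 : 1 ≤ 1 + R / δ := by
    have : 0 ≤ R / δ := div_nonneg hR hδ.le
    linarith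
  have key : ∀ m : Multiset ℂ, (∀ r ∈ m, δ ≤ ‖r‖) →
      ‖(m.map (fun r => (R : ℂ) - r)).prod‖ ≤
        ‖(m.map (fun r => (0 : ℂ) - r)).prod‖ * (1 + R / δ) ^ (Multiset.card m) := by
    intro m
    induction m using Multiset.induction with
    | empty => intro _; simp
    | cons r m ih =>
      intro hm
      rw [Multiset.map_cons, Multiset.prod_cons, Multiset.map_cons, Multiset.prod_cons,
        Multiset.card_cons, norm_mul, norm_mul, pow_succ]
      have h2 := ih (fun r hr => hm r (Multiset.mem_cons_of_mem hr))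
      have hr : δ ≤ ‖r‖ := hm r (Multiset.mem_cons_self _ _)
      have h3 : ‖(R : ℂ) - r‖ ≤ ‖(0:ℂ) - r‖ * (1 + R / δ) := by
        calc ‖(R : ℂ) - r‖ ≤ ‖(R : ℂ)‖ + ‖r‖ := norm_sub_le _ _
          _ = R + ‖r‖ := by rw [Complex.norm_real, Real.norm_eq_abs, abs_of_nonneg hR]
          _ ≤ ‖r‖ * (1 + R / δ) := by
              have : R ≤ ‖r‖ * (R / δ) := by
                calc R = δ * (R / δ) := by field_simp
                  _ ≤ ‖r‖ * (R / δ) := mul_le_mul_of_nonneg_right hr (div_nonneg hR hδ.le)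
              linarith
          _ = ‖(0:ℂ) - r‖ * (1 + R / δ) := by rw [zero_sub, norm_neg]
      calc ‖(R : ℂ) - r‖ * ‖(m.map (fun r => (R : ℂ) - r)).prod‖
          ≤ (‖(0:ℂ) - r‖ * (1 + R / δ)) *
            (‖(m.map (fun r => (0 : ℂ) - r)).prod‖ * (1 + R / δ) ^ (Multiset.card m)) :=
            mul_le_mul h3 h2 (norm_nonneg _) (by positivity)
        _ = ‖(0:ℂ) - r‖ * ‖(m.map (fun r => (0 : ℂ) - r)).prod‖ *
            ((1 + R / δ) ^ (Multiset.card m) * (1 + R / δ)) := by ring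
  refine (key g.roots hmem).trans ?_
  apply mul_le_mul_of_nonneg_left _ (norm_nonneg _)
  exact pow_le_pow_right₀ hge1 hcard

open scoped Classical in
/-- T5. Limits of normalised stable window polynomials are stable. -/
theorem stable_of_tendsto {E ι : Type*} (l : Filter ι) [l.NeBot] (W : Finset E)
    (q : ι → Finset E → ℝ) (q' : Finset E → ℝ)
    (hq : ∀ᶠ i in l, ∀ z : E → ℂ, (∀ j ∈ W, 0 < (z j).im) →
      ∑ S ∈ W.powerset, (q i S : ℂ) * ∏ j ∈ S, z j ≠ 0)
    (hsum : ∀ᶠ i in l, ∑ S ∈ W.powerset, q i S = 1)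
    (hlim : ∀ S, S ⊆ W → Tendsto (fun i => q i S) l (𝓝 (q' S))) :
    ∀ z : E → ℂ, (∀ j ∈ W, 0 < (z j).im) →
      ∑ S ∈ W.powerset, (q' S : ℂ) * ∏ j ∈ S, z j ≠ 0 := by
  intro z hz
  -- lower bound for the imaginary parts
  obtain ⟨δ, hδ, hδz⟩ : ∃ δ : ℝ, 0 < δ ∧ ∀ j ∈ W, δ ≤ (z j).im := by
    rcases W.eq_empty_or_nonempty with h | h
    · exact ⟨1, one_pos, by simp [h]⟩
    · obtain ⟨j₀, hj₀, hmin⟩ := W.exists_min_image (fun j => (z j).im) h
      exact ⟨(z j₀).im, hz j₀ hj₀, hmin⟩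
  obtain ⟨R, hR1, hRz⟩ : ∃ R : ℝ, 1 ≤ R ∧ ∀ j ∈ W, ‖1 - z j‖ ≤ R := by
    refine ⟨1 + ∑ j ∈ W, ‖1 - z j‖, ?_, ?_⟩
    · have : 0 ≤ ∑ j ∈ W, ‖1 - z j‖ := Finset.sum_nonneg (fun _ _ => norm_nonneg _)
      linarith
    · intro j hj
      have := Finset.single_le_sum (f := fun j => ‖1 - z j‖) (fun _ _ => norm_nonneg _) hj
      linarith
  have hR0 : 0 < R := by linarith
  set v : E → ℂ := fun j => (1 - z j) / R with hv
  set g : ι → ℂ[X] := fun i => ∑ S ∈ W.powerset, C (q i S : ℂ) * ∏ j ∈ S, (C (z j) + C (v j) * X)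
    with hg
  have heval : ∀ i t, (g i).eval t = ∑ S ∈ W.powerset, (q i S : ℂ) * ∏ j ∈ S, (z j + v j * t) := by
    intro i t
    simp only [hg, eval_finset_sum, eval_mul, eval_C, eval_prod, eval_add, eval_X]
  have hdeg : ∀ i, (g i).natDegree ≤ W.card := by
    intro i
    apply natDegree_sum_le_of_forall_le
    intro S hS
    have hSW := Finset.mem_powerset.mp hS
    calc (C (q i S : ℂ) * ∏ j ∈ S, (C (z j) + C (v j) * X)).natDegree
        ≤ (∏ j ∈ S, (C (z j) + C (v j) * X)).natDegree := natDegree_C_mul_le _ _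
      _ ≤ ∑ j ∈ S, (C (z j) + C (v j) * X).natDegree := natDegree_prod_le _ _
      _ ≤ ∑ j ∈ S, 1 := by
          apply Finset.sum_le_sum
          intro j _
          refine (natDegree_add_le _ _).trans ?_
          rw [natDegree_C]
          exact max_le (by norm_num) ((natDegree_C_mul_le _ _).trans natDegree_X_le)
      _ = S.card := by simp
      _ ≤ W.card := Finset.card_le_card hSW
  have hroots : ∀ᶠ i in l, ∀ t : ℂ, ‖t‖ < δ → (g i).eval t ≠ 0 := by
    filter_upwards [hq] with i hi t ht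
    rw [heval]
    apply hi
    intro j hj
    have hvj : ‖v j‖ ≤ 1 := by
      simp only [hv]
      rw [norm_div, Complex.norm_real, Real.norm_eq_abs, abs_of_pos hR0, div_le_one hR0]
      exact hRz j hj
    have h1 : ‖v j * t‖ < δ := by
      rw [norm_mul]
      calc ‖v j‖ * ‖t‖ ≤ 1 * ‖t‖ := mul_le_mul_of_nonneg_right hvj (norm_nonneg _)
        _ < δ := by rw [one_mul]; exact ht
    have h2 := Complex.abs_im_le_norm (v j * t)
    have h3 := abs_le.mp h2
    rw [Complex.add_im]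
    have := hδz j hj
    linarith
  have hone : ∀ᶠ i in l, (g i).eval (R : ℂ) = 1 := by
    filter_upwards [hsum] with i hi
    rw [heval]
    have h1 : ∀ S ∈ W.powerset, (q i S : ℂ) * ∏ j ∈ S, (z j + v j * (R : ℂ)) = (q i S : ℂ) := by
      intro S _
      have h2 : ∀ j ∈ S, z j + v j * (R : ℂ) = 1 := by
        intro j _
        simp only [hv]
        have : (R : ℂ) ≠ 0 := by exact_mod_cast hR0.ne'
        field_simp
        ring
      rw [Finset.prod_congr rfl h2]
      simp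
    rw [Finset.sum_congr rfl h1]
    exact_mod_cast hi
  have hbound : ∀ᶠ i in l, 1 ≤ ‖∑ S ∈ W.powerset, (q i S : ℂ) * ∏ j ∈ S, z j‖ * (1 + R / δ) ^ W.card := by
    filter_upwards [hroots, hone] with i hi h1
    have h2 := poly_growth (g i) W.card (hdeg i) δ R hδ hR0.le hi
    rw [h1, heval] at h2
    simpa using h2
  have hlim' : Tendsto (fun i => ‖∑ S ∈ W.powerset, (q i S : ℂ) * ∏ j ∈ S, z j‖ * (1 + R / δ) ^ W.card) l
      (𝓝 (‖∑ S ∈ W.powerset, (q' S : ℂ) * ∏ j ∈ S, z j‖ * (1 + R / δ) ^ W.card)) := by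
    apply Tendsto.mul_const
    apply Tendsto.norm
    apply tendsto_finset_sum
    intro S hS
    apply Tendsto.mul_const
    exact (Complex.continuous_ofReal.tendsto _).comp (hlim S (Finset.mem_powerset.mp hS))
  have hfin := ge_of_tendsto hlim' hbound
  intro hzero
  rw [hzero] at hfin
  simp at hfin
  linarith

end Crest.Agent.FIID.T5
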