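import Mathlib
import Crest.Agent.FIID.Defs
import Crest.Agent.FIID.T1
import Crest.Agent.FIID.T5

/-!
T4: the window law of the free uniform spanning forest.
-/

set_option autoImplicit false

open MeasureTheory Filter Topology

namespace Crest.Agent.FIID.T4

open Crest.Agent.FIID Crest.ProbabilityR Crest.ProbabilityR.SpanningTrees Crest.ProbabilityR.GraphTables

open scoped Classical

/-- spanning trees of the piece -/
noncomputable def trees (G : SimpleGraph ℕ) (S : Finset ℕ) : Finset (Finset (Sym2 ℕ)) :=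
  (edgesIn G S).powerset.filter (fun A => IsSpanningTreeOn G S A)

/-- law of the uniform spanning tree of the piece in the window `W` -/
noncomputable def rho (G : SimpleGraph ℕ) (S : Finset ℕ) (W R : Finset (Sym2 ℕ)) : ℝ :=
  (((trees G S).filter (fun A => A ∩ W = R)).card : ℝ) / ((trees G S).card : ℝ)

theorem ust_eq (G : SimpleGraph ℕ) (S : Finset ℕ) (F : Finset (Sym2 ℕ)) :
    ustContains G S F = (((trees G S).filter (fun A => F ⊆ A)).card : ℝ) / ((trees G S).card : ℝ) := by
  unfold ustContains trees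
  rw [Finset.filter_filter]
  congr! 3
  ext A
  simp only [Finset.mem_filter]

theorem rho_self (G : SimpleGraph ℕ) (S : Finset ℕ) (F : Finset (Sym2 ℕ)) :
    rho G S F F = ustContains G S F := by
  rw [ust_eq]
  unfold rho
  congr 3
  apply Finset.filter_congr
  intro A _
  exact Finset.inter_eq_right

theorem rho_nonneg (G : SimpleGraph ℕ) (S : Finset ℕ) (W R : Finset (Sym2 ℕ)) : 0 ≤ rho G S W R := by
  unfold rho; positivity

theorem rho_le_one (G : SimpleGraph ℕ) (S : Finset ℕ) (W R : Finset (Sym2 ℕ)) : rho G S W R ≤ 1 := by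
  unfold rho
  apply div_le_one_of_le₀ _ (by positivity)
  exact_mod_cast Finset.card_filter_le _ _

theorem mem_edgesIn (G : SimpleGraph ℕ) (S : Finset ℕ) (e : Sym2 ℕ) :
    e ∈ edgesIn G S ↔ (∀ a ∈ e, a ∈ S) ∧ e ∈ G.edgeSet := by
  unfold edgesIn
  rw [Finset.mem_filter, Finset.mem_sym2_iff]

theorem ust_zero (G : SimpleGraph ℕ) (S : Finset ℕ) (F : Finset (Sym2 ℕ))
    (hF : ¬ (F : Set (Sym2 ℕ)) ⊆ G.edgeSet) : ustContains G S F = 0 := by
  rw [ust_eq]
  have : (trees G S).filter (fun A => F ⊆ A) = ∅ := by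
    rw [Finset.filter_eq_empty_iff]
    intro A hA hFA
    apply hF
    intro e he
    unfold trees at hA
    rw [Finset.mem_filter, Finset.mem_powerset] at hA
    exact ((mem_edgesIn G S e).mp (hA.1 (hFA he))).2
  rw [this]
  simp

/-! ### positivity of the number of trees; algebra of `rho` -/

theorem card_trees_pos {G : SimpleGraph ℕ} {S : Finset ℕ} (hS : (G.induce (S : Set ℕ)).Connected) :
    0 < (trees G S).card := by
  have h := T1.tree_poly_ne_zero G S hS ∅ (fun _ => 1) (by simp) (by simp)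
  rw [Nat.pos_iff_ne_zero]
  intro hc
  apply h
  have h2 : trees G S = ∅ := Finset.card_eq_zero.mp hc
  unfold trees at h2
  rw [h2]
  simp

theorem rho_fiber (G : SimpleGraph ℕ) (S : Finset ℕ) (W : Finset (Sym2 ℕ)) (f : Finset (Sym2 ℕ) → ℝ) :
    ∑ R ∈ W.powerset, rho G S W R * f R =
      (∑ A ∈ trees G S, f (A ∩ W)) / ((trees G S).card : ℝ) := by
  unfold rho
  simp_rw [div_mul_eq_mul_div]
  rw [← Finset.sum_div]
  congr 1
  rw [← Finset.sum_fiberwise_of_maps_to (s := trees G S) (t := W.powerset) (g := fun A => A ∩ W)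
    (fun A _ => by simp) (fun A => f (A ∩ W))]
  apply Finset.sum_congr rfl
  intro R _
  rw [Finset.card_eq_sum_ones]
  push_cast
  rw [Finset.sum_mul]
  apply Finset.sum_congr rfl
  intro A hA
  rw [(Finset.mem_filter.mp hA).2]
  ring

theorem rho_fiber_complex (G : SimpleGraph ℕ) (S : Finset ℕ) (W : Finset (Sym2 ℕ))
    (f : Finset (Sym2 ℕ) → ℂ) :
    ∑ R ∈ W.powerset, (rho G S W R : ℂ) * f R =
      (∑ A ∈ trees G S, f (A ∩ W)) / ((trees G S).card : ℂ) := by
  unfold rho
  push_cast
  simp_rw [div_mul_eq_mul_div]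
  rw [← Finset.sum_div]
  congr 1
  rw [← Finset.sum_fiberwise_of_maps_to (s := trees G S) (t := W.powerset) (g := fun A => A ∩ W)
    (fun A _ => by simp) (fun A => f (A ∩ W))]
  apply Finset.sum_congr rfl
  intro R _
  rw [Finset.card_eq_sum_ones]
  push_cast
  rw [Finset.sum_mul]
  apply Finset.sum_congr rfl
  intro A hA
  rw [(Finset.mem_filter.mp hA).2]
  ring

theorem rho_total {G : SimpleGraph ℕ} {S : Finset ℕ} (hS : (G.induce (S : Set ℕ)).Connected)
    (W : Finset (Sym2 ℕ)) : ∑ R ∈ W.powerset, rho G S W R = 1 := by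
  have h := rho_fiber G S W (fun _ => 1)
  simp only [mul_one] at h
  rw [h]
  have := card_trees_pos hS
  rw [Finset.sum_const, nsmul_eq_mul, mul_one]
  exact div_self (by positivity)

theorem rho_consistent (G : SimpleGraph ℕ) (S : Finset ℕ) {W W' : Finset (Sym2 ℕ)} (hW : W ⊆ W')
    (R : Finset (Sym2 ℕ)) (hR : R ⊆ W) :
    rho G S W R = ∑ R' ∈ W'.powerset.filter (fun R' => R' ∩ W = R), rho G S W' R' := by
  have h := rho_fiber G S W' (fun R' => if R' ∩ W = R then 1 else 0)
  simp only [mul_ite, mul_one, mul_zero] at h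
  rw [Finset.sum_filter, h]
  unfold rho
  congr 1
  rw [Finset.card_filter]
  push_cast
  apply Finset.sum_congr rfl
  intro A _
  rw [Finset.inter_assoc, Finset.inter_eq_right.mpr hW]

theorem rho_up (G : SimpleGraph ℕ) (S : Finset ℕ) (W R : Finset (Sym2 ℕ)) (hR : R ⊆ W) :
    ustContains G S R = ∑ R' ∈ W.powerset.filter (fun R' => R ⊆ R'), rho G S W R' := by
  have h := rho_fiber G S W (fun R' => if R ⊆ R' then 1 else 0)
  simp only [mul_ite, mul_one, mul_zero] at h
  rw [Finset.sum_filter, h, ust_eq]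
  congr 1
  rw [Finset.card_filter]
  push_cast
  apply Finset.sum_congr rfl
  intro A _
  have : R ⊆ A ↔ R ⊆ A ∩ W := by
    rw [Finset.subset_inter_iff]
    exact ⟨fun h => ⟨h, hR⟩, fun h => h.1⟩
  simp only [this]

theorem rho_stable {G : SimpleGraph ℕ} {S : Finset ℕ} (hS : (G.induce (S : Set ℕ)).Connected)
    (W : Finset (Sym2 ℕ)) (z : Sym2 ℕ → ℂ) (hz : ∀ i ∈ W, 0 < (z i).im) :
    ∑ R ∈ W.powerset, (rho G S W R : ℂ) * ∏ i ∈ R, z i ≠ 0 := by
  rw [rho_fiber_complex G S W (fun R => ∏ i ∈ R, z i)]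
  have hN := card_trees_pos hS
  apply div_ne_zero
  · have h := T1.tree_poly_ne_zero G S hS W (fun e => if e ∈ W then z e else 1)
      (fun e he => by simp only [he, if_true]; exact hz e he) (fun e he => by simp [he])
    have h2 : ∑ A ∈ trees G S, ∏ i ∈ A ∩ W, z i =
        ∑ A ∈ trees G S, ∏ e ∈ A, (if e ∈ W then z e else 1) := by
      apply Finset.sum_congr rfl
      intro A _
      rw [← Finset.filter_mem_eq_inter, Finset.prod_filter]
    rw [h2]
    exact h
  · exact_mod_cast hN.ne'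

/-! ### the filter of connected pieces -/

def Conn (G : SimpleGraph ℕ) : Set (Finset ℕ) := {S | (G.induce (S : Set ℕ)).Connected}

noncomputable def LG (G : SimpleGraph ℕ) : Filter (Finset ℕ) := atTop ⊓ 𝓟 (Conn G)

theorem exists_conn {G : SimpleGraph ℕ} (hG : G.Connected) (B : Finset ℕ) :
    ∃ S ∈ Conn G, B ⊆ S := by
  obtain ⟨S, hS, hc⟩ := SimpleGraph.extend_finset_to_connected hG.preconnected
    (t := insert 0 B) (Finset.insert_nonempty _ _)
  exact ⟨S, hc, (Finset.subset_insert _ _).trans hS⟩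

theorem LG_neBot {G : SimpleGraph ℕ} (hG : G.Connected) : (LG G).NeBot := by
  unfold LG
  rw [inf_principal_neBot_iff]
  intro U hU
  rw [mem_atTop_sets] at hU
  obtain ⟨B, hB⟩ := hU
  obtain ⟨S, hS, hBS⟩ := exists_conn hG B
  exact ⟨S, hB S hBS, hS⟩

theorem ev_conn (G : SimpleGraph ℕ) : ∀ᶠ S in LG G, S ∈ Conn G :=
  eventually_inf_principal.mpr (Eventually.of_forall fun _ h => h)

theorem ev_edges (G : SimpleGraph ℕ) (F : Finset (Sym2 ℕ)) (hF : (F : Set (Sym2 ℕ)) ⊆ G.edgeSet) :
    ∀ᶠ S : Finset ℕ in atTop, F ⊆ edgesIn G S := by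
  have h : ∀ e ∈ F, ∀ᶠ S : Finset ℕ in atTop, e ∈ edgesIn G S := by
    intro e he
    have heG := hF he
    induction e using Sym2.ind with
    | _ a b =>
      filter_upwards [eventually_ge_atTop ({a, b} : Finset ℕ)] with S hS
      rw [mem_edgesIn]
      refine ⟨fun c hc => ?_, heG⟩
      rw [Sym2.mem_iff] at hc
      rcases hc with rfl | rfl
      · exact hS (by simp)
      · exact hS (by simp)
  have := (Filter.eventually_all_finset F).mpr h
  filter_upwards [this] with S hS e he
  exact hS e he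

theorem edgesIn_mono (G : SimpleGraph ℕ) {S S' : Finset ℕ} (h : S ⊆ S') :
    edgesIn G S ⊆ edgesIn G S' := by
  intro e he
  rw [mem_edgesIn] at he ⊢
  exact ⟨fun a ha => h (he.1 a ha), he.2⟩

section

variable (hT2 : ∀ (G : SimpleGraph ℕ) (S S' : Finset ℕ), (G.induce (S : Set ℕ)).Connected →
    (G.induce (S' : Set ℕ)).Connected → S ⊆ S' → ∀ F : Finset (Sym2 ℕ), F ⊆ edgesIn G S →
    ustContains G S' F ≤ ustContains G S F)

include hT2

theorem tendsto_ust {G : SimpleGraph ℕ} (hG : G.Connected) (F : Finset (Sym2 ℕ)) :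
    ∃ ℓ : ℝ, Tendsto (fun S => ustContains G S F) (LG G) (𝓝 ℓ) := by
  by_cases hF : (F : Set (Sym2 ℕ)) ⊆ G.edgeSet
  · set V : Set ℝ := {x | ∃ S ∈ Conn G, F ⊆ edgesIn G S ∧ ustContains G S F = x} with hV
    have hbdd : BddBelow V := by
      refine ⟨0, ?_⟩
      rintro x ⟨S, _, _, rfl⟩
      rw [← rho_self]
      exact rho_nonneg _ _ _ _
    have hne : V.Nonempty := by
      obtain ⟨B, hB⟩ := (ev_edges G F hF).exists
      obtain ⟨S, hS, hBS⟩ := exists_conn hG B
      exact ⟨_, S, hS, hB.trans (edgesIn_mono G hBS), rfl⟩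
    refine ⟨sInf V, ?_⟩
    rw [Metric.tendsto_nhds]
    intro ε hε
    obtain ⟨x, ⟨S₀, hS₀, hFS₀, rfl⟩, hx⟩ := exists_lt_of_csInf_lt hne (lt_add_of_pos_right (sInf V) hε)
    unfold LG
    rw [eventually_inf_principal]
    filter_upwards [eventually_ge_atTop S₀] with S hS hSC
    have h1 : ustContains G S F ≤ ustContains G S₀ F := hT2 G S₀ S hS₀ hSC hS F hFS₀
    have h2 : sInf V ≤ ustContains G S F :=
      csInf_le hbdd ⟨S, hSC, hFS₀.trans (edgesIn_mono G hS), rfl⟩
    rw [Real.dist_eq, abs_of_nonneg (by linarith)]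
    linarith
  · refine ⟨0, ?_⟩
    simp_rw [ust_zero G _ F hF]
    exact tendsto_const_nhds

theorem tendsto_rho {G : SimpleGraph ℕ} (hG : G.Connected) (W : Finset (Sym2 ℕ)) :
    ∀ n : ℕ, ∀ R, R ⊆ W → (W \ R).card = n →
      ∃ ℓ : ℝ, Tendsto (fun S => rho G S W R) (LG G) (𝓝 ℓ) := by
  intro n
  induction n using Nat.strong_induction_on with
  | _ n ih =>
    intro R hR hn
    obtain ⟨ℓ, hℓ⟩ := tendsto_ust hT2 hG R
    have hsplit : ∀ S, rho G S W R = ustContains G S R -
        ∑ R' ∈ (W.powerset.filter (fun R' => R ⊆ R')).erase R, rho G S W R' := by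
      intro S
      rw [rho_up G S W R hR, ← Finset.add_sum_erase _ _ (by
        rw [Finset.mem_filter, Finset.mem_powerset]
        exact ⟨hR, Finset.Subset.refl R⟩)]
      ring
    have hlim : ∀ R' ∈ (W.powerset.filter (fun R' => R ⊆ R')).erase R,
        ∃ ℓ' : ℝ, Tendsto (fun S => rho G S W R') (LG G) (𝓝 ℓ') := by
      intro R' hR'
      rw [Finset.mem_erase, Finset.mem_filter, Finset.mem_powerset] at hR'
      apply ih (W \ R').card _ R' hR'.2.1 rfl
      rw [← hn]
      apply Finset.card_lt_card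
      rw [Finset.ssubset_iff_subset_ne]
      refine ⟨Finset.sdiff_subset_sdiff (Finset.Subset.refl W) hR'.2.2, ?_⟩
      intro heq
      apply hR'.1
      apply Finset.Subset.antisymm _ hR'.2.2
      intro e he
      by_contra hc
      have : e ∈ W \ R := Finset.mem_sdiff.mpr ⟨hR'.2.1 he, hc⟩
      rw [← heq] at this
      exact (Finset.mem_sdiff.mp this).2 he
    choose! ℓ' hℓ' using hlim
    refine ⟨ℓ - ∑ R' ∈ (W.powerset.filter (fun R' => R ⊆ R')).erase R, ℓ' R', ?_⟩
    simp_rw [hsplit]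
    exact hℓ.sub (tendsto_finset_sum _ hℓ')

end

/-- the window law -/
noncomputable def P (G : SimpleGraph ℕ) (W R : Finset (Sym2 ℕ)) : ℝ :=
  limsup (fun S : Finset ℕ => rho G S W R) atTop

theorem rho_eq_zero {G : SimpleGraph ℕ} {S : Finset ℕ} (hS : S ∉ Conn G) (W R : Finset (Sym2 ℕ)) :
    rho G S W R = 0 := by
  have : trees G S = ∅ := by
    unfold trees
    rw [Finset.filter_eq_empty_iff]
    rintro A _ ⟨hA, htree⟩
    apply hS
    have hc := htree.connected
    refine SimpleGraph.Connected.mono ?_ hc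
    intro a b hab
    simp only [SimpleGraph.comap_adj, Function.Embedding.subtype_apply, SimpleGraph.fromEdgeSet_adj] at hab ⊢
    have := hA (Finset.mem_coe.mp hab.1)
    exact ((mem_edgesIn G S _).mp this).2
  unfold rho
  rw [this]
  simp

theorem P_eq_of_tendsto {G : SimpleGraph ℕ} (hG : G.Connected) (W R : Finset (Sym2 ℕ)) (ℓ : ℝ)
    (h : Tendsto (fun S => rho G S W R) (LG G) (𝓝 ℓ)) : P G W R = ℓ := by
  have hne := LG_neBot hG
  have hℓ0 : 0 ≤ ℓ := ge_of_tendsto h (Eventually.of_forall fun S => rho_nonneg _ _ _ _)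
  have hbdd : IsBoundedUnder (· ≤ ·) atTop (fun S : Finset ℕ => rho G S W R) :=
    isBoundedUnder_of ⟨1, fun S => rho_le_one _ _ _ _⟩
  have hcobdd : IsCoboundedUnder (· ≤ ·) atTop (fun S : Finset ℕ => rho G S W R) :=
    (isBoundedUnder_of ⟨0, fun S => rho_nonneg _ _ _ _⟩ :
      IsBoundedUnder (· ≥ ·) atTop (fun S : Finset ℕ => rho G S W R)).isCoboundedUnder_flip
  unfold P
  apply le_antisymm
  · apply le_of_forall_pos_le_add
    intro ε hε
    apply limsup_le_of_le hcobdd
    have h1 := (Metric.tendsto_nhds.mp h) ε hε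
    unfold LG at h1
    rw [eventually_inf_principal] at h1
    filter_upwards [h1] with S hS
    by_cases hc : S ∈ Conn G
    · have := hS hc
      rw [Real.dist_eq] at this
      have := (abs_lt.mp this).2
      linarith
    · rw [rho_eq_zero hc]
      linarith
  · apply le_of_forall_pos_le_add
    intro ε hε
    have h1 : ℓ - ε ≤ limsup (fun S : Finset ℕ => rho G S W R) atTop := by
      apply le_limsup_of_frequently_le _ hbdd
      have h2 := (Metric.tendsto_nhds.mp h) ε hε
      have h3 : ∃ᶠ S in LG G, ℓ - ε ≤ rho G S W R := by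
        apply Eventually.frequently
        filter_upwards [h2] with S hS
        rw [Real.dist_eq] at hS
        have := (abs_lt.mp hS).1
        linarith
      exact h3.filter_mono inf_le_left
    linarith

/-! ### equivariance -/

theorem map_inj (σ : Equiv.Perm ℕ) : Function.Injective (Sym2.map ⇑σ : Sym2 ℕ → Sym2 ℕ) :=
  Sym2.map.injective σ.injective

theorem edgesIn_comap (σ : Equiv.Perm ℕ) (G : SimpleGraph ℕ) (S : Finset ℕ) :
    edgesIn G (S.image ⇑σ) = (edgesIn (G.comap ⇑σ) S).image (Sym2.map ⇑σ) := by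
  ext e
  induction e using Sym2.ind with
  | _ a b =>
    rw [mem_edgesIn, Finset.mem_image]
    constructor
    · rintro ⟨h1, h2⟩
      have ha := h1 a (Sym2.mem_mk_left a b)
      have hb := h1 b (Sym2.mem_mk_right a b)
      rw [Finset.mem_image] at ha hb
      obtain ⟨a', ha', rfl⟩ := ha
      obtain ⟨b', hb', rfl⟩ := hb
      refine ⟨s(a', b'), ?_, by simp⟩
      rw [mem_edgesIn]
      refine ⟨fun c hc => ?_, h2⟩
      rw [Sym2.mem_iff] at hc
      rcases hc with rfl | rfl <;> assumption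
    · rintro ⟨e', he', heq⟩
      rw [← heq]
      rw [mem_edgesIn] at he'
      induction e' using Sym2.ind with
      | _ c d =>
        simp only [Sym2.map_mk]
        refine ⟨fun x hx => ?_, he'.2⟩
        rw [Sym2.mem_iff] at hx
        rw [Finset.mem_image]
        rcases hx with rfl | rfl
        · exact ⟨c, he'.1 c (Sym2.mem_mk_left c d), rfl⟩
        · exact ⟨d, he'.1 d (Sym2.mem_mk_right c d), rfl⟩

theorem tree_iff (σ : Equiv.Perm ℕ) (S : Finset ℕ) (A : Finset (Sym2 ℕ)) :
    ((SimpleGraph.fromEdgeSet ((A.image (Sym2.map ⇑σ) : Finset (Sym2 ℕ)) : Set (Sym2 ℕ))).induce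
      ((S.image ⇑σ : Finset ℕ) : Set ℕ)).IsTree ↔
    ((SimpleGraph.fromEdgeSet (A : Set (Sym2 ℕ))).induce (S : Set ℕ)).IsTree := by
  have hmem : ∀ a : ℕ, σ a ∈ ((S.image ⇑σ : Finset ℕ) : Set ℕ) ↔ a ∈ (S : Set ℕ) := by
    intro a
    simp
  let e : (S : Set ℕ) ≃ ((S.image ⇑σ : Finset ℕ) : Set ℕ) :=
    σ.subtypeEquiv (fun a => (hmem a).symm)
  have hiso : ((SimpleGraph.fromEdgeSet (A : Set (Sym2 ℕ))).induce (S : Set ℕ)) ≃g
      ((SimpleGraph.fromEdgeSet ((A.image (Sym2.map ⇑σ) : Finset (Sym2 ℕ)) : Set (Sym2 ℕ))).induce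
      ((S.image ⇑σ : Finset ℕ) : Set ℕ)) := by
    refine ⟨e, ?_⟩
    intro a b
    simp only [SimpleGraph.comap_adj, Function.Embedding.subtype_apply, SimpleGraph.fromEdgeSet_adj,
      Finset.mem_coe]
    have h1 : s(((e a : ((S.image ⇑σ : Finset ℕ) : Set ℕ)) : ℕ), ((e b : ((S.image ⇑σ : Finset ℕ) : Set ℕ)) : ℕ)) =
        Sym2.map ⇑σ s((a : ℕ), (b : ℕ)) := rfl
    have h2 : ((e a : ((S.image ⇑σ : Finset ℕ) : Set ℕ)) : ℕ) ≠ ((e b : ((S.image ⇑σ : Finset ℕ) : Set ℕ)) : ℕ) ↔
        (a : ℕ) ≠ (b : ℕ) := σ.injective.ne_iff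
    rw [h1, h2, (map_inj σ).mem_finset_image]
  exact (hiso.isTree_iff).symm

theorem trees_comap (σ : Equiv.Perm ℕ) (G : SimpleGraph ℕ) (S : Finset ℕ) :
    trees G (S.image ⇑σ) = (trees (G.comap ⇑σ) S).image (fun A => A.image (Sym2.map ⇑σ)) := by
  ext B
  unfold trees
  rw [Finset.mem_filter, Finset.mem_powerset, Finset.mem_image]
  constructor
  · rintro ⟨h1, h2⟩
    rw [edgesIn_comap] at h1
    obtain ⟨A, hA, rfl⟩ := Finset.subset_image_iff.mp h1
    refine ⟨A, ?_, rfl⟩
    rw [Finset.mem_filter, Finset.mem_powerset]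
    exact ⟨hA, hA, (tree_iff σ S A).mp h2.2⟩
  · rintro ⟨A, hA, rfl⟩
    rw [Finset.mem_filter, Finset.mem_powerset] at hA
    have h3 : A.image (Sym2.map ⇑σ) ⊆ edgesIn G (S.image ⇑σ) := by
      rw [edgesIn_comap]
      exact Finset.image_subset_image hA.1
    exact ⟨h3, h3, (tree_iff σ S A).mpr hA.2.2⟩

theorem rho_comap (σ : Equiv.Perm ℕ) (G : SimpleGraph ℕ) (S : Finset ℕ) (W R : Finset (Sym2 ℕ)) :
    rho (G.comap ⇑σ) S W R = rho G (S.image ⇑σ) (W.image (Sym2.map ⇑σ)) (R.image (Sym2.map ⇑σ)) := by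
  unfold rho
  have hinj : Function.Injective (fun A : Finset (Sym2 ℕ) => A.image (Sym2.map ⇑σ)) :=
    Finset.image_injective (map_inj σ)
  rw [trees_comap, Finset.filter_image, Finset.card_image_of_injective _ hinj,
    Finset.card_image_of_injective _ hinj]
  congr 3
  apply Finset.filter_congr
  intro A _
  rw [← Finset.image_inter _ _ (map_inj σ)]
  exact (hinj.eq_iff).symm

theorem P_comap (σ : Equiv.Perm ℕ) (G : SimpleGraph ℕ) (W R : Finset (Sym2 ℕ)) :
    P (G.comap ⇑σ) W R = P G (W.image (Sym2.map ⇑σ)) (R.image (Sym2.map ⇑σ)) := by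
  unfold P
  have h1 : (fun S : Finset ℕ => rho (G.comap ⇑σ) S W R) =
      (fun S : Finset ℕ => rho G S (W.image (Sym2.map ⇑σ)) (R.image (Sym2.map ⇑σ))) ∘
      (fun S : Finset ℕ => S.image ⇑σ) := by
    funext S
    exact rho_comap σ G S W R
  have h3 : map (fun S : Finset ℕ => S.image ⇑σ) atTop = atTop := by
    apply le_antisymm
    · show Tendsto (fun S : Finset ℕ => S.image ⇑σ) atTop atTop
      rw [tendsto_atTop]
      intro B
      filter_upwards [eventually_ge_atTop (B.image ⇑σ.symm)] with W hW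
      intro b hb
      rw [Finset.mem_image]
      refine ⟨σ.symm b, hW ?_, by simp⟩
      rw [Finset.mem_image]
      exact ⟨b, hb, rfl⟩
    · intro s hs
      rw [mem_map, mem_atTop_sets] at hs
      obtain ⟨B, hB⟩ := hs
      rw [mem_atTop_sets]
      refine ⟨B.image ⇑σ, fun W hW => ?_⟩
      have h4 := hB (W.image ⇑σ.symm) (by
        intro b hb
        rw [Finset.mem_image]
        exact ⟨σ b, hW (by rw [Finset.mem_image]; exact ⟨b, hb, rfl⟩), by simp⟩)
      have h5 : (W.image ⇑σ.symm).image ⇑σ = W := by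
        rw [Finset.image_image]
        simp
      rw [Set.mem_preimage, h5] at h4
      exact h4
  rw [h1, limsup_comp, h3]

/-! ### measurability -/

theorem measurableSet_edge (e : Sym2 ℕ) :
    MeasurableSet {A : ℕ → ℕ → Bool | e ∈ (graphOfTable A).edgeSet} := by
  induction e using Sym2.ind with
  | _ i j =>
    have h : {A : ℕ → ℕ → Bool | s(i, j) ∈ (graphOfTable A).edgeSet} =
        {A | i ≠ j} ∩ ({A : ℕ → ℕ → Bool | A i j = true} ∪ {A : ℕ → ℕ → Bool | A j i = true}) := by
      ext A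
      simp [graphOfTable, SimpleGraph.fromRel_adj]
    rw [h]
    have hm : ∀ i j : ℕ, MeasurableSet {A : ℕ → ℕ → Bool | A i j = true} := by
      intro i j
      have h1 : Measurable (fun A : ℕ → ℕ → Bool => A i j) :=
        (measurable_pi_apply j).comp (measurable_pi_apply i)
      exact h1 (measurableSet_singleton true)
    exact (MeasurableSet.const _).inter ((hm i j).union (hm j i))

theorem measurable_edgesIn (S : Finset ℕ) (h : Finset (Sym2 ℕ) → ℝ) :
    Measurable (fun A : ℕ → ℕ → Bool => h (edgesIn (graphOfTable A) S)) := by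
  letI : MeasurableSpace (Finset (Sym2 ℕ)) := ⊤
  have h1 : Measurable (fun A : ℕ → ℕ → Bool => edgesIn (graphOfTable A) S) := by
    apply measurable_to_countable'
    intro B
    by_cases hB : B ⊆ S.sym2
    · have h2 : (fun A : ℕ → ℕ → Bool => edgesIn (graphOfTable A) S) ⁻¹' {B} =
          ⋂ e ∈ S.sym2, {A : ℕ → ℕ → Bool | e ∈ (graphOfTable A).edgeSet ↔ e ∈ B} := by
        ext A
        simp only [Set.mem_preimage, Set.mem_singleton_iff, Set.mem_iInter, Set.mem_setOf_eq]
        constructor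
        · intro hA e he
          rw [← hA, mem_edgesIn]
          rw [Finset.mem_sym2_iff] at he
          exact ⟨fun h => ⟨he, h⟩, fun h => h.2⟩
        · intro hA
          ext e
          rw [mem_edgesIn]
          constructor
          · rintro ⟨h3, h4⟩
            exact (hA e (Finset.mem_sym2_iff.mpr h3)).mp h4
          · intro he
            have h3 := hB he
            exact ⟨Finset.mem_sym2_iff.mp h3, (hA e h3).mpr he⟩
      rw [h2]
      apply Finset.measurableSet_biInter
      intro e _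
      by_cases heB : e ∈ B
      · simp only [heB, iff_true]
        exact measurableSet_edge e
      · simp only [heB, iff_false]
        exact (measurableSet_edge e).compl
    · have h2 : (fun A : ℕ → ℕ → Bool => edgesIn (graphOfTable A) S) ⁻¹' {B} = ∅ := by
        ext A
        simp only [Set.mem_preimage, Set.mem_singleton_iff, Set.mem_empty_iff_false, iff_false]
        intro hA
        apply hB
        intro e he
        rw [← hA, mem_edgesIn] at he
        exact Finset.mem_sym2_iff.mpr he.1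
      rw [h2]
      exact MeasurableSet.empty
  have h3 : Measurable h := measurable_from_top
  exact h3.comp h1

theorem measurable_rho (S : Finset ℕ) (W R : Finset (Sym2 ℕ)) :
    Measurable (fun A : ℕ → ℕ → Bool => rho (graphOfTable A) S W R) := by
  set hh : Finset (Sym2 ℕ) → ℝ := (fun B : Finset (Sym2 ℕ) =>
        (((B.powerset.filter (fun A : Finset (Sym2 ℕ) => ((SimpleGraph.fromEdgeSet (A : Set (Sym2 ℕ))).induce
          (S : Set ℕ)).IsTree)).filter (fun A => A ∩ W = R)).card : ℝ) /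
        ((B.powerset.filter (fun A : Finset (Sym2 ℕ) => ((SimpleGraph.fromEdgeSet (A : Set (Sym2 ℕ))).induce
          (S : Set ℕ)).IsTree)).card : ℝ)) with hhh
  have h : ∀ G : SimpleGraph ℕ, rho G S W R = hh (edgesIn G S) := by
    intro G
    have h1 : trees G S = (edgesIn G S).powerset.filter
        (fun A : Finset (Sym2 ℕ) =>
          ((SimpleGraph.fromEdgeSet (A : Set (Sym2 ℕ))).induce (S : Set ℕ)).IsTree) := by
      unfold trees
      apply Finset.filter_congr
      intro A hA
      unfold IsSpanningTreeOn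
      exact ⟨fun h => h.2, fun h => ⟨Finset.mem_powerset.mp hA, h⟩⟩
    unfold rho
    rw [h1]
  have h2 : (fun A : ℕ → ℕ → Bool => rho (graphOfTable A) S W R) =
      fun A => hh (edgesIn (graphOfTable A) S) := by
    funext A
    exact h _
  rw [h2]
  exact measurable_edgesIn S hh

theorem measurable_P : Measurable (fun A : ℕ → ℕ → Bool => P (graphOfTable A)) := by
  rw [measurable_pi_iff]
  intro W
  rw [measurable_pi_iff]
  intro R
  unfold P
  exact Measurable.limsup' (u := (atTop : Filter (Finset ℕ))) (fun S => measurable_rho S W R)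
    atTop_countable_basis (fun _ => Set.to_countable _)

/-! ### conclusion -/

theorem exists_fusf_law_of
    (hT2 : ∀ (G : SimpleGraph ℕ) (S S' : Finset ℕ), (G.induce (S : Set ℕ)).Connected →
      (G.induce (S' : Set ℕ)).Connected → S ⊆ S' → ∀ F : Finset (Sym2 ℕ), F ⊆ edgesIn G S →
      ustContains G S' F ≤ ustContains G S F) :
    ∃ P : SimpleGraph ℕ → WinLaw (Sym2 ℕ),
      Measurable (fun A : ℕ → ℕ → Bool => P (graphOfTable A)) ∧
      (∀ (σ : Equiv.Perm ℕ) (G : SimpleGraph ℕ) (W R : Finset (Sym2 ℕ)),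
        P (G.comap ⇑σ) W R =
          P G (W.image (Sym2.map ⇑σ)) (R.image (Sym2.map ⇑σ))) ∧
      ∀ G : SimpleGraph ℕ, G.Connected → (∀ v : ℕ, (G.neighborSet v).Finite) →
        IsSR (P G) ∧ (∀ e, e ∉ G.edgeSet → P G {e} {e} = 0) ∧
        ∀ S : ℕ → Finset ℕ, Monotone S → (∀ v : ℕ, ∃ n, v ∈ S n) →
          (∀ n, (G.induce (S n : Set ℕ)).Connected) →
          ∀ F : Finset (Sym2 ℕ), (F : Set (Sym2 ℕ)) ⊆ G.edgeSet →
            Tendsto (fun n => ustContains G (S n) F) atTop (𝓝 (P G F F)) := by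
  refine ⟨P, measurable_P, P_comap, ?_⟩
  intro G hG _
  have hne := LG_neBot hG
  have hlim : ∀ W R : Finset (Sym2 ℕ), R ⊆ W → Tendsto (fun S => rho G S W R) (LG G) (𝓝 (P G W R)) := by
    intro W R hR
    obtain ⟨ℓ, hℓ⟩ := tendsto_rho hT2 hG W _ R hR rfl
    rw [P_eq_of_tendsto hG W R ℓ hℓ]
    exact hℓ
  refine ⟨⟨?_, ?_, ?_, ?_⟩, ?_, ?_⟩
  · intro W R hR
    exact ge_of_tendsto (hlim W R hR) (Eventually.of_forall fun S => rho_nonneg _ _ _ _)
  · intro W
    have h1 : Tendsto (fun S => ∑ R ∈ W.powerset, rho G S W R) (LG G)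
        (𝓝 (∑ R ∈ W.powerset, P G W R)) :=
      tendsto_finset_sum _ (fun R hR => hlim W R (Finset.mem_powerset.mp hR))
    have h2 : Tendsto (fun S => ∑ R ∈ W.powerset, rho G S W R) (LG G) (𝓝 1) := by
      apply tendsto_const_nhds.congr'
      filter_upwards [ev_conn G] with S hS
      exact (rho_total hS W).symm
    exact tendsto_nhds_unique h1 h2
  · intro W W' hW R hR
    have h1 := hlim W R hR
    have h2 : Tendsto (fun S => ∑ R' ∈ W'.powerset.filter (fun R' => R' ∩ W = R), rho G S W' R')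
        (LG G) (𝓝 (∑ R' ∈ W'.powerset.filter (fun R' => R' ∩ W = R), P G W' R')) :=
      tendsto_finset_sum _ (fun R' hR' => hlim W' R'
        (Finset.mem_powerset.mp (Finset.mem_filter.mp hR').1))
    have h3 : P G W R = ∑ R' ∈ W'.powerset.filter (fun R' => R' ∩ W = R), P G W' R' := by
      refine tendsto_nhds_unique h1 (h2.congr (fun S => ?_))
      exact (rho_consistent G S hW R hR).symm
    convert h3
  · intro W z hz
    refine T5.stable_of_tendsto (LG G) W (fun S R => rho G S W R) (fun R => P G W R) ?_ ?_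
      (fun R hR => hlim W R hR) z hz
    · filter_upwards [ev_conn G] with S hS z hz
      exact rho_stable hS W z hz
    · filter_upwards [ev_conn G] with S hS
      exact rho_total hS W
  · intro e he
    have h1 := hlim {e} {e} (Finset.Subset.refl _)
    refine tendsto_nhds_unique h1 ?_
    apply tendsto_const_nhds.congr
    intro S
    rw [rho_self, ust_zero]
    simpa using he
  · intro S hmono hexh hconn F _
    have h1 := hlim F F (Finset.Subset.refl _)
    simp_rw [rho_self] at h1
    apply h1.comp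
    unfold LG
    rw [tendsto_inf, tendsto_principal]
    refine ⟨?_, Eventually.of_forall hconn⟩
    rw [tendsto_atTop]
    intro B
    have h2 : ∀ v ∈ B, ∀ᶠ n in atTop, v ∈ S n := by
      intro v _
      obtain ⟨n, hn⟩ := hexh v
      filter_upwards [eventually_ge_atTop n] with m hm
      exact hmono hm hn
    have h3 := (Filter.eventually_all_finset B).mpr h2
    filter_upwards [h3] with n hn v hv
    exact hn v hv

end Crest.Agent.FIID.T4
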